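import Crest.Agent.R323.Had

/-!
# Row 323: bounded universal quantifiers and primitive recursion
-/

set_option autoImplicit false

namespace Crest.Agent.R323

/-- A function with two distinguished arguments: substitution. -/
theorem SFn.subst2 {γ α : Type} [Finite γ] {T : ℕ → ℕ → (γ → ℕ) → ℕ}
    (hT : SFn fun v : Option (Option γ) → ℕ =>
      T (v (some none)) (v none) fun i => v (some (some i)))
    {f g : (α → ℕ) → ℕ} {F : γ → (α → ℕ) → ℕ} (hf : SFn f) (hg : SFn g) (hF : ∀ i, SFn (F i)) :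
    SFn fun v => T (f v) (g v) fun i => F i v :=
  hT.subst (F := fun o v => o.elim (g v) fun o' => o'.elim (f v) fun i => F i v) fun o => by
    rcases o with _ | _ | i
    · exact hg
    · exact hf
    · exact hF i

/-- Coding the values of a polynomial along a sequence of arguments. -/
theorem NP.code {γ : Type} {f : (γ → ℕ) → ℕ} (hf : NP f) :
    ∃ (D : ℕ) (T : ℕ → ℕ → (γ → ℕ) → ℕ),
      (SFn fun v : Option (Option γ) → ℕ =>
        T (v (some none)) (v none) fun i => v (some (some i))) ∧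
      ∀ r, 1 ≤ r → (∀ u : γ → ℕ, (∀ i, u i < 2 ^ r) → f u < 2 ^ (D * r)) ∧
        ∀ (k x : ℕ) (u : ℕ → γ → ℕ), D * r ≤ k → (∀ y < x, ∀ i, u y i < 2 ^ r) →
          T k x (fun i => ev (2 ^ k) x fun y => u y i) = ev (2 ^ k) x fun y => f (u y) := by
  obtain ⟨H, hH, hH'⟩ := exists_had
  induction hf with
  | proj i =>
    exact ⟨1, fun _ _ C => C i, by sf, fun r _ => ⟨fun u hu => by simpa using hu i,
      fun k x u _ _ => rfl⟩⟩
  | const c =>
    refine ⟨c, fun k x _ => c * rep (2 ^ k) x, by sf, fun r hr => ⟨fun u _ => ?_,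
      fun k x u _ _ => (ev_const c).symm⟩⟩
    calc c < 2 ^ c := Nat.lt_two_pow_self
      _ ≤ 2 ^ (c * r) := Nat.pow_le_pow_right (by norm_num) (Nat.le_mul_of_pos_right _ hr)
  | add _ _ ih₁ ih₂ =>
    obtain ⟨D₁, T₁, s₁, h₁⟩ := ih₁
    obtain ⟨D₂, T₂, s₂, h₂⟩ := ih₂
    refine ⟨D₁ + D₂ + 1, fun k x C => T₁ k x C + T₂ k x C, s₁.add s₂, fun r hr => ⟨fun u hu => ?_,
      fun k x u hk hu => ?_⟩⟩
    · have a1 := (h₁ r hr).1 u hu
      have a2 := (h₂ r hr).1 u hu
      have b1 : 2 ^ (D₁ * r) ≤ 2 ^ ((D₁ + D₂) * r) :=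
        Nat.pow_le_pow_right (by norm_num) (by nlinarith)
      have b2 : 2 ^ (D₂ * r) ≤ 2 ^ ((D₁ + D₂) * r) :=
        Nat.pow_le_pow_right (by norm_num) (by nlinarith)
      have b3 : 2 ^ ((D₁ + D₂) * r + 1) ≤ 2 ^ ((D₁ + D₂ + 1) * r) :=
        Nat.pow_le_pow_right (by norm_num) (by nlinarith)
      rw [pow_succ] at b3
      beta_reduce
      omega
    · beta_reduce
      rw [(h₁ r hr).2 k x u (by nlinarith) hu, (h₂ r hr).2 k x u (by nlinarith) hu, ev_add]
  | @mul f g _ _ ih₁ ih₂ =>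
    obtain ⟨D₁, T₁, s₁, h₁⟩ := ih₁
    obtain ⟨D₂, T₂, s₂, h₂⟩ := ih₂
    have hb : ∀ r, 1 ≤ r → ∀ u : γ → ℕ, (∀ i, u i < 2 ^ r) → f u * g u < 2 ^ ((D₁ + D₂) * r) := by
      intro r hr u hu
      rw [add_mul, pow_add]
      exact Nat.mul_lt_mul'' ((h₁ r hr).1 u hu) ((h₂ r hr).1 u hu)
    refine ⟨D₁ + D₂, fun k x C => H k x (T₁ k x C) (T₂ k x C), hH (.proj _) (.proj _) s₁ s₂,
      fun r hr => ⟨hb r hr, fun k x u hk hu => ?_⟩⟩
    beta_reduce
    rw [(h₁ r hr).2 k x u (by nlinarith) hu, (h₂ r hr).2 k x u (by nlinarith) hu]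
    refine hH' k x _ _ (fun y hy => ?_) (fun y hy => ?_) (fun y hy => ?_)
    · exact ((h₁ r hr).1 _ (hu y hy)).trans_le (Nat.pow_le_pow_right (by norm_num) (by nlinarith))
    · exact ((h₂ r hr).1 _ (hu y hy)).trans_le (Nat.pow_le_pow_right (by norm_num) (by nlinarith))
    · exact (hb r hr _ (hu y hy)).trans_le (Nat.pow_le_pow_right (by norm_num) hk)

/-- The code of the sequence `0, 1, …, x - 1`. -/
def idc (U x : ℕ) : ℕ := (x * U ^ x - U * rep U x) / (U - 1)

theorem idc_eq {U x : ℕ} (hU : 2 ≤ U) : idc U x = ev U x fun y => y := by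
  unfold idc
  rw [← ev_id (U := U) (x := x) (by omega), Nat.add_sub_cancel,
    Nat.mul_div_cancel_left _ (by omega)]

theorem ev_mod_pred {U x : ℕ} {d : ℕ → ℕ} (hU : 1 ≤ U) :
    ev U x d ≡ ∑ y ∈ Finset.range x, d y [MOD U - 1] := by
  rw [← ev_one]; exact ev_modEq hU

theorem modEq_sum {ι : Type} (s : Finset ι) {a b : ι → ℕ} {m : ℕ} (h : ∀ i ∈ s, a i ≡ b i [MOD m]) :
    ∑ i ∈ s, a i ≡ ∑ i ∈ s, b i [MOD m] := by
  classical
  induction s using Finset.induction_on with
  | empty => rfl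
  | insert i s hi ih =>
    rw [Finset.sum_insert hi, Finset.sum_insert hi]
    exact (h i (by simp)).add (ih fun j hj => h j (by simp [hj]))

theorem SF.ball {α : Type} [Finite α] {p : ℕ → (α → ℕ) → Prop}
    (hp : SF fun v : Option α → ℕ => p (v none) fun i => v (some i))
    {b : (α → ℕ) → ℕ} (hb : SFn b) : SF fun v => ∀ y < b v, p y v := by
  classical
  obtain ⟨β, _, f, g, hf, hg, h1, h2⟩ := hp
  have := Fintype.ofFinite α
  have := Fintype.ofFinite β
  obtain ⟨D₁, T₁, s₁, t₁⟩ := hf.code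
  obtain ⟨D₂, T₂, s₂, t₂⟩ := hg.code
  let N := Fintype.card β
  let R : ℕ → (α → ℕ) → ℕ := fun q v => q + ∑ i, v i + b v + 1
  let K : ℕ → (α → ℕ) → ℕ := fun q v => (D₁ + D₂) * R q v + N + b v + R q v + 1
  let Cd : ℕ → ℕ → (α → ℕ) → (β → ℕ) → Option α ⊕ β → ℕ := fun k x v Z =>
    Sum.elim (fun o => o.elim (idc (2 ^ k) x) fun i => v i * rep (2 ^ k) x) Z
  let U : (α → ℕ) → (ℕ → β → ℕ) → ℕ → Option α ⊕ β → ℕ := fun v w y =>
    Sum.elim (fun o => o.elim y v) (w y)
  let cond : ℕ → (β → ℕ) → (α → ℕ) → Prop := fun q Z v =>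
    (∀ j, Z j &&& ((2 ^ R q v - 1) * rep (2 ^ K q v) (b v)) = Z j) ∧
      (∑ j, Z j) % (2 ^ K q v - 1) = q ∧
      T₁ (K q v) (b v) (Cd (K q v) (b v) v Z) = T₂ (K q v) (b v) (Cd (K q v) (b v) v Z)
  -- the meaning of `cond`
  have key : ∀ q Z v, cond q Z v ↔ ∃ w : ℕ → β → ℕ, (∀ y < b v, ∀ j, w y j < 2 ^ R q v) ∧
      (∀ j, Z j = ev (2 ^ K q v) (b v) fun y => w y j) ∧
      q = ∑ j, ∑ y ∈ Finset.range (b v), w y j ∧ ∀ y < b v, f (U v w y) = g (U v w y) := by
    intro q Z v
    have hR : 1 ≤ R q v := by simp only [R]; omega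
    have hRK : R q v ≤ K q v := by simp only [K]; omega
    have hK1 : D₁ * R q v ≤ K q v := by simp only [K]; nlinarith
    have hK2 : D₂ * R q v ≤ K q v := by simp only [K]; nlinarith
    have hQ : 2 ≤ 2 ^ K q v := Nat.le_self_pow (by omega) 2
    have aux : ∀ w : ℕ → β → ℕ, (∀ y < b v, ∀ j, w y j < 2 ^ R q v) →
        (∀ j, Z j = ev (2 ^ K q v) (b v) fun y => w y j) →
        ((∑ j, Z j) % (2 ^ K q v - 1) = ∑ j, ∑ y ∈ Finset.range (b v), w y j) ∧
        (T₁ (K q v) (b v) (Cd (K q v) (b v) v Z) = T₂ (K q v) (b v) (Cd (K q v) (b v) v Z) ↔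
          ∀ y < b v, f (U v w y) = g (U v w y)) := by
      intro w hw hZ
      constructor
      · have e1 : ∑ j, Z j ≡ ∑ j, ∑ y ∈ Finset.range (b v), w y j [MOD 2 ^ K q v - 1] :=
          modEq_sum _ fun j _ => by rw [hZ j]; exact ev_mod_pred (by omega)
        have e2 : ∑ j, ∑ y ∈ Finset.range (b v), w y j ≤ N * (b v * 2 ^ R q v) := by
          calc ∑ j, ∑ y ∈ Finset.range (b v), w y j
              ≤ ∑ _j : β, ∑ _y ∈ Finset.range (b v), 2 ^ R q v :=
                Finset.sum_le_sum fun j _ => Finset.sum_le_sum fun y hy =>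
                  (hw y (Finset.mem_range.1 hy) j).le
            _ = N * (b v * 2 ^ R q v) := by simp [N]
        have e3 : N * (b v * 2 ^ R q v) ≤ 2 ^ (N + b v + R q v) := by
          rw [pow_add 2 (N + b v), pow_add 2 N, mul_assoc]
          exact Nat.mul_le_mul Nat.lt_two_pow_self.le
            (Nat.mul_le_mul_right _ Nat.lt_two_pow_self.le)
        have e4 : 2 ^ (N + b v + R q v + 1) ≤ 2 ^ K q v :=
          Nat.pow_le_pow_right (by norm_num) (by simp only [K]; omega)
        have e5 : 2 ≤ 2 ^ (N + b v + R q v) := Nat.le_self_pow (by omega) 2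
        rw [pow_succ] at e4
        rw [e1, Nat.mod_eq_of_lt (by omega)]
      · have hU : ∀ y < b v, ∀ i, U v w y i < 2 ^ R q v := by
          intro y hy i
          rcases i with (_ | i) | j
          · exact (show y < R q v by simp only [R]; omega).trans Nat.lt_two_pow_self
          · have : v i ≤ ∑ i, v i :=
              Finset.single_le_sum (f := v) (fun _ _ => Nat.zero_le _) (Finset.mem_univ i)
            exact (show v i < R q v by simp only [R]; omega).trans Nat.lt_two_pow_self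
          · exact hw y hy j
        have hC : Cd (K q v) (b v) v Z = fun i => ev (2 ^ K q v) (b v) fun y => U v w y i := by
          funext i
          rcases i with (_ | i) | j
          · exact idc_eq hQ
          · exact (ev_const _).symm
          · exact hZ j
        rw [hC, (t₁ _ hR).2 _ _ _ hK1 hU, (t₂ _ hR).2 _ _ _ hK2 hU]
        refine ⟨ev_inj (fun y hy => ?_) (fun y hy => ?_), ev_congr⟩
        · exact ((t₁ _ hR).1 _ (hU y hy)).trans_le (Nat.pow_le_pow_right (by norm_num) hK1)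
        · exact ((t₂ _ hR).1 _ (hU y hy)).trans_le (Nat.pow_le_pow_right (by norm_num) hK2)
    constructor
    · rintro ⟨c1, c2, c3⟩
      choose d hd hd' using fun j => (mask_iff hRK).1 (c1 j)
      obtain ⟨a1, a2⟩ := aux (fun y j => d j y) (fun y hy j => hd j y hy) hd'
      exact ⟨fun y j => d j y, fun y hy j => hd j y hy, hd', by rw [← a1, c2], a2.1 c3⟩
    · rintro ⟨w, hw, hZ, hq, hfg⟩
      obtain ⟨a1, a2⟩ := aux w hw hZ
      exact ⟨fun j => (mask_iff hRK).2 ⟨_, fun y hy => hw y hy j, hZ j⟩, by rw [a1, ← hq], a2.2 hfg⟩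
  refine (SF.exs (β := Option β) (q := fun w v => cond (w none) (fun j => w (some j)) v)
    ?_ ?_).congr fun v => ?_
  · have hb' : SFn fun u : α ⊕ Option β → ℕ => b fun i => u (Sum.inl i) := hb.reindex _
    have hR : SFn fun u : α ⊕ Option β → ℕ => R (u (Sum.inr none)) fun i => u (Sum.inl i) :=
      (((SFn.proj _).add (SFn.sum _ fun i _ => .proj _)).add hb').add (.const _)
    have hK : SFn fun u : α ⊕ Option β → ℕ => K (u (Sum.inr none)) fun i => u (Sum.inl i) :=
      (((((SFn.const _).mul hR).add (.const _)).add hb').add hR).add (.const _)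
    have hCd : ∀ i, SFn fun u : α ⊕ Option β → ℕ =>
        Cd (K (u (Sum.inr none)) fun i => u (Sum.inl i)) (b fun i => u (Sum.inl i))
          (fun i => u (Sum.inl i)) (fun j => u (Sum.inr (some j))) i := by
      intro i
      rcases i with (_ | i) | j
      · simp only [Cd, Sum.elim_inl, Option.elim_none, idc]; sf
      · simp only [Cd, Sum.elim_inl, Option.elim_some]; sf
      · exact .proj _
    refine SF.and (SF.all_fin fun j => ?_) (SF.and ?_ ?_)
    · sf
    · exact SF.eq (SFn.mod (SFn.sum _ fun j _ => .proj _) (by sf)) (.proj _)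
    · exact SF.eq (s₁.subst2 hK hb' hCd) (s₂.subst2 hK hb' hCd)
  · intro v W W' e e'
    obtain ⟨w, -, hZ, hq, hfg⟩ := (key _ _ _).1 e
    obtain ⟨w', -, hZ', hq', hfg'⟩ := (key _ _ _).1 e'
    have hw : ∀ y < b v, w y = w' y := fun y hy => h2 _ _ _ (hfg y hy) (hfg' y hy)
    have hq2 : W none = W' none := by
      rw [hq, hq']
      exact Finset.sum_congr rfl fun j _ => Finset.sum_congr rfl fun y hy => by
        rw [hw y (Finset.mem_range.1 hy)]
    funext o
    cases o with
    | none => exact hq2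
    | some j =>
      rw [hZ j, hZ' j, hq2]
      exact ev_congr fun y hy => by rw [hw y hy]
  · constructor
    · rintro ⟨W, e⟩ y hy
      obtain ⟨w, -, -, -, hfg⟩ := (key _ _ _).1 e
      exact (h1 fun o => o.elim y v).2 ⟨_, hfg y hy⟩
    · intro H
      have : ∀ y, ∃ w : β → ℕ, y < b v →
          f (Sum.elim (fun o => o.elim y v) w) = g (Sum.elim (fun o => o.elim y v) w) := by
        intro y
        by_cases hy : y < b v
        · obtain ⟨w, hw⟩ := (h1 fun o => o.elim y v).1 (H y hy)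
          exact ⟨w, fun _ => hw⟩
        · exact ⟨fun _ => 0, fun h => absurd h hy⟩
      choose w hw using this
      let q := ∑ j, ∑ y ∈ Finset.range (b v), w y j
      refine ⟨fun o => o.elim q fun j => ev (2 ^ K q v) (b v) fun y => w y j,
        (key _ _ _).2 ⟨w, fun y hy j => ?_, fun j => rfl, rfl, hw⟩⟩
      have a1 : w y j ≤ ∑ y ∈ Finset.range (b v), w y j :=
        Finset.single_le_sum (f := fun y => w y j) (fun _ _ => Nat.zero_le _)
          (Finset.mem_range.2 hy)
      have a2 : ∑ y ∈ Finset.range (b v), w y j ≤ q :=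
        Finset.single_le_sum (f := fun j => ∑ y ∈ Finset.range (b v), w y j)
          (fun _ _ => Nat.zero_le _) (Finset.mem_univ j)
      exact (show w y j < R q v by simp only [R]; omega).trans Nat.lt_two_pow_self

theorem SFn.prec {α : Type} [Finite α] {g : (α → ℕ) → ℕ} {h : ℕ → ℕ → (α → ℕ) → ℕ} (hg : SFn g)
    (hh : SFn fun v : Option (Option α) → ℕ =>
      h (v (some none)) (v none) fun i => v (some (some i)))
    {b : (α → ℕ) → ℕ} (hb : SFn b) :
    SFn fun v => (Nat.rec (g v) (fun y ih => h y ih v) (b v) : ℕ) := by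
  let F : (α → ℕ) → ℕ → ℕ := fun v y => Nat.rec (g v) (fun y ih => h y ih v) y
  let Q : ℕ → (α → ℕ) → ℕ := fun q v => (b v + 1) * q + 2
  let cond : ℕ → ℕ → (α → ℕ) → Prop := fun q W v =>
    W < Q q v ^ (b v + 1) ∧ W % (Q q v - 1) = q ∧ W % Q q v = g v ∧
      (∀ y < b v, W / Q q v ^ (y + 1) % Q q v = h y (W / Q q v ^ y % Q q v) v) ∧
      ∀ y < b v + 1, W / Q q v ^ y % Q q v ≤ q
  have key : ∀ q W v, cond q W v ↔
      q = ∑ y ∈ Finset.range (b v + 1), F v y ∧ W = ev (Q q v) (b v + 1) (F v) := by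
    intro q W v
    have hQ : 2 ≤ Q q v := by simp only [Q]; omega
    have aux : (∀ y < b v + 1, F v y ≤ q) →
        ev (Q q v) (b v + 1) (F v) % (Q q v - 1) = ∑ y ∈ Finset.range (b v + 1), F v y := by
      intro hle
      have e2 : ∑ y ∈ Finset.range (b v + 1), F v y ≤ (b v + 1) * q := by
        calc ∑ y ∈ Finset.range (b v + 1), F v y ≤ ∑ _y ∈ Finset.range (b v + 1), q :=
            Finset.sum_le_sum fun y hy => hle y (Finset.mem_range.1 hy)
          _ = (b v + 1) * q := by simp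
      rw [ev_mod_pred (by omega), Nat.mod_eq_of_lt (by simp only [Q]; omega)]
    constructor
    · rintro ⟨c1, c2, c3, c4, c5⟩
      have hd : ∀ y < b v + 1, W / Q q v ^ y % Q q v = F v y := by
        intro y hy
        induction y with
        | zero => rw [pow_zero, Nat.div_one]; exact c3
        | succ y ih => rw [c4 y (by omega), ih (by omega)]
      have hW : W = ev (Q q v) (b v + 1) (F v) := by
        rw [← ev_congr hd, ev_digits, Nat.mod_eq_of_lt c1]
      refine ⟨?_, hW⟩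
      rw [← aux fun y hy => hd y hy ▸ c5 y hy, ← hW, c2]
    · rintro ⟨hq, hW⟩
      have hle : ∀ y < b v + 1, F v y ≤ q := fun y hy => by
        rw [hq]
        exact Finset.single_le_sum (f := F v) (fun _ _ => Nat.zero_le _) (Finset.mem_range.2 hy)
      have hlt : ∀ y < b v + 1, F v y < Q q v := fun y hy => by
        have := hle y hy
        simp only [Q]; nlinarith
      have hd : ∀ y < b v + 1, W / Q q v ^ y % Q q v = F v y := fun y hy => by
        rw [hW]; exact ev_dig hlt hy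
      refine ⟨hW ▸ ev_lt hlt, by rw [hW, aux hle, ← hq], by have := hd 0 (by omega); rwa [pow_zero, Nat.div_one] at this,
        fun y hy => ?_, fun y hy => hd y hy ▸ hle y hy⟩
      rw [hd (y + 1) (by omega), hd y (by omega)]
  refine SFn.intro (fun z v => ∃ q W, cond q W v ∧ z = W / Q q v ^ b v % Q q v) (SF.ex2 ?_ ?_) ?_
  · simp only [cond, Q]
    refine SF.and (SF.and ?_ (SF.and ?_ (SF.and ?_ (SF.and (SF.ball ?_ ?_) (SF.ball ?_ ?_))))) ?_
    · sf [hb.reindex _]
    · sf [hb.reindex _]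
    · sf [hb.reindex _, hg.reindex _]
    · refine SF.eq ?_ (hh.subst2 ?_ ?_ fun i => .proj _) <;> sf [hb.reindex _]
    · sf [hb.reindex _]
    · sf [hb.reindex _]
    · sf [hb.reindex _]
    · sf [hb.reindex _]
  · rintro v q W q' W' ⟨e, -⟩ ⟨e', -⟩
    obtain ⟨a1, a2⟩ := (key _ _ _).1 e
    obtain ⟨a3, a4⟩ := (key _ _ _).1 e'
    have : q = q' := a1.trans a3.symm
    subst this
    exact ⟨rfl, a2.trans a4.symm⟩
  · intro z v
    have hd : ∀ q W, cond q W v → W / Q q v ^ b v % Q q v = F v (b v) := by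
      rintro q W ⟨-, -, c3, c4, -⟩
      have : ∀ y < b v + 1, W / Q q v ^ y % Q q v = F v y := by
        intro y hy
        induction y with
        | zero => rw [pow_zero, Nat.div_one]; exact c3
        | succ y ih => rw [c4 y (by omega), ih (by omega)]
      exact this _ (by omega)
    constructor
    · rintro ⟨q, W, e, rfl⟩
      exact hd q W e
    · rintro rfl
      have e := (key _ _ v).2 ⟨rfl, rfl⟩
      exact ⟨_, _, e, (hd _ _ e).symm⟩

end Crest.Agent.R323
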