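import Mathlib

/-!
# Row 323: canonical height and the cyclic lemma (abstract abelian groups)
-/

set_option autoImplicit false

namespace Crest.Agent.R323

/-- Tate's limit. `q P = lim h (2^j • P) / 4^j`.  With `Q = P` the hypothesis gives
`|h (2 • P) - 4 h P| ≤ C + |h 0|`, so the sequence is Cauchy (`cauchySeq_of_le_geometric`) and
`|q P - h P| ≤ (C + |h 0|) / 3`.  The parallelogram law passes to the limit exactly; then `q 0 = 0`,
`q (-P) = q P` and `q (n • P) = n² q P` by two-step induction. -/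
theorem exists_canon {G : Type} [AddCommGroup G] (h : G → ℝ) (C : ℝ)
    (hp : ∀ P Q, |h (P + Q) + h (P - Q) - 2 * (h P + h Q)| ≤ C) :
    ∃ (q : G → ℝ) (C' : ℝ), (∀ P, |q P - h P| ≤ C') ∧
      (∀ P Q, q (P + Q) + q (P - Q) = 2 * (q P + q Q)) ∧
      ∀ (n : ℤ) (P : G), q (n • P) = (n : ℝ) ^ 2 * q P := by
  set D : ℝ := C + |h 0| with hD
  have hdup : ∀ Q : G, |h (Q + Q) - 4 * h Q| ≤ D := by
    intro Q
    have h1 := hp Q Q
    rw [sub_self] at h1
    have h2 : h (Q + Q) - 4 * h Q = (h (Q + Q) + h 0 - 2 * (h Q + h Q)) - h 0 := by ring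
    rw [h2]
    exact (abs_sub _ _).trans (by linarith)
  let a : G → ℕ → ℝ := fun P j => h ((2 ^ j : ℕ) • P) / 4 ^ j
  have hd : ∀ P j, dist (a P j) (a P (j + 1)) ≤ D / 4 * (1 / 4) ^ j := by
    intro P j
    have e : (2 ^ (j + 1) : ℕ) • P = (2 ^ j : ℕ) • P + (2 ^ j : ℕ) • P := by
      rw [pow_succ, mul_two, add_smul]
    have h1 := hdup ((2 ^ j : ℕ) • P)
    have h4 : (0 : ℝ) < 4 ^ j := by positivity
    rw [Real.dist_eq]
    simp only [a]
    rw [e]
    have h2 : h ((2 ^ j : ℕ) • P) / 4 ^ j - h ((2 ^ j : ℕ) • P + (2 ^ j : ℕ) • P) / 4 ^ (j + 1)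
        = -(h ((2 ^ j : ℕ) • P + (2 ^ j : ℕ) • P) - 4 * h ((2 ^ j : ℕ) • P)) / (4 * 4 ^ j) := by
      rw [pow_succ]; field_simp; ring
    rw [h2, abs_div, abs_neg, abs_of_pos (by positivity : (0 : ℝ) < 4 * 4 ^ j)]
    have h3 : D / 4 * (1 / 4) ^ j = D / (4 * 4 ^ j) := by
      rw [one_div, inv_pow]; field_simp
    rw [h3]
    exact div_le_div_of_nonneg_right h1 (by positivity)
  have hc : ∀ P, ∃ l, Filter.Tendsto (a P) Filter.atTop (nhds l) := fun P =>
    cauchySeq_tendsto_of_complete (cauchySeq_of_le_geometric (1 / 4) (D / 4) (by norm_num) (hd P))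
  choose q hq using hc
  have hpar : ∀ P Q, q (P + Q) + q (P - Q) = 2 * (q P + q Q) := by
    intro P Q
    have t1 : Filter.Tendsto (fun j => a (P + Q) j + a (P - Q) j - 2 * (a P j + a Q j))
        Filter.atTop (nhds (q (P + Q) + q (P - Q) - 2 * (q P + q Q))) :=
      ((hq _).add (hq _)).sub (((hq _).add (hq _)).const_mul 2)
    have t2 : Filter.Tendsto (fun j => a (P + Q) j + a (P - Q) j - 2 * (a P j + a Q j))
        Filter.atTop (nhds 0) := by
      have t3 : Filter.Tendsto (fun j : ℕ => C * (1 / 4 : ℝ) ^ j) Filter.atTop (nhds 0) := by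
        have := (tendsto_pow_atTop_nhds_zero_of_lt_one (r := (1 / 4 : ℝ)) (by norm_num)
          (by norm_num)).const_mul C
        simpa using this
      refine squeeze_zero_norm (fun j => ?_) t3
      have h4 : (0 : ℝ) < 4 ^ j := by positivity
      have h1 := hp ((2 ^ j : ℕ) • P) ((2 ^ j : ℕ) • Q)
      rw [← smul_add, ← smul_sub] at h1
      have h2 : a (P + Q) j + a (P - Q) j - 2 * (a P j + a Q j)
          = (h ((2 ^ j : ℕ) • (P + Q)) + h ((2 ^ j : ℕ) • (P - Q))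
            - 2 * (h ((2 ^ j : ℕ) • P) + h ((2 ^ j : ℕ) • Q))) / 4 ^ j := by
        simp only [a]; field_simp
      rw [Real.norm_eq_abs, h2, abs_div, abs_of_pos h4, one_div, inv_pow, ← div_eq_mul_inv]
      exact div_le_div_of_nonneg_right h1 h4.le
    have := tendsto_nhds_unique t1 t2
    linarith
  have hz : q 0 = 0 := by
    have := hpar 0 0
    rw [add_zero, sub_zero] at this
    linarith
  have hneg : ∀ P, q (-P) = q P := by
    intro P
    have := hpar 0 P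
    rw [zero_add, zero_sub, hz] at this
    linarith
  have hnat : ∀ (P : G) (n : ℕ), q (n • P) = (n : ℝ) ^ 2 * q P ∧
      q ((n + 1) • P) = ((n : ℝ) + 1) ^ 2 * q P := by
    intro P n
    induction n with
    | zero => simp [hz]
    | succ n ih =>
      refine ⟨by rw [ih.2]; push_cast; ring, ?_⟩
      have h1 := hpar ((n + 1) • P) P
      have e1 : (n + 1) • P + P = (n + 1 + 1) • P := (succ_nsmul P (n + 1)).symm
      have e2 : (n + 1) • P - P = n • P := by rw [succ_nsmul]; abel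
      rw [e1, e2, ih.1, ih.2] at h1
      push_cast
      linarith
  refine ⟨q, D / 4 / (1 - 1 / 4), fun P => ?_, hpar, fun n P => ?_⟩
  · have := dist_le_of_le_geometric_of_tendsto₀ (1 / 4) (D / 4) (by norm_num) (hd P) (hq P)
    rw [Real.dist_eq] at this
    simp only [a, pow_zero, one_smul, div_one] at this
    rwa [abs_sub_comm]
  · obtain ⟨m, rfl | rfl⟩ := Int.eq_nat_or_neg n
    · rw [natCast_zsmul, (hnat P m).1]; simp
    · rw [neg_smul, hneg, natCast_zsmul, (hnat P m).1]; simp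

/-- Take `P ≠ 0` with least `q` (finite sublevel sets).  `P ≠ 2 • R` (else `q R = q P / 4`), so
`P = 2 • R₁ - P₂` and every `Q` is `2 • R` or `2 • R + P`.  Let `Q ∉ ⟨P⟩` have least `q` among the
points outside `⟨P⟩`.  If `Q = 2 • R` then `R ∉ ⟨P⟩`, `q Q = 4 q R ≥ 4 q Q`, so `Q = 0`.
If `Q = 2 • R + P` then `Q - P = 2 • R`, `Q + P = 2 • (R + P)`, both `R, R + P ∉ ⟨P⟩`, so
`8 q Q ≤ 2 q Q + 2 q P`, `q Q < q P`: contradiction with the choice of `P`. -/
theorem exists_generator {G : Type} [AddCommGroup G] (q : G → ℝ)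
    (hpar : ∀ P Q, q (P + Q) + q (P - Q) = 2 * (q P + q Q))
    (hq : ∀ (n : ℤ) (P : G), q (n • P) = (n : ℝ) ^ 2 * q P)
    (hfin : ∀ B : ℝ, {P | q P ≤ B}.Finite) (hpos : ∀ P, P ≠ 0 → 0 < q P)
    (P₂ : G) (hD : ∀ Q : G, ∃ R : G, Q = R + R ∨ Q = R + R - P₂) (hne : ∃ Q : G, Q ≠ 0) :
    ∃ P : G, P ≠ 0 ∧ ∀ Q : G, ∃ n : ℤ, Q = n • P := by
  have hmin : ∀ S : Set G, S.Nonempty → ∃ P ∈ S, ∀ Q ∈ S, q P ≤ q Q := by
    rintro S ⟨Q₀, hQ₀⟩
    obtain ⟨P, hP, hPm⟩ := Set.exists_min_image (S ∩ {P | q P ≤ q Q₀}) q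
      ((hfin (q Q₀)).subset Set.inter_subset_right) ⟨Q₀, hQ₀, le_refl (q Q₀)⟩
    refine ⟨P, hP.1, fun Q hQ => ?_⟩
    by_cases hle : q Q ≤ q Q₀
    · exact hPm Q ⟨hQ, hle⟩
    · have : q P ≤ q Q₀ := hP.2
      linarith [not_le.1 hle]
  have hdbl : ∀ R : G, q (R + R) = 4 * q R := by
    intro R
    have := hq 2 R
    rw [two_zsmul] at this
    rw [this]; norm_num
  obtain ⟨P, hP0, hPm⟩ := hmin {Q | Q ≠ 0} hne
  have hP0' : P ≠ 0 := hP0
  have hqP := hpos P hP0'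
  obtain ⟨R₁, hR₁⟩ : ∃ R₁, P = R₁ + R₁ - P₂ := by
    obtain ⟨R, hR | hR⟩ := hD P
    · exfalso
      have hR0 : R ≠ 0 := by
        rintro rfl
        exact hP0' (by rw [hR]; simp)
      have h1 := hPm R hR0
      have h2 := hdbl R
      rw [← hR] at h2
      linarith
    · exact ⟨R, hR⟩
  refine ⟨P, hP0', ?_⟩
  by_contra hcon
  push Not at hcon
  obtain ⟨Q, hQ, hQm⟩ := hmin {Q | ∀ n : ℤ, Q ≠ n • P} hcon
  have hQ0 : Q ≠ 0 := by simpa using hQ 0
  have hqQ := hpos Q hQ0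
  obtain ⟨R, hR | hR⟩ := hD Q
  · have hRS : ∀ n : ℤ, R ≠ n • P := by
      intro n hn
      exact hQ (n + n) (by rw [hR, hn, add_smul])
    have h1 := hQm R hRS
    have h2 := hdbl R
    rw [← hR] at h2
    linarith
  · have e1 : Q - P = (R - R₁) + (R - R₁) := by rw [hR, hR₁]; abel
    have e2 : Q + P = (R - R₁ + P) + (R - R₁ + P) := by
      have : Q = (R - R₁) + (R - R₁) + P := by rw [← e1]; abel
      rw [this]; abel
    have hS1 : ∀ n : ℤ, R - R₁ ≠ n • P := by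
      intro n hn
      refine hQ (n + n + 1) ?_
      have : Q = (R - R₁) + (R - R₁) + P := by rw [← e1]; abel
      rw [this, hn, add_smul, add_smul, one_smul]
    have hS2 : ∀ n : ℤ, R - R₁ + P ≠ n • P := by
      intro n hn
      refine hS1 (n - 1) ?_
      rw [sub_smul, one_smul, ← hn]; abel
    have h1 := hQm _ hS1
    have h2 := hQm _ hS2
    have h3 := hpar Q P
    rw [e1, e2, hdbl, hdbl] at h3
    have h4 := hPm Q hQ0
    linarith

/-- Combination: `q ≥ 0` since `n² q P ≥ h (n • P) - C' ≥ -C'`; if `q P = 0` then all `2^j • P` lie in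
the finite set `{h ≤ C'}`, contradicting `htf`. -/
theorem canon_cyclic {G : Type} [AddCommGroup G] (h : G → ℝ) (C : ℝ) (h0 : ∀ P, 0 ≤ h P)
    (hp : ∀ P Q, |h (P + Q) + h (P - Q) - 2 * (h P + h Q)| ≤ C)
    (hfin : ∀ B : ℝ, {P | h P ≤ B}.Finite)
    (htf : ∀ P : G, P ≠ 0 → Function.Injective fun j : ℕ => (2 ^ j : ℕ) • P)
    (P₂ : G) (hD : ∀ Q : G, ∃ R : G, Q = R + R ∨ Q = R + R - P₂) (hne : ∃ Q : G, Q ≠ 0) :
    ∃ (P : G) (c C' : ℝ), 0 < c ∧ (∀ Q : G, ∃ n : ℤ, Q = n • P) ∧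
      (∀ n : ℤ, n ≠ 0 → n • P ≠ 0) ∧ ∀ n : ℤ, |h (n • P) - c * (n : ℝ) ^ 2| ≤ C' := by
  obtain ⟨q, C', hqh, hpar, hq⟩ := exists_canon h C hp
  have hfin' : ∀ B : ℝ, {P | q P ≤ B}.Finite := by
    intro B
    refine (hfin (B + C')).subset fun P hP => ?_
    have h1 : q P ≤ B := hP
    have h2 := (abs_le.1 (hqh P)).1
    show h P ≤ B + C'
    linarith
  have hpos : ∀ P, P ≠ 0 → 0 < q P := by
    intro P hP
    by_contra hle
    have hle' : q P ≤ 0 := not_lt.1 hle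
    refine Set.infinite_of_injective_forall_mem (htf P hP) (s := {P | q P ≤ 0}) (fun j => ?_)
      (hfin' 0)
    show q ((2 ^ j : ℕ) • P) ≤ 0
    rw [← natCast_zsmul, hq]
    exact mul_nonpos_of_nonneg_of_nonpos (sq_nonneg _) hle'
  obtain ⟨P, hP0, hgen⟩ := exists_generator q hpar hq hfin' hpos P₂ hD hne
  refine ⟨P, q P, C', hpos P hP0, hgen, fun n hn h0' => ?_, fun n => ?_⟩
  · have h1 := hq n P
    have h2 := hq 0 P
    rw [zero_smul] at h2
    rw [h0', h2] at h1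
    have h3 : (0 : ℝ) < (n : ℝ) ^ 2 * q P :=
      mul_pos (sq_pos_of_ne_zero (by exact_mod_cast hn)) (hpos P hP0)
    simp at h1
    rcases h1 with h1 | h1
    · exact hn h1
    · exact (hpos P hP0).ne' h1
  · have := hqh (n • P)
    rw [hq, abs_sub_comm, mul_comm] at this
    exact this

end Crest.Agent.R323
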