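import Mathlib

/-!
# Row 323: positional coding
-/

set_option autoImplicit false

namespace Crest.Agent.R323

/-- The number with digits `d 0, …, d (x-1)` in base `U`. -/
def ev (U x : ℕ) (d : ℕ → ℕ) : ℕ := ∑ y ∈ Finset.range x, d y * U ^ y

/-- The repunit. -/
def rep (U x : ℕ) : ℕ := ev U x fun _ => 1

variable {U Q x k r A : ℕ} {d d' : ℕ → ℕ}

@[simp] theorem ev_zero : ev U 0 d = 0 := by
  simp [ev]

theorem ev_succ : ev U (x + 1) d = ev U x d + d x * U ^ x := by
  simp [ev, Finset.sum_range_succ]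

theorem ev_succ' : ev U (x + 1) d = d 0 + U * ev U x fun y => d (y + 1) := by
  simp only [ev, Finset.sum_range_succ', Finset.mul_sum, pow_zero, mul_one]
  rw [add_comm]
  congr 1
  exact Finset.sum_congr rfl fun y _ => by ring

theorem ev_congr (h : ∀ y < x, d y = d' y) : ev U x d = ev U x d' := by
  exact Finset.sum_congr rfl fun y hy => by rw [h y (Finset.mem_range.1 hy)]

theorem ev_add : ev U x (fun y => d y + d' y) = ev U x d + ev U x d' := by
  simp only [ev, add_mul, Finset.sum_add_distrib]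

theorem ev_mul (c : ℕ) : ev U x (fun y => c * d y) = c * ev U x d := by
  simp only [ev, Finset.mul_sum, mul_assoc]

theorem ev_const (c : ℕ) : ev U x (fun _ => c) = c * rep U x := by
  rw [rep, ← ev_mul]; simp

theorem ev_one : ev 1 x d = ∑ y ∈ Finset.range x, d y := by
  simp [ev]

theorem ev_lt (hd : ∀ y < x, d y < U) : ev U x d < U ^ x := by
  induction x with
  | zero => simp
  | succ x ih =>
    have h1 := ih fun y hy => hd y (by omega)
    have h2 : d x + 1 ≤ U := hd x (by omega)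
    rw [ev_succ, pow_succ]
    nlinarith [Nat.mul_le_mul_right (U ^ x) h2]

theorem ev_dig (hd : ∀ y < x, d y < U) {y : ℕ} (hy : y < x) : ev U x d / U ^ y % U = d y := by
  induction y generalizing x d with
  | zero =>
    obtain ⟨x, rfl⟩ : ∃ x', x = x' + 1 := ⟨x - 1, by omega⟩
    rw [ev_succ', pow_zero, Nat.div_one, Nat.add_mul_mod_self_left, Nat.mod_eq_of_lt (hd 0 hy)]
  | succ y ih =>
    obtain ⟨x, rfl⟩ : ∃ x', x = x' + 1 := ⟨x - 1, by omega⟩
    have h0 := hd 0 (by omega)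
    rw [ev_succ', pow_succ', ← Nat.div_div_eq_div_mul, Nat.add_mul_div_left _ _ (by omega),
      Nat.div_eq_of_lt h0, zero_add]
    exact ih (d := fun y => d (y + 1)) (fun y hy => hd (y + 1) (by omega)) (by omega)

/-- `Nat.mod_pow_succ`. -/
theorem ev_digits (U A x : ℕ) : ev U x (fun y => A / U ^ y % U) = A % U ^ x := by
  induction x with
  | zero => simp [Nat.mod_one]
  | succ x ih => rw [ev_succ, ih, Nat.mod_pow_succ, mul_comm]

theorem ev_inj (hd : ∀ y < x, d y < U) (hd' : ∀ y < x, d' y < U) (h : ev U x d = ev U x d') :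
    ∀ y < x, d y = d' y := by
  intro y hy
  rw [← ev_dig hd hy, h, ev_dig hd' hy]

/-- Change of base. -/
theorem ev_modEq (h : Q ≤ U) : ev U x d ≡ ev Q x d [MOD U - Q] := by
  induction x with
  | zero => rfl
  | succ x ih =>
    rw [ev_succ, ev_succ]
    exact ih.add ((((Nat.modEq_sub h).pow x)).mul_left _)

theorem rep_mul (hU : 1 ≤ U) : (U - 1) * rep U x + 1 = U ^ x := by
  obtain ⟨V, rfl⟩ : ∃ V, U = V + 1 := ⟨U - 1, by omega⟩
  induction x with
  | zero => simp [rep]
  | succ x ih =>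
    simp only [rep, ev_succ, Nat.add_sub_cancel] at ih ⊢
    rw [pow_succ, ← ih]; ring

theorem ev_id (hU : 1 ≤ U) : (U - 1) * ev U x (fun y => y) + U * rep U x = x * U ^ x := by
  have h := fun x => rep_mul (x := x) hU
  obtain ⟨V, rfl⟩ : ∃ V, U = V + 1 := ⟨U - 1, by omega⟩
  induction x with
  | zero => simp [rep]
  | succ x ih =>
    simp only [rep, ev_succ, Nat.add_sub_cancel] at ih ⊢
    rw [pow_succ]
    nlinarith [ih]

/-- Digitwise `&&&` (`ev_succ'`, `Nat.and_div_two_pow`, `Nat.and_mod_two_pow`, or `testBit`). -/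
theorem ev_land (hd : ∀ y < x, d y < 2 ^ k) (hd' : ∀ y < x, d' y < 2 ^ k) :
    ev (2 ^ k) x d &&& ev (2 ^ k) x d' = ev (2 ^ k) x fun y => d y &&& d' y := by
  induction x generalizing d d' with
  | zero => simp
  | succ x ih =>
    have hp : 0 < 2 ^ k := by positivity
    have h0 := hd 0 (by omega)
    have h0' := hd' 0 (by omega)
    rw [ev_succ', ev_succ', ev_succ',
      ← ih (fun y hy => hd (y + 1) (by omega)) (fun y hy => hd' (y + 1) (by omega))]
    set a := ev (2 ^ k) x fun y => d (y + 1)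
    set b := ev (2 ^ k) x fun y => d' (y + 1)
    rw [← Nat.mod_add_div ((d 0 + 2 ^ k * a) &&& (d' 0 + 2 ^ k * b)) (2 ^ k), Nat.and_mod_two_pow,
      Nat.and_div_two_pow, Nat.add_mul_mod_self_left, Nat.add_mul_mod_self_left,
      Nat.add_mul_div_left _ _ hp, Nat.add_mul_div_left _ _ hp, Nat.mod_eq_of_lt h0,
      Nat.mod_eq_of_lt h0', Nat.div_eq_of_lt h0, Nat.div_eq_of_lt h0', zero_add, zero_add]

/-- The mask test (`ev_const`, `ev_lt`, `ev_digits`, `ev_land`, `ev_inj`, `Nat.and_le_right`,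
`Nat.and_two_pow_sub_one_eq_mod`). -/
theorem mask_iff (h : r ≤ k) : A &&& ((2 ^ r - 1) * rep (2 ^ k) x) = A ↔
    ∃ d : ℕ → ℕ, (∀ y < x, d y < 2 ^ r) ∧ A = ev (2 ^ k) x d := by
  have hp : 0 < 2 ^ r := by positivity
  have hk : 0 < 2 ^ k := by positivity
  have hrk : 2 ^ r ≤ 2 ^ k := Nat.pow_le_pow_right (by norm_num) h
  have hm : ∀ y < x, (fun _ : ℕ => 2 ^ r - 1) y < 2 ^ k := fun _ _ => by beta_reduce; omega
  rw [← ev_const]
  constructor
  · intro H
    have hA : A < (2 ^ k) ^ x := by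
      rw [← H]; exact Nat.and_le_right.trans_lt (ev_lt hm)
    have hd : ∀ y < x, (fun y => A / (2 ^ k) ^ y % 2 ^ k) y < 2 ^ k :=
      fun y _ => Nat.mod_lt _ hk
    have e : A = ev (2 ^ k) x fun y => A / (2 ^ k) ^ y % 2 ^ k := by
      rw [ev_digits, Nat.mod_eq_of_lt hA]
    refine ⟨_, fun y hy => ?_, e⟩
    rw [e, ev_land hd hm] at H
    have := ev_inj (fun y hy => Nat.and_le_left.trans_lt (hd y hy)) hd H y hy
    rw [Nat.and_two_pow_sub_one_eq_mod] at this
    rw [← this]
    exact Nat.mod_lt _ hp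
  · rintro ⟨d, hd, rfl⟩
    rw [ev_land (fun y hy => (hd y hy).trans_le hrk) hm]
    exact ev_congr fun y hy => by
      rw [Nat.and_two_pow_sub_one_eq_mod, Nat.mod_eq_of_lt (hd y hy)]

/-- The diagonal of a product.  With `U = 2^k`, `V = U^x = 2^(k x)`:
`ev U x d * ev V x d' = ev V x (fun z => d' z * ev U x d)`, each digit `= ev U x (fun y => d' z * d y) < V`;
the mask is `ev V x (fun z => (U - 1) * U^z)`, and `(U - 1) * U^z = ev U x (fun y => if y = z then U - 1 else 0)`.
Apply `ev_land` twice. -/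
theorem land_diag (h : ∀ y < x, ∀ z < x, d y * d' z < 2 ^ k) :
    (ev (2 ^ k) x d * ev (2 ^ (k * x)) x d') &&& ((2 ^ k - 1) * rep (2 ^ (k * (x + 1))) x)
      = ev (2 ^ (k * (x + 1))) x fun y => d y * d' y := by
  have hk : 0 < 2 ^ k := by positivity
  have hV : 2 ^ (k * x) = (2 ^ k) ^ x := pow_mul _ _ _
  have hW : ∀ z, (2 ^ (k * (x + 1))) ^ z = (2 ^ k) ^ z * (2 ^ (k * x)) ^ z := fun z => by
    rw [mul_add, mul_one, pow_add, mul_pow, mul_comm]
  have single : ∀ z < x, ∀ c : ℕ, ev (2 ^ k) x (fun y => if y = z then c else 0) = c * (2 ^ k) ^ z := by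
    intro z hz c
    unfold ev
    rw [Finset.sum_eq_single z (fun y _ hy => by simp [hy])
      (fun hz' => absurd (Finset.mem_range.2 hz) hz')]
    simp
  have hs : ∀ z, ∀ y < x, (fun y => if y = z then 2 ^ k - 1 else 0) y < 2 ^ k := fun z y _ => by
    beta_reduce; split_ifs <;> omega
  have e1 : ev (2 ^ k) x d * ev (2 ^ (k * x)) x d'
      = ev (2 ^ (k * x)) x fun z => ev (2 ^ k) x fun y => d' z * d y := by
    rw [← ev_mul]
    exact ev_congr fun z _ => by rw [ev_mul, mul_comm]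
  have e2 : (2 ^ k - 1) * rep (2 ^ (k * (x + 1))) x
      = ev (2 ^ (k * x)) x fun z => ev (2 ^ k) x fun y => if y = z then 2 ^ k - 1 else 0 := by
    rw [← ev_const, ev_congr (d' := fun z => (2 ^ k - 1) * (2 ^ k) ^ z) fun z hz => single z hz _]
    exact Finset.sum_congr rfl fun z _ => by rw [hW, mul_assoc]
  have hb : ∀ z < x, ∀ y < x, d' z * d y < 2 ^ k := fun z hz y hy => by
    rw [mul_comm]; exact h y hy z hz
  rw [e1, e2, ev_land (fun z hz => hV ▸ ev_lt (hb z hz)) (fun z _ => hV ▸ ev_lt (hs z)),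
    ev_congr (d' := fun z => d z * d' z * (2 ^ k) ^ z) fun z hz => ?_]
  · exact Finset.sum_congr rfl fun z _ => by rw [hW, mul_assoc]
  · rw [ev_land (hb z hz) (hs z), ← single z hz]
    refine ev_congr fun y hy => ?_
    split_ifs with hyz
    · rw [Nat.and_two_pow_sub_one_eq_mod, Nat.mod_eq_of_lt (hb z hz y hy), hyz, mul_comm]
    · simp

end Crest.Agent.R323
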