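import Mathlib

/-!
# Row 323, the curve `y² = x³ - 2x` over `ℚ`: definitions and addition formulas
-/

set_option autoImplicit false

namespace Crest.Agent.R323

open WeierstrassCurve WeierstrassCurve.Affine

/-- The curve `y² = x³ - 2x`. -/
def E : WeierstrassCurve ℚ := ⟨0, 0, 0, -2, 0⟩

@[simp] lemma E_a1 : E.a₁ = 0 := rfl
@[simp] lemma E_a2 : E.a₂ = 0 := rfl
@[simp] lemma E_a3 : E.a₃ = 0 := rfl
@[simp] lemma E_a4 : E.a₄ = -2 := rfl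
@[simp] lemma E_a6 : E.a₆ = 0 := rfl
@[simp] lemma E_b2 : E.b₂ = 0 := by simp [WeierstrassCurve.b₂]
@[simp] lemma E_b4 : E.b₄ = -4 := by simp [WeierstrassCurve.b₄]; norm_num
@[simp] lemma E_b6 : E.b₆ = 0 := by simp [WeierstrassCurve.b₆]
@[simp] lemma E_b8 : E.b₈ = -4 := by simp [WeierstrassCurve.b₈]; norm_num

lemma E_Δ : E.Δ = 512 := by simp [WeierstrassCurve.Δ]; norm_num

instance : E.IsElliptic := ⟨by rw [E_Δ]; exact IsUnit.mk0 _ (by norm_num)⟩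

/-- Rational points of the curve. -/
abbrev Pt : Type := E.toAffine.Point

lemma nons_iff (x y : ℚ) : E.toAffine.Nonsingular x y ↔ y ^ 2 = x ^ 3 - 2 * x := by
  rw [← equation_iff_nonsingular, equation_iff]
  simp only [E_a1, E_a2, E_a3, E_a4, E_a6]
  constructor <;> intro h <;> linarith

/-- The affine point `(x, y)`. -/
def pt (x y : ℚ) (h : y ^ 2 = x ^ 3 - 2 * x) : Pt := .some x y ((nons_iff x y).2 h)

lemma pt_cases (P : Pt) : P = 0 ∨ ∃ x y h, P = pt x y h := by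
  rcases P with _ | ⟨x, y, h⟩
  · exact Or.inl rfl
  · exact Or.inr ⟨x, y, (nons_iff x y).1 h, rfl⟩

lemma pt_ne_zero {x y : ℚ} (h : y ^ 2 = x ^ 3 - 2 * x) : pt x y h ≠ 0 :=
  Point.some_ne_zero _

lemma pt_inj {x y x' y' : ℚ} {h : y ^ 2 = x ^ 3 - 2 * x} {h' : y' ^ 2 = x' ^ 3 - 2 * x'} :
    pt x y h = pt x' y' h' ↔ x = x' ∧ y = y' := by
  simp [pt]

@[simp] lemma xRep_pt {x y : ℚ} (h : y ^ 2 = x ^ 3 - 2 * x) : (pt x y h).xRep = ![x, 1] := rfl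

lemma negY_eq (x y : ℚ) : E.toAffine.negY x y = -y := by simp [negY]

lemma neg_pt {x y : ℚ} (h : y ^ 2 = x ^ 3 - 2 * x) :
    -pt x y h = pt x (-y) (by rw [neg_sq]; exact h) := by
  simp [pt]

/-- Two points with the same `x` agree up to sign. -/
lemma pt_eq_or_neg {x y y' : ℚ} (h : y ^ 2 = x ^ 3 - 2 * x) (h' : y' ^ 2 = x ^ 3 - 2 * x) :
    pt x y h = pt x y' h' ∨ pt x y h = -pt x y' h' :=
  Point.X_eq_iff.1 rfl

/-- Chord formula. -/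
lemma add_chord {x₁ y₁ x₂ y₂ : ℚ} (h₁ : y₁ ^ 2 = x₁ ^ 3 - 2 * x₁) (h₂ : y₂ ^ 2 = x₂ ^ 3 - 2 * x₂)
    (hx : x₁ ≠ x₂) :
    ∃ y h, pt x₁ y₁ h₁ + pt x₂ y₂ h₂ = pt (((y₁ - y₂) / (x₁ - x₂)) ^ 2 - x₁ - x₂) y h := by
  have key := Point.add_of_X_ne (W := E.toAffine) (h₁ := (nons_iff _ _).2 h₁)
    (h₂ := (nons_iff _ _).2 h₂) hx
  have hX : E.toAffine.addX x₁ x₂ (E.toAffine.slope x₁ x₂ y₁ y₂)
      = ((y₁ - y₂) / (x₁ - x₂)) ^ 2 - x₁ - x₂ := by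
    rw [slope_of_X_ne hx]; simp [addX]
  have hn := nonsingular_add ((nons_iff _ _).2 h₁) ((nons_iff _ _).2 h₂)
    (fun hxy => hx hxy.left)
  refine ⟨E.toAffine.addY x₁ x₂ y₁ (E.toAffine.slope x₁ x₂ y₁ y₂), ?_, ?_⟩
  · rw [← hX]; exact (nons_iff _ _).1 hn
  · unfold pt; rw [key]; simp only [hX]

/-- Tangent formula. -/
lemma add_tangent {x y : ℚ} (h : y ^ 2 = x ^ 3 - 2 * x) (hy : y ≠ 0) :
    ∃ y' h', pt x y h + pt x y h = pt (((x ^ 2 + 2) / (2 * y)) ^ 2) y' h' := by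
  have hy' : y ≠ E.toAffine.negY x y := by rw [negY_eq]; intro h; apply hy; linarith
  have key := Point.add_self_of_Y_ne (W := E.toAffine) (h₁ := (nons_iff _ _).2 h) hy'
  have hX : E.toAffine.addX x x (E.toAffine.slope x x y y) = ((x ^ 2 + 2) / (2 * y)) ^ 2 := by
    rw [slope_of_Y_ne rfl hy', negY_eq]
    simp only [addX, E_a1, E_a2, E_a4]
    field_simp
    linear_combination (-32 * x) * h
  have hn := nonsingular_add ((nons_iff _ _).2 h) ((nons_iff _ _).2 h)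
    (fun hxy => hy' hxy.right)
  refine ⟨E.toAffine.addY x x y (E.toAffine.slope x x y y), ?_, ?_⟩
  · rw [← hX]; exact (nons_iff _ _).1 hn
  · unfold pt; rw [key]; simp only [hX]

lemma add_self_of_y_eq_zero {x : ℚ} (h : (0 : ℚ) ^ 2 = x ^ 3 - 2 * x) :
    pt x 0 h + pt x 0 h = 0 :=
  Point.add_self_of_Y_eq (by rw [negY_eq]; simp)

/-- The naive logarithmic height. -/
noncomputable def ht (P : Pt) : ℝ := Height.logHeight P.xRep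

/-- `O`, or a point whose `x`-coordinate is a nonzero square. -/
def IsSq (P : Pt) : Prop := P = 0 ∨ ∃ x y h, ∃ s : ℚ, P = pt x y h ∧ s ≠ 0 ∧ x = s ^ 2

/-- The 2-torsion point `(0,0)`. -/
def T : Pt := pt 0 0 (by norm_num)

/-- The point `(2,2)`. -/
def P0 : Pt := pt 2 2 (by norm_num)

/-- Coprime solutions of `s⁴ = 2e⁴ + W²`, `e > 0`. -/
def Sol (s e : ℕ) : Prop := 0 < e ∧ Nat.Coprime s e ∧ ∃ W : ℕ, s ^ 4 = 2 * e ^ 4 + W ^ 2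

/-- With `x₁ = (p/q)²`, `x₂ = (s/e)²`, `X = (a/b)²`:
`(x₁ - x₂)² X² - 2 (x₁ + x₂) (x₁ x₂ - 2) X + (x₁ x₂ + 2)² = 0`, denominators cleared, over `ℕ`. -/
def Biq (p q s e a b : ℕ) : Prop :=
  ((s ^ 2 * q ^ 2) ^ 2 + (p ^ 2 * e ^ 2) ^ 2) * a ^ 4
      + 4 * (s ^ 2 * q ^ 2 + p ^ 2 * e ^ 2) * (e ^ 2 * q ^ 2) * (a ^ 2 * b ^ 2)
      + (s ^ 2 * p ^ 2 + 2 * (e ^ 2 * q ^ 2)) ^ 2 * b ^ 4
    = 2 * (s ^ 2 * q ^ 2) * (p ^ 2 * e ^ 2) * a ^ 4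
      + 2 * (s ^ 2 * q ^ 2 + p ^ 2 * e ^ 2) * (s ^ 2 * p ^ 2) * (a ^ 2 * b ^ 2)

end Crest.Agent.R323
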