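import Crest.Agent.R323.ECDef

/-!
# Row 323: 2-descent on `y² = x³ - 2x`
-/

set_option autoImplicit false

namespace Crest.Agent.R323

open WeierstrassCurve WeierstrassCurve.Affine

theorem T_add_T : T + T = 0 := by
  exact add_self_of_y_eq_zero _

/-- Doubles are squares: `add_tangent` (and `x² + 2 ≠ 0`), `add_self_of_y_eq_zero`. -/
theorem isSq_double (R : Pt) : IsSq (R + R) := by
  rcases pt_cases R with rfl | ⟨x, y, h, rfl⟩
  · left; simp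
  · by_cases hy : y = 0
    · subst hy
      left; exact add_self_of_y_eq_zero h
    · obtain ⟨y', h', e⟩ := add_tangent h hy
      right
      refine ⟨_, y', h', (x ^ 2 + 2) / (2 * y), e, ?_, rfl⟩
      have : x ^ 2 + 2 ≠ 0 := by positivity
      exact div_ne_zero this (mul_ne_zero two_ne_zero hy)

theorem P0_double_ne : P0 + P0 ≠ 0 := by
  obtain ⟨y', h', e⟩ := add_tangent (x := 2) (y := 2) (by norm_num) (by norm_num)
  unfold P0
  rw [e]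
  exact pt_ne_zero _

/-- A point with `x = s² ≠ 0` in lowest terms: `|s| = S/e` with `S = |num|`, `e = den`;
`w = y / s` has `w² = s⁴ - 2`, and `W = w e²` is a rational with integer square `S⁴ - 2 e⁴`. -/
theorem sol_of_sq {x y s : ℚ} (h : y ^ 2 = x ^ 3 - 2 * x) (hs : s ≠ 0) (hx : x = s ^ 2) :
    ∃ S e : ℕ, Sol S e ∧ x = ((S : ℚ) / e) ^ 2 := by
  have he : (s.den : ℚ) ≠ 0 := by exact_mod_cast s.den_nz
  have hS : ((s.num.natAbs : ℕ) : ℚ) ^ 2 = (s.num : ℚ) ^ 2 := by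
    simp
  have hs2 : s ^ 2 = ((s.num.natAbs : ℕ) : ℚ) ^ 2 / (s.den : ℚ) ^ 2 := by
    rw [hS, ← div_pow, Rat.num_div_den]
  have hw : (y / s) ^ 2 = (s ^ 2) ^ 2 - 2 := by
    rw [hx] at h
    field_simp
    linear_combination h
  generalize hSd : s.num.natAbs = S at hS hs2
  have hsq : IsSquare ((((S : ℤ) ^ 4 - 2 * (s.den : ℤ) ^ 4 : ℤ)) : ℚ) := by
    refine ⟨y / s * (s.den : ℚ) ^ 2, ?_⟩
    have : y / s * (s.den : ℚ) ^ 2 * (y / s * (s.den : ℚ) ^ 2)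
        = (y / s) ^ 2 * (s.den : ℚ) ^ 4 := by ring
    rw [this, hw, hs2]
    push_cast
    field_simp
  rw [Rat.isSquare_intCast_iff] at hsq
  obtain ⟨W, hW⟩ := hsq
  refine ⟨S, s.den, ⟨s.den_pos, hSd ▸ s.reduced, W.natAbs, ?_⟩, ?_⟩
  · zify
    rw [sq_abs]
    linear_combination hW
  · rw [hx, hs2, div_pow]

/-- A solution gives the point `((S/e)², S W / e³)`. -/
theorem pt_of_sol {S e : ℕ} (h : Sol S e) :
    0 < S ∧ e ≤ S ∧ ∃ y : ℚ, y ^ 2 = (((S : ℚ) / e) ^ 2) ^ 3 - 2 * ((S : ℚ) / e) ^ 2 := by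
  obtain ⟨he, -, W, hW⟩ := h
  have hle : e ≤ S := by
    have : e ^ 4 ≤ S ^ 4 := by omega
    exact (Nat.pow_le_pow_iff_left (by norm_num)).1 this
  refine ⟨by omega, hle, (S : ℚ) * W / e ^ 3, ?_⟩
  have he' : (e : ℚ) ≠ 0 := by exact_mod_cast he.ne'
  have hW' : (S : ℚ) ^ 4 = 2 * e ^ 4 + W ^ 2 := by exact_mod_cast hW
  field_simp
  linear_combination (-(S : ℚ) ^ 2) * hW'

/-- In a solution `S` and `W` are odd and `e` is even (mod 4, mod 16). -/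
theorem sol_parity {S e W : ℕ} (hc : Nat.Coprime S e) (h : S ^ 4 = 2 * e ^ 4 + W ^ 2) :
    Odd S ∧ Odd W ∧ Even e := by
  have key : ∀ a : ℕ, a < 4 → ∀ b : ℕ, b < 4 → ∀ c : ℕ, c < 4 →
      a ^ 4 % 4 = (2 * b ^ 4 + c ^ 2) % 4 →
      (a % 2 = 1 ∧ c % 2 = 1 ∧ b % 2 = 0) ∨ (a % 2 = 0 ∧ b % 2 = 0) := by
    intro a ha b hb c hc
    interval_cases a <;> interval_cases b <;> interval_cases c <;> simp
  have h1 : (S % 4) ^ 4 % 4 = (2 * (e % 4) ^ 4 + (W % 4) ^ 2) % 4 := by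
    have a1 : (S % 4) ^ 4 ≡ S ^ 4 [MOD 4] := (Nat.mod_modEq S 4).pow 4
    have a2 : 2 * (e % 4) ^ 4 + (W % 4) ^ 2 ≡ 2 * e ^ 4 + W ^ 2 [MOD 4] :=
      (((Nat.mod_modEq e 4).pow 4).mul_left 2).add ((Nat.mod_modEq W 4).pow 2)
    rw [h] at a1
    exact a1.trans a2.symm
  rcases key _ (Nat.mod_lt S (by norm_num)) _ (Nat.mod_lt e (by norm_num)) _
    (Nat.mod_lt W (by norm_num)) h1 with ⟨h2, h3, h4⟩ | ⟨h2, h3⟩
  · refine ⟨Nat.odd_iff.2 (by omega), Nat.odd_iff.2 (by omega), Nat.even_iff.2 (by omega)⟩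
  · exfalso
    have d1 : 2 ∣ S := by omega
    have d2 : 2 ∣ e := by omega
    have := Nat.dvd_gcd d1 d2
    rw [hc] at this
    omega

/-- Rational halving formula. -/
lemma desc_half_rat {s w m y : ℚ} (hw : w ^ 2 = s ^ 4 - 2) (hm : m ^ 2 = 2 * (s ^ 2 + w))
    (h : y ^ 2 = (s ^ 2) ^ 3 - 2 * s ^ 2) : ∃ R : Pt, pt (s ^ 2) y h = R + R := by
  set x₀ : ℚ := s ^ 2 + w + s * m with hx₀
  have hq : x₀ ^ 2 - m ^ 2 * x₀ - 2 = 0 := by
    rw [hx₀]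
    linear_combination (-(s ^ 2 + w + s * m) + s ^ 2) * hm - hw
  have hx0 : x₀ ≠ 0 := by
    intro h0
    rw [h0] at hq
    norm_num at hq
  have hm0 : m ≠ 0 := by
    intro h0
    rw [h0] at hm
    have h1 : w = -s ^ 2 := by linarith
    rw [h1] at hw
    have : (0 : ℚ) = -2 := by linear_combination hw
    norm_num at this
  have hc : (x₀ * m) ^ 2 = x₀ ^ 3 - 2 * x₀ := by linear_combination (-x₀) * hq
  obtain ⟨y', h', e⟩ := add_tangent hc (mul_ne_zero hx0 hm0)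
  have hs : (x₀ ^ 2 + 2) / (2 * (x₀ * m)) = s := by
    rw [div_eq_iff (mul_ne_zero two_ne_zero (mul_ne_zero hx0 hm0))]
    have : 2 * x₀ - m ^ 2 = 2 * s * m := by rw [hx₀]; linear_combination (-1 : ℚ) * hm
    linear_combination (-1 : ℚ) * hq + x₀ * this
  have h'' : y' ^ 2 = (s ^ 2) ^ 3 - 2 * s ^ 2 := by rw [← hs]; exact h'
  have e' : pt x₀ (x₀ * m) hc + pt x₀ (x₀ * m) hc = pt (s ^ 2) y' h'' := by
    rw [e, pt_inj, hs]; exact ⟨rfl, rfl⟩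
  rcases pt_eq_or_neg h h'' with h1 | h1
  · exact ⟨_, h1.trans e'.symm⟩
  · refine ⟨-pt x₀ (x₀ * m) hc, ?_⟩
    rw [h1, ← e', neg_add]

lemma desc_sq_aux {A B e : ℤ} (hA : Odd A) (hc : IsCoprime A B) (h : 2 * A * B = e ^ 4)
    (hpos : 0 < A) : ∃ u : ℤ, A = u ^ 2 := by
  have h2 : IsCoprime A 2 := by
    obtain ⟨k, hk⟩ := hA
    exact ⟨1, -k, by rw [hk]; ring⟩
  obtain ⟨u, hu | hu⟩ := Int.sq_of_isCoprime (h2.mul_right hc) (c := e ^ 2) (by linear_combination h)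
  · exact ⟨u, hu⟩
  · exfalso; nlinarith [sq_nonneg u]

/-- Integer step: `S² ± W = 2u²` for one choice of sign. -/
lemma desc_int {S e W : ℕ} (he : 0 < e) (hc : Nat.Coprime S e) (h : S ^ 4 = 2 * e ^ 4 + W ^ 2) :
    ∃ V u : ℤ, V ^ 2 = (W : ℤ) ^ 2 ∧ (S : ℤ) ^ 2 + V = 2 * u ^ 2 := by
  obtain ⟨⟨a, ha⟩, ⟨b, hb⟩, -⟩ := sol_parity hc h
  have h' : (S : ℤ) ^ 4 = 2 * e ^ 4 + W ^ 2 := by exact_mod_cast h
  have ha' : (S : ℤ) = 2 * a + 1 := by exact_mod_cast ha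
  have hb' : (W : ℤ) = 2 * b + 1 := by exact_mod_cast hb
  obtain ⟨A, hA⟩ : ∃ A : ℤ, A = 2 * a ^ 2 + 2 * a + b + 1 := ⟨_, rfl⟩
  obtain ⟨B, hB⟩ : ∃ B : ℤ, B = 2 * a ^ 2 + 2 * a - b := ⟨_, rfl⟩
  have s1 : A + B = (S : ℤ) ^ 2 := by rw [hA, hB, ha']; ring
  have s2 : A - B = (W : ℤ) := by rw [hA, hB, hb']; ring
  have s3 : 2 * A * B = (e : ℤ) ^ 4 := by
    have : (A + B) ^ 2 - (A - B) ^ 2 = 2 * (e : ℤ) ^ 4 := by rw [s1, s2]; linear_combination h'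
    linarith
  have hcz : IsCoprime (S : ℤ) (e : ℤ) := Nat.isCoprime_iff_coprime.2 hc
  have c1 : IsCoprime (A + B) (2 * A * B) := by rw [s1, s3]; exact hcz.pow
  have c2 : IsCoprime A B := by
    obtain ⟨p, q, hpq⟩ := c1.of_mul_right_right
    exact ⟨p, p + q, by linear_combination hpq⟩
  have he4 : (0 : ℤ) < (e : ℤ) ^ 4 := by positivity
  have hS2 : (0 : ℤ) ≤ (S : ℤ) ^ 2 := sq_nonneg _
  have hApos : 0 < A := by
    by_contra hn
    have hA0 : A ≤ 0 := not_lt.1 hn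
    have hB0 : 0 ≤ B := by linarith
    nlinarith [mul_nonneg (neg_nonneg.2 hA0) hB0]
  have hBpos : 0 < B := by
    by_contra hn
    have hB0 : B ≤ 0 := not_lt.1 hn
    nlinarith [mul_nonneg hApos.le (neg_nonneg.2 hB0)]
  rcases Int.even_or_odd b with hbe | hbo
  · obtain ⟨u, hu⟩ := desc_sq_aux (A := A) (B := B) (e := e)
      (by obtain ⟨k, hk⟩ := hbe; exact ⟨a ^ 2 + a + k, by rw [hA]; linarith⟩)
      c2 s3 hApos
    exact ⟨W, u, rfl, by linarith⟩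
  · obtain ⟨u, hu⟩ := desc_sq_aux (A := B) (B := A) (e := e)
      (by obtain ⟨k, hk⟩ := hbo; exact ⟨a ^ 2 + a - k - 1, by rw [hB]; linarith⟩)
      c2.symm (by linarith) hBpos
    exact ⟨-W, u, by ring, by linarith⟩

/-- Halving.  Write `x = (S/e)²`, `S⁴ = 2e⁴ + W²`, `A = (S² + W)/2`, `B = (S² - W)/2`; `A + B = S²` is odd,
`2AB = e⁴`, `A, B > 0` coprime.  One of them, say `A'` (`= (S² ± W)/2`), is odd, coprime to `2B'`, and
`A' (2B') = (e²)²`, so `A' = u²` (`Int.sq_of_isCoprime` / `Int.sq_of_gcd_eq_one`).  Put `s = S/e`,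
`w = ± W/e²`, `m = 2u/e`; then `w² = s⁴ - 2`, `m² = 2 (s² + w)`.  With `x₀ = s² + w + s m`, `y₀ = x₀ m`:
`x₀² - m² x₀ - 2 = 0`, so `y₀² = x₀³ - 2x₀`, `y₀ ≠ 0`, and `((x₀² + 2)/(2 y₀))² = s²`
(`x₀² + 2 = x₀ (2x₀ - m²) = 2 s m x₀`).  So `x(R + R) = x`, and `pt_eq_or_neg` gives `P = R + R` or
`P = (-R) + (-R)`. -/
theorem exists_half {P : Pt} (h : IsSq P) : ∃ R : Pt, P = R + R := by
  rcases h with rfl | ⟨x, y, h, s, rfl, hs, hx⟩
  · exact ⟨0, by simp⟩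
  · obtain ⟨S, e, ⟨he, hc, W, hW⟩, hxe⟩ := sol_of_sq h hs hx
    obtain ⟨V, u, hV, hu⟩ := desc_int he hc hW
    have he' : (e : ℚ) ≠ 0 := by exact_mod_cast he.ne'
    have hW' : (S : ℚ) ^ 4 = 2 * e ^ 4 + W ^ 2 := by exact_mod_cast hW
    have hV' : (V : ℚ) ^ 2 = (W : ℚ) ^ 2 := by exact_mod_cast hV
    have hu' : (S : ℚ) ^ 2 + V = 2 * u ^ 2 := by exact_mod_cast hu
    clear hx
    subst hxe
    refine desc_half_rat (w := (V : ℚ) / e ^ 2) (m := 2 * u / e) ?_ ?_ h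
    · field_simp
      linear_combination hV' - hW'
    · field_simp
      linear_combination (-1 : ℚ) * hu'

end Crest.Agent.R323
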