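import Crest.Agent.R323.ECDesc

/-!
# Row 323: 2-descent (second part) on `y² = x³ - 2x`
-/

set_option autoImplicit false

namespace Crest.Agent.R323

open WeierstrassCurve WeierstrassCurve.Affine

/-- `x = a/b` in lowest terms, `a b (a² - 2b²)` is a square; `b` is a square, and `a = ±□` (`a` odd) or
`a = ±2□` (`a` even: `a = 2a'`, `b` odd, `a' (2a'² - b²)` is `±` a square with coprime factors). -/
theorem x_class {x y : ℚ} (h : y ^ 2 = x ^ 3 - 2 * x) (hx : x ≠ 0) :
    ∃ s : ℚ, s ≠ 0 ∧ (x = s ^ 2 ∨ x = -s ^ 2 ∨ x = 2 * s ^ 2 ∨ x = -(2 * s ^ 2)) := by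
  have hb0 : (0 : ℤ) < (x.den : ℤ) := by exact_mod_cast x.den_pos
  have hbq : ((x.den : ℤ) : ℚ) ≠ 0 := by exact_mod_cast hb0.ne'
  have ha0 : x.num ≠ 0 := Rat.num_ne_zero.2 hx
  have hxe : x = (x.num : ℚ) / ((x.den : ℤ) : ℚ) := by
    rw [Int.cast_natCast]; exact (Rat.num_div_den x).symm
  have hab : IsCoprime x.num (x.den : ℤ) := by
    rw [Int.isCoprime_iff_gcd_eq_one]; exact x.reduced
  generalize x.num = a at hxe ha0 hab
  generalize (x.den : ℤ) = b at hxe hb0 hbq hab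
  have hsq : IsSquare ((a * b * (a ^ 2 - 2 * b ^ 2) : ℤ) : ℚ) := by
    refine ⟨y * (b : ℚ) ^ 2, ?_⟩
    have : y * (b : ℚ) ^ 2 * (y * (b : ℚ) ^ 2) = y ^ 2 * (b : ℚ) ^ 4 := by ring
    rw [this, h, hxe]
    push_cast
    field_simp
  obtain ⟨c, hc⟩ := Rat.isSquare_intCast_iff.1 hsq
  have hb1 : IsCoprime b (a ^ 2 - 2 * b ^ 2) := by
    have h1 : IsCoprime b (a ^ 2) := hab.symm.pow_right
    have := h1.add_mul_left_right (-2 * b)
    rwa [show a ^ 2 + b * (-2 * b) = a ^ 2 - 2 * b ^ 2 by ring] at this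
  obtain ⟨t, ht⟩ : ∃ t : ℤ, b = t ^ 2 := by
    have h1 : IsCoprime b (a * (a ^ 2 - 2 * b ^ 2)) := hab.symm.mul_right hb1
    obtain ⟨t, ht | ht⟩ := Int.sq_of_isCoprime h1 (c := c) (by rw [sq c, ← hc]; ring)
    · exact ⟨t, ht⟩
    · exfalso; nlinarith [sq_nonneg t]
  have ht0 : t ≠ 0 := by rintro rfl; simp at ht; omega
  have htq : (t : ℚ) ≠ 0 := by exact_mod_cast ht0
  rcases Int.even_or_odd' a with ⟨k, hk | hk⟩
  · have hkb : IsCoprime k b := by
      rw [hk] at hab; exact hab.of_mul_left_right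
    have hc2 : (2 : ℤ) ∣ c := by
      have : (2 : ℤ) ∣ c * c := ⟨2 * (k * b * (2 * k ^ 2 - b ^ 2)), by rw [← hc, hk]; ring⟩
      exact (Int.prime_two.dvd_mul.1 this).elim id id
    obtain ⟨c', rfl⟩ := hc2
    have h1 : IsCoprime k (2 * k ^ 2 - b ^ 2) := by
      have h2 : IsCoprime k (-(b ^ 2)) := hkb.pow_right.neg_right
      have := h2.add_mul_left_right (2 * k)
      rwa [show -(b ^ 2) + k * (2 * k) = 2 * k ^ 2 - b ^ 2 by ring] at this
    have h3 : k * (b * (2 * k ^ 2 - b ^ 2)) = c' ^ 2 := by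
      rw [hk] at hc; nlinarith [hc]
    obtain ⟨u, hu⟩ := Int.sq_of_isCoprime (hkb.mul_right h1) h3
    have hu0 : u ≠ 0 := by
      rintro rfl
      apply ha0
      rcases hu with hu | hu <;> simp [hk, hu]
    have huq : (u : ℚ) ≠ 0 := by exact_mod_cast hu0
    refine ⟨(u : ℚ) / t, div_ne_zero huq htq, ?_⟩
    rcases hu with hu | hu
    · right; right; left
      rw [hxe, hk, hu, ht]; push_cast; field_simp
    · right; right; right
      rw [hxe, hk, hu, ht]; push_cast; field_simp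
  · have h2 : IsCoprime a 2 := ⟨1, -k, by rw [hk]; ring⟩
    have h1 : IsCoprime a (a ^ 2 - 2 * b ^ 2) := by
      have h3 : IsCoprime a (-(2 * b ^ 2)) := (h2.mul_right hab.pow_right).neg_right
      have := h3.add_mul_left_right a
      rwa [show -(2 * b ^ 2) + a * a = a ^ 2 - 2 * b ^ 2 by ring] at this
    obtain ⟨u, hu⟩ := Int.sq_of_isCoprime (hab.mul_right h1) (c := c) (by rw [sq c, ← hc]; ring)
    have hu0 : u ≠ 0 := by
      rintro rfl
      apply ha0
      rcases hu with hu | hu <;> simp [hu]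
    have huq : (u : ℚ) ≠ 0 := by exact_mod_cast hu0
    refine ⟨(u : ℚ) / t, div_ne_zero huq htq, ?_⟩
    rcases hu with hu | hu
    · left
      rw [hxe, hu, ht]; push_cast; field_simp
    · right; left
      rw [hxe, hu, ht]; push_cast; field_simp

/-- `x(R + T) = -2/x` for `x ≠ 0` (`add_chord`). -/
theorem add_T {x y : ℚ} (h : y ^ 2 = x ^ 3 - 2 * x) (hx : x ≠ 0) :
    ∃ y' h', pt x y h + T = pt (-2 / x) y' h' := by
  obtain ⟨y', h', e⟩ := add_chord h (show (0 : ℚ) ^ 2 = 0 ^ 3 - 2 * 0 by norm_num) hx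
  have hX : ((y - 0) / (x - 0)) ^ 2 - x - 0 = -2 / x := by
    rw [sub_zero, sub_zero, sub_zero, div_pow, h]; field_simp; ring
  refine ⟨y', by rw [← hX]; exact h', ?_⟩
  unfold T
  rw [e]
  exact pt_inj.2 ⟨hX, rfl⟩

/-- If `x = 2s²` then `R + P0` is `O` or has a nonzero square `x`-coordinate: for `x ≠ 2`,
`x(R + P0) · x · 2 = ν²` with `ν = (2x - 2y)/(x - 2)` the intercept of the chord, and `ν = 0` would force
`y = x`, `x² - x - 2 = 0`, `x = -1`; for `x = 2`, `R = ±P0`. -/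
theorem isSq_add_P0 {x y s : ℚ} (h : y ^ 2 = x ^ 3 - 2 * x) (hs : s ≠ 0) (hx : x = 2 * s ^ 2) :
    IsSq (pt x y h + P0) := by
  by_cases h2 : x = 2
  · subst h2
    rcases pt_eq_or_neg h (show (2 : ℚ) ^ 2 = 2 ^ 3 - 2 * 2 by norm_num) with e | e
    · rw [e]; exact isSq_double P0
    · rw [e]; left; exact neg_add_cancel P0
  · obtain ⟨y', h', e⟩ := add_chord h (show (2 : ℚ) ^ 2 = 2 ^ 3 - 2 * 2 by norm_num) h2
    have h2' : x - 2 ≠ 0 := sub_ne_zero.2 h2
    have hs2 : 0 < s ^ 2 := by positivity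
    have hxy : x - y ≠ 0 := by
      intro h0
      have hy : y = x := by linarith
      rw [hy] at h
      have : x * ((x - 2) * (x + 1)) = 0 := by linear_combination -h
      rcases mul_eq_zero.1 this with h1 | h1
      · linarith
      · rcases mul_eq_zero.1 h1 with h1 | h1
        · exact h2' h1
        · linarith
    right
    refine ⟨_, y', h', (x - y) / ((x - 2) * s), e, div_ne_zero hxy (mul_ne_zero h2' hs), ?_⟩
    have hs' : s ^ 2 = x / 2 := by linarith
    have hx0 : x ≠ 0 := by intro h0; rw [h0] at hs'; linarith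
    rw [div_pow, div_pow, mul_pow, hs']
    field_simp
    linear_combination (x - 2) * h

/-- The descent: `x = □` : `R`; `x = -2□` : `R + T`; `x = 2□` : `R + P0`; `x = -□` : `R + T + P0`;
`x = 0` : `R = T`, `R + T = 0`. -/
theorem descent (R : Pt) : IsSq R ∨ IsSq (R + T) ∨ IsSq (R + P0) ∨ IsSq (R + T + P0) := by
  rcases pt_cases R with rfl | ⟨x, y, h, rfl⟩
  · exact Or.inl (Or.inl rfl)
  by_cases hx : x = 0
  · subst hx
    have hy : y = 0 := by
      have : y ^ 2 = 0 := by rw [h]; norm_num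
      exact pow_eq_zero_iff (two_ne_zero) |>.1 this
    subst hy
    exact Or.inr (Or.inl (Or.inl T_add_T))
  obtain ⟨s, hs, hc | hc | hc | hc⟩ := x_class h hx
  · exact Or.inl (Or.inr ⟨x, y, h, s, rfl, hs, hc⟩)
  · obtain ⟨y', h', e⟩ := add_T h hx
    right; right; right
    rw [e]
    exact isSq_add_P0 h' (inv_ne_zero hs) (by rw [hc]; field_simp)
  · exact Or.inr (Or.inr (Or.inl (isSq_add_P0 h hs hc)))
  · obtain ⟨y', h', e⟩ := add_T h hx
    right; left
    exact Or.inr ⟨_, y', h', s⁻¹, e, inv_ne_zero hs, by rw [hc]; field_simp⟩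

/-- Doubling lowers a negative `2`-adic valuation of `x` by `2`. -/
lemma dbl_val {x y : ℚ} (h : y ^ 2 = x ^ 3 - 2 * x) (hx : x ≠ 0) (hv : padicValRat 2 x < 0) :
    ∃ x' y' h', pt x y h + pt x y h = pt x' y' h' ∧ x' ≠ 0 ∧
      padicValRat 2 x' = padicValRat 2 x - 2 := by
  have v2 : padicValRat 2 (2 : ℚ) = 1 := by
    have := padicValRat.self (p := 2) (by norm_num)
    simpa using this
  have vx2 : padicValRat 2 (x ^ 2) = 2 * padicValRat 2 x := by
    rw [padicValRat.pow]; push_cast; ring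
  have hp : x ^ 2 + 2 ≠ 0 := by positivity
  have hm : x ^ 2 + -2 ≠ 0 := by
    intro h0
    have : x ^ 2 = 2 := by linarith
    rw [this, v2] at vx2
    omega
  have vp : padicValRat 2 (x ^ 2 + 2) = 2 * padicValRat 2 x := by
    rw [padicValRat.add_eq_of_lt hp (pow_ne_zero _ hx) two_ne_zero (by rw [vx2, v2]; omega), vx2]
  have vm : padicValRat 2 (x ^ 2 + -2) = 2 * padicValRat 2 x := by
    rw [padicValRat.add_eq_of_lt hm (pow_ne_zero _ hx) (by norm_num)
      (by rw [vx2, padicValRat.neg, v2]; omega), vx2]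
  have hy2 : y ^ 2 = x * (x ^ 2 + -2) := by rw [h]; ring
  have hy : y ≠ 0 := by
    intro h0
    rw [h0] at hy2
    exact mul_ne_zero hx hm (by rw [← hy2]; norm_num)
  have vy : 2 * padicValRat 2 y = 3 * padicValRat 2 x := by
    have := congrArg (padicValRat 2) hy2
    rw [padicValRat.pow, padicValRat.mul hx hm, vm] at this
    push_cast at this
    linarith
  obtain ⟨y', h', e⟩ := add_tangent h hy
  have hq : (x ^ 2 + 2) / (2 * y) ≠ 0 := div_ne_zero hp (mul_ne_zero two_ne_zero hy)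
  refine ⟨_, y', h', e, pow_ne_zero _ hq, ?_⟩
  rw [padicValRat.pow, padicValRat.div hp (mul_ne_zero two_ne_zero hy),
    padicValRat.mul two_ne_zero hy, vp, v2]
  push_cast
  linarith

/-- No torsion among the squares.  For `P = pt x y h` with `x = (S/e)²` (`sol_of_sq`, `sol_parity`) one has
`v = padicValRat 2 x < 0` and `y ≠ 0`.  For any point with `x ≠ 0`, `v(x) < 0`: `y ≠ 0`, `2 v(y) = 3 v(x)`,
`v(x² + 2) = 2 v(x)`, so `v(x(P + P)) = 2 (2v - 1 - v(y)) = v - 2`.  Hence `2^j • P` is affine with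
valuation `v - 2j`. -/
theorem two_pow_inj {P : Pt} (h : IsSq P) (h0 : P ≠ 0) :
    Function.Injective fun j : ℕ => (2 ^ j : ℕ) • P := by
  rcases h with h | ⟨x, y, h, s, rfl, hs, hx⟩
  · exact absurd h h0
  obtain ⟨S, e, ⟨he, hc, W, hW⟩, hxe⟩ := sol_of_sq h hs hx
  obtain ⟨hS, -, he2⟩ := sol_parity hc hW
  have hx0 : x ≠ 0 := by rw [hx]; exact pow_ne_zero _ hs
  have hS0 : (S : ℚ) ≠ 0 := by exact_mod_cast hS.pos.ne'
  have he0 : (e : ℚ) ≠ 0 := by exact_mod_cast he.ne'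
  have hv : padicValRat 2 x < 0 := by
    rw [hxe, padicValRat.pow, padicValRat.div hS0 he0, padicValRat.of_nat,
      padicValRat.of_nat, padicValNat.eq_zero_of_not_dvd (by
        rw [← even_iff_two_dvd]; exact Nat.not_even_iff_odd.2 hS)]
    have := one_le_padicValNat_of_dvd (p := 2) he.ne' (even_iff_two_dvd.1 he2)
    generalize padicValNat 2 e = n at this
    push_cast
    omega
  have key : ∀ j : ℕ, ∃ x' y' h', (2 ^ j : ℕ) • pt x y h = pt x' y' h' ∧ x' ≠ 0 ∧
      padicValRat 2 x' = padicValRat 2 x - 2 * j := by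
    intro j
    induction j with
    | zero => exact ⟨x, y, h, by simp, hx0, by simp⟩
    | succ j ih =>
      obtain ⟨x', y', h', e', hx', hv'⟩ := ih
      obtain ⟨x'', y'', h'', e'', hx'', hv''⟩ := dbl_val h' hx' (by omega)
      refine ⟨x'', y'', h'', ?_, hx'', ?_⟩
      · rw [pow_succ, mul_two, add_nsmul, e', e'']
      · rw [hv'', hv']; push_cast; ring
  intro i j hij
  obtain ⟨x₁, y₁, h₁, e₁, -, hv₁⟩ := key i
  obtain ⟨x₂, y₂, h₂, e₂, -, hv₂⟩ := key j
  simp only at hij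
  rw [e₁, e₂] at hij
  have := (pt_inj.1 hij).1
  rw [this] at hv₁
  omega

end Crest.Agent.R323
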