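import Crest.Agent.R323.ECDef

/-!
# Row 323: heights on `y² = x³ - 2x`
-/

set_option autoImplicit false

namespace Crest.Agent.R323

open WeierstrassCurve WeierstrassCurve.Affine

lemma asm_eval (v : Fin 3 → ℚ) : (fun i => (addSubMap E i).eval v) =
    ![v 0 ^ 2 + 4 * v 0 * v 2 + 4 * v 2 ^ 2, 2 * v 1 * v 0 - 4 * v 1 * v 2,
      v 1 ^ 2 - 4 * v 0 * v 2] := by
  ext i; fin_cases i <;> simp [addSubMap] <;> ring

lemma sym_00 : (0 : Pt).sym2x 0 = ![1, 0, 0] := Point.sym2x_zero_zero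

lemma sym_0p {x y : ℚ} (h : y ^ 2 = x ^ 3 - 2 * x) : (0 : Pt).sym2x (pt x y h) = ![x, 1, 0] :=
  Point.sym2x_zero_some _

lemma sym_p0 {x y : ℚ} (h : y ^ 2 = x ^ 3 - 2 * x) : (pt x y h).sym2x 0 = ![x, 1, 0] :=
  Point.sym2x_some_zero _

lemma sym_pp {x y x' y' : ℚ} (h : y ^ 2 = x ^ 3 - 2 * x) (h' : y' ^ 2 = x' ^ 3 - 2 * x') :
    (pt x y h).sym2x (pt x' y' h') = ![x * x', x + x', 1] :=
  Point.sym2x_some_some _ _

lemma ht_pt {x y : ℚ} (h : y ^ 2 = x ^ 3 - 2 * x) : ht (pt x y h) = Height.logHeight₁ x := by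
  rw [Height.logHeight₁_eq_logHeight]; rfl

/-- Generic case: sum and product of `x(P+Q)` and `x(P-Q)` (use `add_chord`, `sub_eq_add_neg`,
`neg_pt`; then `field_simp` and `linear_combination`). -/
theorem add_sub_x {x₁ y₁ x₂ y₂ : ℚ} (h₁ : y₁ ^ 2 = x₁ ^ 3 - 2 * x₁) (h₂ : y₂ ^ 2 = x₂ ^ 3 - 2 * x₂)
    (hx : x₁ ≠ x₂) :
    ∃ x₃ y₃ h₃ x₄ y₄ h₄, pt x₁ y₁ h₁ + pt x₂ y₂ h₂ = pt x₃ y₃ h₃ ∧
      pt x₁ y₁ h₁ - pt x₂ y₂ h₂ = pt x₄ y₄ h₄ ∧
      (x₁ - x₂) ^ 2 * (x₃ * x₄) = (x₁ * x₂ + 2) ^ 2 ∧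
      (x₁ - x₂) ^ 2 * (x₃ + x₄) = 2 * (x₁ + x₂) * (x₁ * x₂ - 2) := by
  obtain ⟨y₃, h₃, e₃⟩ := add_chord h₁ h₂ hx
  obtain ⟨y₄, h₄, e₄⟩ := add_chord h₁ (y₂ := -y₂) (by rw [neg_sq]; exact h₂) hx
  have hd : x₁ - x₂ ≠ 0 := sub_ne_zero.2 hx
  refine ⟨_, y₃, h₃, _, y₄, h₄, e₃, ?_, ?_, ?_⟩
  · rw [sub_eq_add_neg, neg_pt]; exact e₄
  · have hA : ((y₁ - y₂) / (x₁ - x₂)) ^ 2 - x₁ - x₂
        = ((x₁ + x₂) * (x₁ * x₂ - 2) - 2 * (y₁ * y₂)) / (x₁ - x₂) ^ 2 := by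
      field_simp
      linear_combination h₁ + h₂
    have hB : ((y₁ - -y₂) / (x₁ - x₂)) ^ 2 - x₁ - x₂
        = ((x₁ + x₂) * (x₁ * x₂ - 2) + 2 * (y₁ * y₂)) / (x₁ - x₂) ^ 2 := by
      field_simp
      linear_combination h₁ + h₂
    rw [hA, hB]
    field_simp
    linear_combination (-4 * y₂ ^ 2) * h₁ + (-4 * (x₁ ^ 3 - 2 * x₁)) * h₂
  · field_simp
    linear_combination 2 * h₁ + 2 * h₂

/-- `addSubMap` does what it should, in every case (`P = 0`, `Q = 0`, `x₁ ≠ x₂`, `Q = ±P` with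
`y ≠ 0`, `Q = P` with `y = 0`).  Here `addSubMap E = ![s² + 4 s u + 4 u², 2 t s - 4 t u, t² - 4 s u]`. -/
theorem addSub_sym (P Q : Pt) : ∃ l : ℚ, l ≠ 0 ∧
    (fun i => (addSubMap E i).eval (P.sym2x Q)) = l • (P + Q).sym2x (P - Q) := by
  rcases pt_cases P with rfl | ⟨x₁, y₁, h₁, rfl⟩
  · rcases pt_cases Q with rfl | ⟨x₂, y₂, h₂, rfl⟩
    · refine ⟨1, one_ne_zero, ?_⟩
      rw [asm_eval, sub_zero, add_zero, sym_00]
      ext i; fin_cases i <;> simp
    · refine ⟨1, one_ne_zero, ?_⟩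
      rw [asm_eval, zero_sub, zero_add, neg_pt, sym_0p, sym_pp]
      ext i; fin_cases i <;> simp <;> ring
  · rcases pt_cases Q with rfl | ⟨x₂, y₂, h₂, rfl⟩
    · refine ⟨1, one_ne_zero, ?_⟩
      rw [asm_eval, sub_zero, add_zero, sym_p0, sym_pp]
      ext i; fin_cases i <;> simp <;> ring
    · by_cases hx : x₁ = x₂
      · subst hx
        by_cases hy : y₁ = 0
        · subst hy
          have hy2 : y₂ = 0 := by
            have : y₂ ^ 2 = 0 := by rw [h₂, ← h₁]; norm_num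
            exact pow_eq_zero_iff (two_ne_zero) |>.1 this
          subst hy2
          refine ⟨(x₁ ^ 2 + 2) ^ 2, by positivity, ?_⟩
          rw [asm_eval, sub_self, add_self_of_y_eq_zero, sym_00, sym_pp]
          ext i; fin_cases i <;> simp
          · ring
          · linear_combination (-4) * h₁
          · ring
        · obtain ⟨y', h', e'⟩ := add_tangent h₁ hy
          refine ⟨4 * y₁ ^ 2, by positivity, ?_⟩
          rcases pt_eq_or_neg h₂ h₁ with e | e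
          · rw [e, asm_eval, sub_self, e', sym_p0, sym_pp]
            ext i; fin_cases i <;> simp
            · field_simp; ring
            · linear_combination (-4) * h₁
            · ring
          · rw [e, asm_eval, sub_neg_eq_add, add_neg_cancel, e', sym_0p,
              Point.sym2x_neg_right, sym_pp]
            ext i; fin_cases i <;> simp
            · field_simp; ring
            · linear_combination (-4) * h₁
            · ring
      · obtain ⟨x₃, y₃, h₃, x₄, y₄, h₄, e₃, e₄, hm, ha⟩ := add_sub_x h₁ h₂ hx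
        refine ⟨(x₁ - x₂) ^ 2, pow_ne_zero _ (sub_ne_zero.2 hx), ?_⟩
        rw [asm_eval, e₃, e₄, sym_pp, sym_pp]
        ext i; fin_cases i <;> simp
        · linear_combination -hm
        · linear_combination -ha
        · ring

/-- Approximate parallelogram law: `addSub_sym`, `Height.logHeight_smul_eq_logHeight`,
`WeierstrassCurve.abs_logHeight_addSubMap_sub_two_mul_logHeight_le`,
`Height.abs_logHeight_sym2_sub_le` (with `P.xRep = ![P.xRep 0, P.xRep 1]`). -/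
theorem ht_par : ∃ C : ℝ, ∀ P Q : Pt, |ht (P + Q) + ht (P - Q) - 2 * (ht P + ht Q)| ≤ C := by
  obtain ⟨C₁, hC₁⟩ := WeierstrassCurve.abs_logHeight_addSubMap_sub_two_mul_logHeight_le E
  obtain ⟨C₂, hC₂⟩ := Height.abs_logHeight_sym2_sub_le ℚ
  have hrep : ∀ P : Pt, ![P.xRep 0, P.xRep 1] = P.xRep := fun P => by
    ext i; fin_cases i <;> rfl
  have hs : ∀ P Q : Pt, |Height.logHeight (P.sym2x Q) - (ht P + ht Q)| ≤ C₂ := by
    intro P Q
    have := hC₂ (a := P.xRep 0) (b := P.xRep 1) (c := Q.xRep 0) (d := Q.xRep 1)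
      (by rw [hrep]; exact Point.xRep_ne_zero P) (by rw [hrep]; exact Point.xRep_ne_zero Q)
    rw [hrep, hrep] at this
    exact this
  refine ⟨C₁ + 3 * C₂, fun P Q => ?_⟩
  obtain ⟨l, hl, e⟩ := addSub_sym P Q
  have h1 := hC₁ (P.sym2x Q)
  rw [e, Height.logHeight_smul_eq_logHeight _ hl] at h1
  have h2 := hs P Q
  have h3 := hs (P + Q) (P - Q)
  rw [abs_le] at h1 h2 h3 ⊢
  constructor <;> linarith [h1.1, h1.2, h2.1, h2.2, h3.1, h3.2]

theorem ht_nonneg (P : Pt) : 0 ≤ ht P := by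
  exact Height.logHeight_nonneg _

/-- Northcott: `ht (pt x y h) = logHeight₁ x` (`Height.logHeight₁_eq_logHeight` or similar), finitely many
rationals have bounded height, and at most two points share an `x`. -/
theorem ht_fin (B : ℝ) : {P : Pt | ht P ≤ B}.Finite := by
  have hX : {x : ℚ | Height.logHeight₁ x ≤ B}.Finite :=
    NumberField.finite_setOfPred_logHeight₁_le ℚ B
  have hF : ∀ x : ℚ, {P : Pt | ∃ y h, P = pt x y h}.Finite := by
    intro x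
    by_cases hx : ∃ y : ℚ, y ^ 2 = x ^ 3 - 2 * x
    · obtain ⟨y₀, h₀⟩ := hx
      refine (Set.toFinite ({pt x y₀ h₀, -pt x y₀ h₀} : Set Pt)).subset ?_
      rintro P ⟨y, h, rfl⟩
      rcases pt_eq_or_neg h h₀ with e | e
      · exact Or.inl e
      · exact Or.inr e
    · refine Set.finite_empty.subset ?_
      rintro P ⟨y, h, rfl⟩
      exact hx ⟨y, h⟩
  refine ((Set.finite_singleton (0 : Pt)).union (hX.biUnion fun x _ => hF x)).subset ?_
  intro P hP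
  rcases pt_cases P with rfl | ⟨x, y, h, rfl⟩
  · exact Or.inl rfl
  · refine Or.inr (Set.mem_biUnion (x := x) ?_ ⟨y, h, rfl⟩)
    have : ht (pt x y h) ≤ B := hP
    rwa [ht_pt] at this

/-- `Rat.logHeight₁_eq_log_max`: the numerator of `(s/e)²` is `s²`, the denominator `e²`. -/
theorem ht_sq {s e : ℕ} (he : 0 < e) (hc : Nat.Coprime s e) (hes : e ≤ s) {y : ℚ}
    (h : y ^ 2 = (((s : ℚ) / e) ^ 2) ^ 3 - 2 * ((s : ℚ) / e) ^ 2) :
    ht (pt (((s : ℚ) / e) ^ 2) y h) = 2 * Real.log s := by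
  rw [ht_pt, Rat.logHeight₁_eq_log_max]
  have hc2 : Nat.Coprime ((s : ℤ) ^ 2).natAbs ((e : ℤ) ^ 2).natAbs := by
    simpa [Int.natAbs_pow] using Nat.Coprime.pow 2 2 hc
  have hpos : (0 : ℤ) < (e : ℤ) ^ 2 := by positivity
  have hq : ((s : ℚ) / e) ^ 2 = (((s : ℤ) ^ 2 : ℤ) : ℚ) / (((e : ℤ) ^ 2 : ℤ) : ℚ) := by
    push_cast; rw [div_pow]
  have hn := Rat.num_div_eq_of_coprime hpos hc2
  have hd := Rat.den_div_eq_of_coprime hpos hc2
  rw [← hq] at hn hd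
  have hd' : (((s : ℚ) / e) ^ 2).den = e ^ 2 := by exact_mod_cast hd
  rw [hn, hd', Int.natAbs_pow, Int.natAbs_natCast,
    max_eq_left (Nat.pow_le_pow_left hes 2)]
  push_cast
  rw [Real.log_pow]; norm_num

end Crest.Agent.R323
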