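import Crest.Agent.R323.Canon
import Crest.Agent.R323.ECHt
import Crest.Agent.R323.ECDesc2

/-!
# Row 323: the solutions of `s⁴ = 2e⁴ + W²` form one sequence of growth `exp (c n²)`
-/

set_option autoImplicit false

namespace Crest.Agent.R323

open WeierstrassCurve WeierstrassCurve.Affine

/-- The subgroup `2 E(ℚ)`. -/
def Dbl : AddSubgroup Pt where
  carrier := {P | ∃ R : Pt, P = R + R}
  add_mem' := by
    rintro _ _ ⟨R, rfl⟩ ⟨S, rfl⟩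
    exact ⟨R + S, by abel⟩
  zero_mem' := ⟨0, by simp⟩
  neg_mem' := by
    rintro _ ⟨R, rfl⟩
    exact ⟨-R, by abel⟩

lemma mem_Dbl {P : Pt} : P ∈ Dbl ↔ IsSq P :=
  ⟨by rintro ⟨R, rfl⟩; exact isSq_double R, fun h => exists_half h⟩

lemma sol_unique {a b s e : ℕ} (h : Sol a b) (h' : Sol s e)
    (hx : ((a : ℚ) / b) ^ 2 = ((s : ℚ) / e) ^ 2) : a = s ∧ b = e := by
  have h1 : (a : ℚ) / b = (s : ℚ) / e :=
    (pow_left_inj₀ (by positivity) (by positivity) two_ne_zero).1 hx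
  have h2 := Rat.div_int_inj (a := (a : ℤ)) (b := (b : ℤ)) (c := (s : ℤ)) (d := (e : ℤ))
    (by exact_mod_cast h.1) (by exact_mod_cast h'.1) (by simpa using h.2.1) (by simpa using h'.2.1)
    (by simpa using h1)
  exact ⟨by exact_mod_cast h2.1, by exact_mod_cast h2.2⟩

lemma x_eq_of_eq_or_neg {x y x' y' : ℚ} {h : y ^ 2 = x ^ 3 - 2 * x} {h' : y' ^ 2 = x' ^ 3 - 2 * x'}
    (H : pt x y h = pt x' y' h' ∨ pt x y h = -pt x' y' h') : x = x' := by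
  rcases H with H | H
  · exact (pt_inj.1 H).1
  · rw [neg_pt] at H
    exact (pt_inj.1 H).1

lemma biq_iff {p q s e a b : ℕ} (hq : 0 < q) (he : 0 < e) (hb : 0 < b) :
    Biq p q s e a b ↔
      (((s : ℚ) / e) ^ 2 - ((p : ℚ) / q) ^ 2) ^ 2 * (((a : ℚ) / b) ^ 2) ^ 2
        - 2 * (((s : ℚ) / e) ^ 2 + ((p : ℚ) / q) ^ 2) * (((s : ℚ) / e) ^ 2 * ((p : ℚ) / q) ^ 2 - 2)
          * ((a : ℚ) / b) ^ 2
        + (((s : ℚ) / e) ^ 2 * ((p : ℚ) / q) ^ 2 + 2) ^ 2 = 0 := by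
  have hq' : (q : ℚ) ≠ 0 := by positivity
  have he' : (e : ℚ) ≠ 0 := by positivity
  have hb' : (b : ℚ) ≠ 0 := by positivity
  have key : (((s : ℚ) / e) ^ 2 - ((p : ℚ) / q) ^ 2) ^ 2 * (((a : ℚ) / b) ^ 2) ^ 2
        - 2 * (((s : ℚ) / e) ^ 2 + ((p : ℚ) / q) ^ 2) * (((s : ℚ) / e) ^ 2 * ((p : ℚ) / q) ^ 2 - 2)
          * ((a : ℚ) / b) ^ 2
        + (((s : ℚ) / e) ^ 2 * ((p : ℚ) / q) ^ 2 + 2) ^ 2
      = ((((s : ℚ) ^ 2 * q ^ 2) ^ 2 + (p ^ 2 * e ^ 2) ^ 2) * a ^ 4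
          + 4 * (s ^ 2 * q ^ 2 + p ^ 2 * e ^ 2) * (e ^ 2 * q ^ 2) * (a ^ 2 * b ^ 2)
          + (s ^ 2 * p ^ 2 + 2 * (e ^ 2 * q ^ 2)) ^ 2 * b ^ 4
        - (2 * (s ^ 2 * q ^ 2) * (p ^ 2 * e ^ 2) * a ^ 4
          + 2 * (s ^ 2 * q ^ 2 + p ^ 2 * e ^ 2) * (s ^ 2 * p ^ 2) * (a ^ 2 * b ^ 2)))
        / (e ^ 4 * q ^ 4 * b ^ 4) := by
    field_simp
    ring
  rw [key, div_eq_zero_iff, or_iff_left (by positivity), sub_eq_zero]
  unfold Biq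
  exact_mod_cast Iff.rfl

/-- Let `G = 2 E(ℚ)` (the range of `R ↦ R + R`, an `AddSubgroup Pt`); its elements are exactly the `IsSq`
points (`isSq_double`, `exists_half`).  Apply `canon_cyclic` to `G` with `h = ht ∘ (↑)`, `P₂ = P0 + P0`:
for `Q = R₀ + R₀` pick by `descent` the point `R ∈ {R₀, R₀+T, R₀+P0, R₀+T+P0}` lying in `G`
(`T + T = 0`).  For `n ≥ 1`, `n • P = pt ((s n / e n)²) _ _` by `sol_of_sq`; `ht_sq` gives the growth (with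
`c/2`, `C'/2`).  A solution `(a, b)` gives a nonzero point of `G`, so `± n • P` (`xRep_neg`); two coprime pairs
with `(a/b)² = (s/e)²` are equal.  For `n ≥ 2`, `x(n • P) ≠ x(P)` (else `(n ∓ 1) • P = 0`), and `add_sub_x`
shows that the roots of the quadratic are `x((n+1) • P)` and `x((n-1) • P)`; `Biq` is that quadratic with
denominators cleared. -/
theorem ec_main : ∃ (s e : ℕ → ℕ) (c C : ℝ), 0 < c ∧ (∀ n, 1 ≤ n → Sol (s n) (e n)) ∧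
    (∀ n, 1 ≤ n → |Real.log (s n) - c * (n : ℝ) ^ 2| ≤ C) ∧
    (∀ a b, Sol a b → ∃ n, 1 ≤ n ∧ a = s n ∧ b = e n) ∧
    ∀ n, 2 ≤ n → ∀ a b, Sol a b →
      (Biq (s 1) (e 1) (s n) (e n) a b ↔
        (a = s (n + 1) ∧ b = e (n + 1)) ∨ (a = s (n - 1) ∧ b = e (n - 1))) := by
  obtain ⟨C, hC⟩ := ht_par
  have hP2 : P0 + P0 ∈ Dbl := ⟨P0, rfl⟩
  obtain ⟨P, c, C', hc, hgen, hne, hgr⟩ := canon_cyclic (G := Dbl) (fun Q => ht (Q : Pt)) C
    (fun Q => ht_nonneg _) (fun Q R => by simpa using hC (Q : Pt) (R : Pt))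
    (fun B => (ht_fin B).preimage (f := fun Q : Dbl => (Q : Pt)) Subtype.val_injective.injOn)
    (fun Q hQ i j hij => two_pow_inj (mem_Dbl.1 Q.2) (fun h => hQ (Subtype.ext h))
      (by simpa using congrArg Subtype.val hij))
    ⟨P0 + P0, hP2⟩
    (by
      rintro ⟨_, R, rfl⟩
      have hT := T_add_T
      rcases descent R with h | h | h | h
      · exact ⟨⟨R, mem_Dbl.2 h⟩, Or.inl rfl⟩
      · refine ⟨⟨R + T, mem_Dbl.2 h⟩, Or.inl (Subtype.ext ?_)⟩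
        change R + R = R + T + (R + T)
        rw [show R + T + (R + T) = R + R + (T + T) by abel, hT, add_zero]
      · refine ⟨⟨R + P0, mem_Dbl.2 h⟩, Or.inr (Subtype.ext ?_)⟩
        change R + R = R + P0 + (R + P0) - (P0 + P0)
        abel
      · refine ⟨⟨R + T + P0, mem_Dbl.2 h⟩, Or.inr (Subtype.ext ?_)⟩
        change R + R = R + T + P0 + (R + T + P0) - (P0 + P0)
        rw [show R + T + P0 + (R + T + P0) - (P0 + P0) = R + R + (T + T) by abel, hT, add_zero])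
    ⟨⟨P0 + P0, hP2⟩, fun h => P0_double_ne (congrArg Subtype.val h)⟩
  have hne' : ∀ n : ℤ, n ≠ 0 → n • (P : Pt) ≠ 0 := fun n hn h =>
    hne n hn (Subtype.ext (by simpa using h))
  have hex : ∀ n : ℕ, ∃ S e : ℕ, 1 ≤ n → Sol S e ∧
      ∃ y h, (n : ℤ) • (P : Pt) = pt (((S : ℚ) / e) ^ 2) y h := by
    intro n
    rcases Nat.eq_zero_or_pos n with rfl | hn
    · exact ⟨0, 0, fun h => absurd h (by norm_num)⟩
    have hmem : (n : ℤ) • (P : Pt) ∈ Dbl := Dbl.zsmul_mem P.2 _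
    rcases mem_Dbl.1 hmem with h | ⟨x, y, h, s, hP, hs, hx⟩
    · exact absurd h (hne' _ (by exact_mod_cast hn.ne'))
    · obtain ⟨S, e, hS, hxe⟩ := sol_of_sq h hs hx
      refine ⟨S, e, fun _ => ⟨hS, y, hxe ▸ h, ?_⟩⟩
      rw [hP, pt_inj]
      exact ⟨hxe, rfl⟩
  choose s e hse using hex
  refine ⟨s, e, c / 2, C' / 2, by positivity, fun n hn => (hse n hn).1, ?_, ?_, ?_⟩
  · intro n hn
    obtain ⟨hS, y, h, hP⟩ := hse n hn
    have h1 := hgr (n : ℤ)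
    have h2 : ht (((n : ℤ) • P : Dbl) : Pt) = 2 * Real.log (s n) := by
      rw [AddSubgroup.coe_zsmul, hP]
      exact ht_sq hS.1 hS.2.1 (pt_of_sol hS).2.1 h
    simp only [h2, Int.cast_natCast] at h1
    rw [abs_le] at h1 ⊢
    constructor <;> linarith [h1.1, h1.2]
  · intro a b hab
    obtain ⟨ha, -, y, h⟩ := pt_of_sol hab
    have hb := hab.1
    have hmem : pt (((a : ℚ) / b) ^ 2) y h ∈ Dbl :=
      mem_Dbl.2 (Or.inr ⟨_, y, h, (a : ℚ) / b, rfl, by positivity, rfl⟩)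
    obtain ⟨m, hm⟩ := hgen ⟨_, hmem⟩
    have hm' : pt (((a : ℚ) / b) ^ 2) y h = m • (P : Pt) := by
      simpa using congrArg Subtype.val hm
    have hm0 : m ≠ 0 := by
      rintro rfl
      exact pt_ne_zero h (by simpa using hm')
    have hn : 1 ≤ m.natAbs := Int.natAbs_pos.2 hm0
    obtain ⟨hS, y', h', hP⟩ := hse _ hn
    refine ⟨m.natAbs, hn, sol_unique hab hS (x_eq_of_eq_or_neg (h := h) (h' := h') ?_)⟩
    rw [hm', ← hP]
    rcases Int.natAbs_eq m with h1 | h1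
    · exact Or.inl (by rw [← h1])
    · exact Or.inr (by rw [← neg_smul, ← h1])
  · intro n hn a b hab
    obtain ⟨hS1, y₁, h₁, hP1⟩ := hse 1 le_rfl
    obtain ⟨hSn, y₂, h₂, hPn⟩ := hse n (by omega)
    obtain ⟨hSp, y₃, h₃, hPp⟩ := hse (n + 1) (by omega)
    obtain ⟨hSm, y₄, h₄, hPm⟩ := hse (n - 1) (by omega)
    have hp : ((n + 1 : ℕ) : ℤ) • (P : Pt) = (n : ℤ) • (P : Pt) + ((1 : ℕ) : ℤ) • (P : Pt) := by
      rw [Nat.cast_add]; exact add_zsmul _ _ _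
    have hm : ((n - 1 : ℕ) : ℤ) • (P : Pt) = (n : ℤ) • (P : Pt) - ((1 : ℕ) : ℤ) • (P : Pt) := by
      rw [← sub_smul, Nat.cast_sub (by omega)]
    have hx : ((s n : ℚ) / e n) ^ 2 ≠ ((s 1 : ℚ) / e 1) ^ 2 := by
      intro hx
      have h₂' : y₂ ^ 2 = (((s 1 : ℚ) / e 1) ^ 2) ^ 3 - 2 * ((s 1 : ℚ) / e 1) ^ 2 := hx ▸ h₂
      have hpt : pt (((s n : ℚ) / e n) ^ 2) y₂ h₂ = pt (((s 1 : ℚ) / e 1) ^ 2) y₂ h₂' :=
        pt_inj.2 ⟨hx, rfl⟩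
      rcases pt_eq_or_neg h₂' h₁ with h | h
      · refine hne' ((n - 1 : ℕ) : ℤ) (by omega) ?_
        rw [hm, hPn, hP1, hpt, h, sub_self]
      · refine hne' ((n + 1 : ℕ) : ℤ) (by omega) ?_
        rw [hp, hPn, hP1, hpt, h, neg_add_cancel]
    obtain ⟨x₃, y₃', h₃', x₄, y₄', h₄', e3, e4, hprod, hsum⟩ := add_sub_x h₂ h₁ hx
    have hx3 : x₃ = ((s (n + 1) : ℚ) / e (n + 1)) ^ 2 := by
      rw [← hPn, ← hP1, ← hp, hPp] at e3
      exact (pt_inj.1 e3).1.symm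
    have hx4 : x₄ = ((s (n - 1) : ℚ) / e (n - 1)) ^ 2 := by
      rw [← hPn, ← hP1, ← hm, hPm] at e4
      exact (pt_inj.1 e4).1.symm
    rw [biq_iff hS1.1 hSn.1 hab.1, ← hprod, ← hsum]
    have hd : (((s n : ℚ) / e n) ^ 2 - ((s 1 : ℚ) / e 1) ^ 2) ^ 2 ≠ 0 :=
      pow_ne_zero _ (sub_ne_zero.2 hx)
    generalize (((s n : ℚ) / e n) ^ 2 - ((s 1 : ℚ) / e 1) ^ 2) ^ 2 = d at hd
    have hfac : d * (((a : ℚ) / b) ^ 2) ^ 2 - d * (x₃ + x₄) * ((a : ℚ) / b) ^ 2 + d * (x₃ * x₄)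
        = d * ((((a : ℚ) / b) ^ 2 - x₃) * (((a : ℚ) / b) ^ 2 - x₄)) := by ring
    rw [hfac, mul_eq_zero, or_iff_right hd, mul_eq_zero, sub_eq_zero, sub_eq_zero, hx3, hx4]
    constructor
    · rintro (h | h)
      · exact Or.inl (sol_unique hab hSp h)
      · exact Or.inr (sol_unique hab hSm h)
    · rintro (⟨h1, h2⟩ | ⟨h1, h2⟩)
      · exact Or.inl (by rw [h1, h2])
      · exact Or.inr (by rw [h1, h2])

end Crest.Agent.R323
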