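import Crest.Agent.R323.SF
import Crest.Agent.R323.ECMain

/-!
# Row 323: consecutive terms of the sequence `s n` form a single-fold relation
-/

set_option autoImplicit false

namespace Crest.Agent.R323

/-- `Sol s e ↔ (0 < e ∧ Coprime s e) ∧ ∃ W, …` with `W` unique: `SF2.mk`, `SF.coprime`, `SF.ex`, `sf`. -/
theorem sf_sol : SF2 Sol := by
  refine SF2.mk ?_
  have h1 : SF fun v : Fin 2 → ℕ => 0 < v 1 ∧ Nat.Coprime (v 0) (v 1) :=
    SF.coprime (SFn.proj _) (SFn.proj _)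
  have h2 : SF fun v : Fin 2 → ℕ => ∃ W : ℕ, v 0 ^ 4 = 2 * v 1 ^ 4 + W ^ 2 := by
    refine SF.ex (q := fun W (v : Fin 2 → ℕ) => v 0 ^ 4 = 2 * v 1 ^ 4 + W ^ 2) (by sf) ?_
    intro v x x' e1 e2
    have : x ^ 2 = x' ^ 2 := by omega
    exact Nat.pow_left_injective (by norm_num) this
  exact (h1.and h2).congr fun v => by simp only [Sol, and_assoc]

theorem Sol.pos {s e : ℕ} (h : Sol s e) : 0 < s := by
  obtain ⟨he, -, W, hW⟩ := h
  rcases Nat.eq_zero_or_pos s with rfl | h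
  · have : 0 < e ^ 4 := by positivity
    omega
  · exact h

/-- From `ec_main`.  Choose `n₁ ≥ 2` with `c (2 n₁ - 1) > 2C`; then `s m < s n` whenever `1 ≤ m < n`,
`n₁ ≤ n` (compare logarithms; `s n > 0` since `Sol`).  For `n₀ ≥ n₁` the relation is
`∃ e e', Sol a e ∧ Sol b e' ∧ s n₀ ≤ a ∧ a < b ∧ Biq (s 1) (e 1) a e b e'` (unfold `Biq`, `sf [sf_sol]`):
a solution with first entry `≥ s n₀` has index `≥ n₀`, and its index (so its `e`) is determined by the first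
entry. -/
theorem grow1 : ∃ (s : ℕ → ℕ) (c C : ℝ) (n₁ : ℕ), 0 < c ∧ (∀ n, 1 ≤ n → 0 < s n) ∧
    (∀ n, 1 ≤ n → |Real.log (s n) - c * (n : ℝ) ^ 2| ≤ C) ∧
    (∀ m n, n₁ ≤ m → m < n → s m < s n) ∧
    ∀ n₀, n₁ ≤ n₀ → SF2 fun a b => ∃ n, n₀ ≤ n ∧ a = s n ∧ b = s (n + 1) := by
  obtain ⟨s, e, c, C, hc, hsol, hl, hall, hbiq⟩ := ec_main
  have hpos : ∀ n, 1 ≤ n → 0 < s n := fun n hn => (hsol n hn).pos
  obtain ⟨N, hN⟩ := exists_nat_gt (2 * C / c)
  have hN' : 2 * C < N * c := (div_lt_iff₀ hc).1 hN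
  have hmono : ∀ m n, 1 ≤ m → m < n → N + 2 ≤ n → s m < s n := by
    intro m n hm hmn hn
    have ha : (0 : ℝ) < s m := by exact_mod_cast hpos m hm
    have hb : (0 : ℝ) < s n := by exact_mod_cast hpos n (by omega)
    have h1 := (abs_le.1 (hl m hm)).2
    have h2 := (abs_le.1 (hl n (by omega))).1
    have h3 : (m : ℝ) + 1 ≤ n := by exact_mod_cast hmn
    have h4 : (N : ℝ) + 2 ≤ n := by exact_mod_cast hn
    have h5 : (0 : ℝ) ≤ m := by positivity
    have h6 : (m : ℝ) ^ 2 + N ≤ (n : ℝ) ^ 2 := by nlinarith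
    have h7 := mul_le_mul_of_nonneg_left h6 hc.le
    have : (s m : ℝ) < s n := by
      rw [← Real.log_lt_log_iff ha hb]; nlinarith
    exact_mod_cast this
  refine ⟨s, c, C, N + 2, hc, hpos, hl, fun m n hm hmn => hmono m n (by omega) hmn (by omega),
    fun n₀ hn₀ => SF2.mk ?_⟩
  -- a solution with first entry at least `s n₀` has index at least `n₀`
  have hidx : ∀ n, 1 ≤ n → s n₀ ≤ s n → n₀ ≤ n := fun n hn h => by
    by_contra hcon
    exact absurd (hmono n n₀ hn (by omega) hn₀) (by omega)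
  have hinj : ∀ n n', n₀ ≤ n → n₀ ≤ n' → s n = s n' → n = n' := fun n n' hn hn' h => by
    rcases lt_trichotomy n n' with h' | h' | h'
    · exact absurd (hmono n n' (by omega) h' (by omega)) (by omega)
    · exact h'
    · exact absurd (hmono n' n (by omega) h' (by omega)) (by omega)
  have huniq : ∀ a x x', s n₀ ≤ a → Sol a x → Sol a x' → x = x' := fun a x x' h e1 e2 => by
    obtain ⟨n, hn, rfl, rfl⟩ := hall _ _ e1
    obtain ⟨n', hn', h', rfl⟩ := hall _ _ e2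
    rw [hinj n n' (hidx n hn h) (hidx n' hn' (h' ▸ h)) h']
  refine (SF.ex2 (q := fun x y (v : Fin 2 → ℕ) => Sol (v 0) x ∧ Sol (v 1) y ∧ s n₀ ≤ v 0 ∧
    v 0 < v 1 ∧ Biq (s 1) (e 1) (v 0) x (v 1) y) ?_ ?_).congr fun v => ?_
  · refine SF.and (sf_sol (SFn.proj _) (SFn.proj _)) (SF.and (sf_sol (SFn.proj _) (SFn.proj _))
      (SF.and (by sf) (SF.and (by sf) ?_)))
    unfold Biq
    sf
  · rintro v x y x' y' ⟨e1, e2, e3, e4, -⟩ ⟨f1, f2, -, -, -⟩
    exact ⟨huniq _ _ _ e3 e1 f1, huniq _ _ _ (by omega) e2 f2⟩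
  · constructor
    · rintro ⟨x, y, e1, e2, e3, e4, e5⟩
      obtain ⟨n, hn, h1, rfl⟩ := hall _ _ e1
      have hn0 := hidx n hn (h1 ▸ e3)
      rw [h1] at e5
      rcases (hbiq n (by omega) _ _ e2).1 e5 with ⟨h2, -⟩ | ⟨h2, -⟩
      · exact ⟨n, hn0, h1, h2⟩
      · have := hmono (n - 1) n (by omega) (by omega) (by omega)
        omega
    · rintro ⟨n, hn, h1, h2⟩
      refine ⟨e n, e (n + 1), h1 ▸ hsol n (by omega), h2 ▸ hsol (n + 1) (by omega), ?_, ?_, ?_⟩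
      · rw [h1]
        rcases hn.eq_or_lt with rfl | h
        · exact le_rfl
        · exact (hmono n₀ n (by omega) h (by omega)).le
      · rw [h1, h2]
        exact hmono n (n + 1) (by omega) (by omega) (by omega)
      · rw [h1, h2]
        exact (hbiq n (by omega) _ _ (hsol (n + 1) (by omega))).2 (Or.inl ⟨rfl, rfl⟩)

end Crest.Agent.R323
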