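import Crest.Agent.R323.SF

/-!
# Row 323: Pell sequences and the "Pell logarithm"
-/

set_option autoImplicit false

namespace Crest.Agent.R323

open Pell

/-- `Pell.eq_pell`, `Pell.pell_eq` (there `d a1` is `a * a - 1`, private but unfolds by `show`/`rfl`;
see the statement of `Pell.matiyasevic` for how it is used). -/
theorem pell_iff {a : ℕ} (a1 : 1 < a) (x y : ℕ) :
    x ^ 2 + y ^ 2 = a ^ 2 * y ^ 2 + 1 ↔ ∃ n, x = xn a1 n ∧ y = yn a1 n := by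
  have h1 : 1 ≤ a * a := by nlinarith
  obtain ⟨e, he⟩ : ∃ e, a * a = e + 1 := ⟨a * a - 1, by omega⟩
  have key : ∀ x y : ℕ, x * x - (a * a - 1) * y * y = 1 ↔ x ^ 2 + y ^ 2 = a ^ 2 * y ^ 2 + 1 := by
    intro x y
    rw [sq a, he, Nat.add_sub_cancel, sq, sq, add_mul, one_mul, mul_assoc]
    omega
  constructor
  · intro h
    exact eq_pell a1 ((key x y).2 h)
  · rintro ⟨n, rfl, rfl⟩
    exact (key _ _).1 (pell_eq a1 n)

/-- `yn_succ`: `y (m+2) = x (m+1) + y (m+1) * a`. -/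
theorem yn_lower {a : ℕ} (a1 : 1 < a) (m : ℕ) : a ^ m ≤ yn a1 (m + 1) := by
  rw [yn_succ]
  exact (xn_ge_a_pow a1 m).trans (Nat.le_add_right _ _)

/-- `yn_succ_succ`. -/
theorem yn_upper {a : ℕ} (a1 : 1 < a) (m : ℕ) : yn a1 (m + 1) ≤ (2 * a) ^ m := by
  induction m with
  | zero => simp
  | succ m ih =>
    have := yn_succ_succ a1 m
    rw [pow_succ']
    exact (Nat.le_add_right _ _).trans (this.le.trans (Nat.mul_le_mul_left _ ih))

/-- With `A = u + 2` let `M` be the index with `y_M ≤ v < y_{M+1} = x_M + y_M A` (`strictMono_y`).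
`F u v = M % (u + 1)`; and `z = F u v ↔ ∃ x y, x² + y² = A² y² + 1 ∧ y ≤ v ∧ v < x + y A ∧ z = y % (u+1)`
with unique `x, y` (`yn_modEq_a_sub_one`).  Use `SFn2.mk`, `SFn.intro`, `SF.ex2`, `sf`. -/
theorem exists_plog : ∃ F : ℕ → ℕ → ℕ, SFn2 F ∧ ∀ u v, 1 ≤ v →
    ∃ m, F u v = (m + 1) % (u + 1) ∧ (u + 2) ^ m ≤ v ∧ v < (2 * (u + 2)) ^ (m + 1) := by
  have ha : ∀ u : ℕ, 1 < u + 2 := fun u => by omega
  have hex : ∀ u v : ℕ, ∃ M, yn (ha u) M ≤ v ∧ v < yn (ha u) (M + 1) := by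
    intro u v
    have h0 : ∃ M, v < yn (ha u) (M + 1) := ⟨v, yn_ge_n _ _⟩
    classical
    refine ⟨Nat.find h0, ?_, Nat.find_spec h0⟩
    rcases h : Nat.find h0 with _ | M
    · simp
    · exact not_lt.1 (Nat.find_min h0 (by omega : M < Nat.find h0))
  have hun : ∀ u v M M', yn (ha u) M ≤ v → v < yn (ha u) (M + 1) → yn (ha u) M' ≤ v →
      v < yn (ha u) (M' + 1) → M = M' := by
    intro u v M M' h1 h2 h3 h4
    have a1 := (strictMono_y (ha u)).lt_iff_lt.1 (h1.trans_lt h4)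
    have a2 := (strictMono_y (ha u)).lt_iff_lt.1 (h3.trans_lt h2)
    omega
  choose M hM hM' using hex
  refine ⟨fun u v => M u v % (u + 1), SFn2.mk ?_, fun u v hv => ?_⟩
  · refine SFn.intro (fun z v => ∃ x y, x ^ 2 + y ^ 2 = (v 0 + 2) ^ 2 * y ^ 2 + 1 ∧ y ≤ v 1 ∧
      v 1 < x + y * (v 0 + 2) ∧ z = y % (v 0 + 1)) (SF.ex2 (by sf) ?_) ?_
    · rintro v x y x' y' ⟨e1, e2, e3, -⟩ ⟨e4, e5, e6, -⟩
      obtain ⟨n, rfl, rfl⟩ := (pell_iff (ha _) _ _).1 e1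
      obtain ⟨n', rfl, rfl⟩ := (pell_iff (ha _) _ _).1 e4
      rw [hun _ _ _ _ e2 e3 e5 e6]
      exact ⟨rfl, rfl⟩
    · intro z v
      constructor
      · rintro ⟨x, y, e1, e2, e3, rfl⟩
        obtain ⟨n, rfl, rfl⟩ := (pell_iff (ha _) _ _).1 e1
        rw [hun _ _ _ _ e2 e3 (hM _ _) (hM' _ _)]
        exact yn_modEq_a_sub_one (ha (v 0)) _
      · rintro rfl
        exact ⟨_, _, (pell_iff (ha _) _ _).2 ⟨M (v 0) (v 1), rfl, rfl⟩, hM _ _, hM' _ _,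
          (yn_modEq_a_sub_one (ha (v 0)) _).symm⟩
  · have h1 := hM u v
    have h2 := hM' u v
    rcases h : M u v with _ | m
    · rw [h] at h2; simp at h2; omega
    · rw [h] at h1 h2
      exact ⟨m, by simp only [h], (yn_lower _ m).trans h1, h2.trans_le (yn_upper _ _)⟩

end Crest.Agent.R323
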