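import Crest.Agent.R323.Grow1
import Crest.Agent.R323.Plog

/-!
# Row 323: the index is read off two consecutive terms, up to a bounded error
-/

set_option autoImplicit false

namespace Crest.Agent.R323

/-- Pure estimate.  Let `ρ = s (n+1) / s n` (real), `u = ⌊ρ⌋` (`ℕ`-division), `A = u + 2`, so `ρ < A ≤ 3ρ`
and `|log ρ - c (2n+1)| ≤ 2C`.  From `A^m ≤ s n`: `m (c (2n+1) - 2C) ≤ c n² + C`, so `2m ≤ n + O(1)`.
From `s n < (2A)^(m+1)`: `c n² - C < (m+1) (log 6 + c (2n+1) + 2C)`, so `n ≤ 2m + O(1)`.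
For large `n` also `m + 1 ≤ u` (`ρ ≥ exp (2cn - 2C) ≥ (2cn - 2C)²/2`), and `2^n ≤ s n ≤ 2^(D n²)`. -/
theorem grow_est (s : ℕ → ℕ) (c C : ℝ) (hc : 0 < c) (hs : ∀ n, 1 ≤ n → 0 < s n)
    (hl : ∀ n, 1 ≤ n → |Real.log (s n) - c * (n : ℝ) ^ 2| ≤ C) :
    ∃ n₂ C₁ D : ℕ, ∀ n, n₂ ≤ n → 2 ^ n ≤ s n ∧ s n ≤ 2 ^ (D * n ^ 2) ∧
      ∀ m, (s (n + 1) / s n + 2) ^ m ≤ s n → s n < (2 * (s (n + 1) / s n + 2)) ^ (m + 1) →
        m + 1 ≤ s (n + 1) / s n ∧ n ≤ 2 * (m + 1) + C₁ ∧ 2 * (m + 1) ≤ n + C₁ := by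
  have hC : 0 ≤ C := (abs_nonneg _).trans (hl 1 le_rfl)
  have hl2 : 0 < Real.log 2 := Real.log_pos one_lt_two
  have hl6 : 0 < Real.log 6 := Real.log_pos (by norm_num)
  obtain ⟨K, hK⟩ := exists_nat_ge ((Real.log 6 + c + 4 * C) / c)
  have hK' : Real.log 6 + c + 4 * C ≤ K * c := (div_le_iff₀ hc).1 hK
  obtain ⟨D, hD⟩ := exists_nat_ge ((c + C) / Real.log 2)
  have hD' : c + C ≤ D * Real.log 2 := (div_le_iff₀ hl2).1 hD
  obtain ⟨N₁, hN₁⟩ := exists_nat_ge ((Real.log 2 + 2 * C) / c)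
  obtain ⟨N₂, hN₂⟩ := exists_nat_ge (2 * ((K : ℝ) + 4) / c ^ 2)
  refine ⟨max 1 (max N₁ N₂), K + 2, D, fun n hn => ?_⟩
  have hn1 : 1 ≤ n := le_trans (le_max_left _ _) hn
  have hnN₁ : N₁ ≤ n := le_trans (le_trans (le_max_left _ _) (le_max_right _ _)) hn
  have hnN₂ : N₂ ≤ n := le_trans (le_trans (le_max_right _ _) (le_max_right _ _)) hn
  have hn1' : (1 : ℝ) ≤ n := by exact_mod_cast hn1
  have h1 : Real.log 2 + 2 * C ≤ n * c :=
    (div_le_iff₀ hc).1 (hN₁.trans (by exact_mod_cast hnN₁))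
  have h2 : 2 * ((K : ℝ) + 4) ≤ n * c ^ 2 :=
    (div_le_iff₀ (by positivity)).1 (hN₂.trans (by exact_mod_cast hnN₂))
  have ha : (0 : ℝ) < s n := by exact_mod_cast hs n hn1
  have hb : (0 : ℝ) < s (n + 1) := by exact_mod_cast hs (n + 1) (by omega)
  obtain ⟨ha1, ha2⟩ := abs_le.1 (hl n hn1)
  obtain ⟨hb1, hb2⟩ := abs_le.1 (hl (n + 1) (by omega))
  push_cast at hb1 hb2
  refine ⟨?_, ?_, fun m hm1 hm2 => ?_⟩
  · have : ((2 : ℝ)) ^ n ≤ s n := by
      rw [← Real.log_le_log_iff (by positivity) ha, Real.log_pow]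
      nlinarith [mul_le_mul_of_nonneg_left h1 (by positivity : (0 : ℝ) ≤ n),
        mul_nonneg hC (sub_nonneg.2 hn1')]
    exact_mod_cast this
  · have : (s n : ℝ) ≤ (2 : ℝ) ^ (D * n ^ 2) := by
      rw [← Real.log_le_log_iff ha (by positivity), Real.log_pow]
      push_cast
      have hn2 : (1 : ℝ) ≤ (n : ℝ) ^ 2 := one_le_pow₀ hn1'
      nlinarith [mul_le_mul_of_nonneg_left hD' (by positivity : (0 : ℝ) ≤ (n : ℝ) ^ 2),
        mul_nonneg hC (sub_nonneg.2 hn2)]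
    exact_mod_cast this
  · set u := s (n + 1) / s n with hu
    set ρ : ℝ := (s (n + 1) : ℝ) / s n with hρ
    have hρ0 : 0 < ρ := div_pos hb ha
    have hlρ : Real.log ρ = Real.log (s (n + 1)) - Real.log (s n) := Real.log_div hb.ne' ha.ne'
    have hu1 : (u : ℝ) ≤ ρ := Nat.cast_div_le
    have hu2 : ρ < u + 1 := by
      rw [hρ, div_lt_iff₀ ha]
      have := Nat.lt_div_mul_add (a := s (n + 1)) (hs n hn1)
      have h3 : s (n + 1) < (u + 1) * s n := by rw [add_mul, one_mul]; exact this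
      exact_mod_cast h3
    have hlo : n * c ≤ Real.log ρ := by rw [hlρ]; nlinarith
    have hhi : Real.log ρ ≤ c * (2 * n + 1) + 2 * C := by rw [hlρ]; nlinarith
    have hlo' : c * (2 * n + 1) - 2 * C ≤ Real.log ρ := by rw [hlρ]; nlinarith
    have hnc : 0 ≤ n * c := by positivity
    have hρ1 : 1 ≤ ρ := by
      have := Real.add_one_le_exp (Real.log ρ)
      rw [Real.exp_log hρ0] at this
      linarith
    have hρ2 : (n * c) ^ 2 / 2 ≤ ρ := by
      have h3 := Real.quadratic_le_exp_of_nonneg hnc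
      have h4 : Real.exp (n * c) ≤ ρ := by
        rw [← Real.exp_log hρ0]; exact Real.exp_le_exp.2 hlo
      linarith
    have hm0 : (0 : ℝ) ≤ m := by positivity
    -- first inequality
    have e1 : (m : ℝ) * (c * (2 * n + 1) - 2 * C) ≤ c * (n : ℝ) ^ 2 + C := by
      have h3 : ((u : ℝ) + 2) ^ m ≤ s n := by exact_mod_cast hm1
      have h4 := Real.log_le_log (by positivity) h3
      rw [Real.log_pow] at h4
      have h5 : Real.log ρ ≤ Real.log ((u : ℝ) + 2) := Real.log_le_log hρ0 (by linarith)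
      have h6 := mul_le_mul_of_nonneg_left (hlo'.trans h5) hm0
      linarith
    have e2 : c * (n : ℝ) ^ 2 - C < ((m : ℝ) + 1) * (Real.log 6 + c * (2 * n + 1) + 2 * C) := by
      have h3 : (s n : ℝ) < (2 * ((u : ℝ) + 2)) ^ (m + 1) := by exact_mod_cast hm2
      have h4 := Real.log_lt_log ha h3
      rw [Real.log_pow] at h4
      push_cast at h4
      have h5 : Real.log (2 * ((u : ℝ) + 2)) ≤ Real.log (6 * ρ) :=
        Real.log_le_log (by positivity) (by linarith)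
      rw [Real.log_mul (by norm_num) hρ0.ne'] at h5
      have h6 := mul_le_mul_of_nonneg_left
        (show Real.log (2 * ((u : ℝ) + 2)) ≤ Real.log 6 + c * (2 * n + 1) + 2 * C by linarith)
        (by positivity : (0 : ℝ) ≤ (m : ℝ) + 1)
      linarith
    have hK0 : (0 : ℝ) ≤ K := by positivity
    have f1 : 2 * m ≤ n + K := by
      by_contra hcon
      have h3 : (n : ℝ) + K < 2 * m := by exact_mod_cast not_le.1 hcon
      have h4 : n * c ≤ c * (2 * n + 1) - 2 * C := by nlinarith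
      have h5 := mul_le_mul_of_nonneg_right h3.le (hnc.trans h4)
      have h6 := mul_le_mul_of_nonneg_left h4 hK0
      have h7 := mul_le_mul_of_nonneg_left hK' (by positivity : (0 : ℝ) ≤ n)
      have h8 := mul_nonneg hC (sub_nonneg.2 hn1')
      have h9 : 0 < (n : ℝ) * Real.log 6 := by positivity
      nlinarith
    have f2 : n ≤ 2 * (m + 1) + K := by
      by_contra hcon
      have h3 : 2 * ((m : ℝ) + 1) + K < n := by exact_mod_cast not_le.1 hcon
      have h4 : 0 ≤ Real.log 6 + c * (2 * n + 1) + 2 * C := by positivity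
      have h5 := mul_le_mul_of_nonneg_right
        (show 2 * ((m : ℝ) + 1) ≤ n - K by linarith) h4
      have h6 : 0 ≤ (K : ℝ) * (Real.log 6 + c + 2 * C) := by positivity
      have h7 := mul_le_mul_of_nonneg_left hK' (by positivity : (0 : ℝ) ≤ n)
      have h8 := mul_nonneg hC (sub_nonneg.2 hn1')
      have h9 : 0 ≤ (K : ℝ) * (n * c) := by positivity
      nlinarith
    refine ⟨?_, by omega, by omega⟩
    have h3 : ((K : ℝ) + 4) * n ≤ ρ := by
      have := mul_le_mul_of_nonneg_left h2 (by positivity : (0 : ℝ) ≤ n)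
      nlinarith
    have h4 : ((K : ℝ) + 4) * n < u + 1 := h3.trans_lt hu2
    have h5 : (K + 4) * n < u + 1 := by exact_mod_cast h4
    have h6 : K * 1 ≤ K * n := Nat.mul_le_mul_left _ hn1
    rw [add_mul] at h5
    omega

/-- `grow1`, `exists_plog`, `grow_est` with `F a b = plog (b / a) a` and `n₀ = max n₁ n₂ + 1`. -/
theorem grow2 : ∃ (s : ℕ → ℕ) (n₀ C₁ D : ℕ) (F : ℕ → ℕ → ℕ), SFn2 F ∧
    (SF2 fun a b => ∃ n, n₀ ≤ n ∧ a = s n ∧ b = s (n + 1)) ∧
    (∀ m n, n₀ ≤ m → m < n → s m < s n) ∧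
    ∀ n, n₀ ≤ n → n ≤ 2 * F (s n) (s (n + 1)) + C₁ ∧ 2 * F (s n) (s (n + 1)) ≤ n + C₁ ∧
      2 ^ n ≤ s n ∧ s n ≤ 2 ^ (D * n ^ 2) := by
  obtain ⟨s, c, C, n₁, hc, hs, hl, hmono, hSF⟩ := grow1
  obtain ⟨n₂, C₁, D, hest⟩ := grow_est s c C hc hs hl
  obtain ⟨P, hP, hP'⟩ := exists_plog
  refine ⟨s, max n₁ n₂ + 1, C₁, D, fun a b => P (b / a) a,
    fun _ f g hf hg => hP (hg.div hf) hf, hSF _ (by omega),
    fun m n hm hmn => hmono m n (by omega) hmn, fun n hn => ?_⟩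
  obtain ⟨e1, e2, e3⟩ := hest n (by omega)
  obtain ⟨m, hm, hm1, hm2⟩ := hP' (s (n + 1) / s n) (s n) (hs n (by omega))
  obtain ⟨f1, f2, f3⟩ := e3 m hm1 hm2
  rw [Nat.mod_eq_of_lt (by omega)] at hm
  simp only [hm]
  exact ⟨f2, f3, e1, e2⟩

end Crest.Agent.R323
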