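import Crest.Agent.R323.Grow2

/-!
# Row 323: a single-fold function between `2^k` and `2^(D (k+1)²)`
-/

set_option autoImplicit false

namespace Crest.Agent.R323

/-- `Ch N F K k a`: starting from `a`, the next `K` steps of the relation `N` all have `F > k`. -/
def Ch (N : ℕ → ℕ → Prop) (F : ℕ → ℕ → ℕ) : ℕ → ℕ → ℕ → Prop
  | 0, _, _ => True
  | K + 1, k, a => ∃ b, N a b ∧ k < F a b ∧ Ch N F K k b

/-- Induction on `K` (`SF2.mk`, `SF.ex`, `sf [hN, hF, ih]`). -/
theorem sf_ch {N : ℕ → ℕ → Prop} {F : ℕ → ℕ → ℕ} (hN : SF2 N) (hF : SFn2 F)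
    (hu : ∀ a b b', N a b → N a b' → b = b') (K : ℕ) : SF2 (Ch N F K) := by
  induction K with
  | zero => exact fun _ _ _ _ _ => SF.true
  | succ K ih =>
    refine SF2.mk (SF.ex (q := fun b v => N (v 1) b ∧ v 0 < F (v 1) b ∧ Ch N F K (v 0) b) ?_ ?_)
    · sf [hN, hF, ih]
    · rintro v b b' ⟨e, -⟩ ⟨e', -⟩
      exact hu _ _ _ e e'

/-- From `grow2`, with `φ n = F (s n) (s (n+1))`, `K = 2 C₁ + 1` (so `φ j ≤ φ (j + K)` for `j ≥ n₀`),
`L = φ n₀ + C₁`.  Let `ν k` be the largest `n ≥ n₀` with `φ n ≤ k + L` (it exists: `n ≤ 2 φ n + C₁`;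
`Nat.findGreatest`), `g k = s (ν k)`.  Then `z = g k ↔ ∃ b, N z b ∧ F z b ≤ k + L ∧ Ch N F K (k + L) b`:
`Ch N F K k (s j) ↔ ∀ i < K, k < φ (j + i)` for `j ≥ n₀`, and `k < φ (j + i)` for all `i < K` gives it for all
`i`.  Bounds: `φ (ν+1) > k + L` gives `ν ≥ k`; `ν ≤ 2 (k + L) + C₁ ≤ (2 + 2L + C₁) (k + 1)`. -/
theorem exists_g : ∃ (g : ℕ → ℕ) (D : ℕ), SFn1 g ∧
    ∀ k, 2 ^ k ≤ g k ∧ g k ≤ 2 ^ (D * (k + 1) ^ 2) := by
  classical
  obtain ⟨s, n₀, C₁, D, F, hF, hN, hmono, hb⟩ := grow2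
  set N : ℕ → ℕ → Prop := fun a b => ∃ n, n₀ ≤ n ∧ a = s n ∧ b = s (n + 1) with hNdef
  let φ : ℕ → ℕ := fun n => F (s n) (s (n + 1))
  have hinj : ∀ m n, n₀ ≤ m → n₀ ≤ n → s m = s n → m = n := by
    intro m n hm hn h
    rcases lt_trichotomy m n with h' | h' | h'
    · exact absurd h (hmono m n hm h').ne
    · exact h'
    · exact absurd h.symm (hmono n m hn h').ne
  have hNs : ∀ j, n₀ ≤ j → ∀ b, N (s j) b ↔ b = s (j + 1) := by
    intro j hj b
    constructor
    · rintro ⟨n, hn, e, rfl⟩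
      rw [hinj _ _ hj hn e]
    · rintro rfl
      exact ⟨j, hj, rfl, rfl⟩
  have hu : ∀ a b b', N a b → N a b' → b = b' := by
    rintro a b b' ⟨n, hn, rfl, rfl⟩ h'
    exact ((hNs n hn _).1 h').symm
  have hch : ∀ K k j, n₀ ≤ j → (Ch N F K k (s j) ↔ ∀ i < K, k < φ (j + i)) := by
    intro K k
    induction K with
    | zero => intro j _; simp [Ch]
    | succ K ih =>
      intro j hj
      simp only [Ch]
      constructor
      · rintro ⟨b, e1, e2, e3⟩ i hi
        obtain rfl := (hNs j hj b).1 e1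
        rcases i with _ | i
        · exact e2
        · have := (ih (j + 1) (by omega)).1 e3 i (by omega)
          rwa [show j + 1 + i = j + (i + 1) by ring] at this
      · intro H
        refine ⟨_, (hNs j hj _).2 rfl, H 0 (by omega), (ih (j + 1) (by omega)).2 fun i hi => ?_⟩
        rw [show j + 1 + i = j + (i + 1) by ring]
        exact H (i + 1) (by omega)
  have hall : ∀ k j, n₀ ≤ j → (∀ i < 2 * C₁ + 1, k < φ (j + i)) → ∀ i, k < φ (j + i) := by
    intro k j hj H i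
    induction i using Nat.strong_induction_on with
    | _ i ih =>
      rcases lt_or_ge i (2 * C₁ + 1) with h | h
      · exact H i h
      · have a1 := ih (i - (2 * C₁ + 1)) (by omega)
        have a2 := (hb (j + (i - (2 * C₁ + 1))) (by omega)).2.1
        have a3 := (hb (j + i) (by omega)).1
        simp only [φ] at a1 ⊢
        omega
  let L := φ n₀ + C₁
  have hex : ∀ k, ∃ n, n₀ ≤ n ∧ φ n ≤ k + L ∧ ∀ i, k + L < φ (n + 1 + i) := by
    intro k
    let P : ℕ → Prop := fun n => n₀ ≤ n ∧ φ n ≤ k + L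
    have hP0 : P n₀ := ⟨le_rfl, by simp only [L]; omega⟩
    have hbd : ∀ n, P n → n ≤ 2 * (k + L) + C₁ := by
      rintro n ⟨h1, h2⟩
      have := (hb n h1).1
      simp only [φ] at h2
      omega
    have h1 : P (Nat.findGreatest P (2 * (k + L) + C₁)) := Nat.findGreatest_spec (hbd _ hP0) hP0
    refine ⟨_, h1.1, h1.2, fun i => ?_⟩
    by_contra hcon
    have hP : P (Nat.findGreatest P (2 * (k + L) + C₁) + 1 + i) :=
      ⟨by have := h1.1; omega, not_lt.1 hcon⟩
    have := Nat.le_findGreatest (hbd _ hP) hP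
    omega
  choose ν h1 h2 h3 using hex
  refine ⟨fun k => s (ν k), D * (2 + 2 * L + C₁) ^ 2, SFn1.mk ?_, fun k => ⟨?_, ?_⟩⟩
  · have hc := sf_ch hN hF hu (2 * C₁ + 1)
    refine SFn.intro (fun z v => ∃ b, N z b ∧ F z b ≤ v 0 + L ∧ Ch N F (2 * C₁ + 1) (v 0 + L) b)
      (SF.ex ?_ ?_) ?_
    · sf [hN, hF, hc]
    · rintro v b b' ⟨e, -⟩ ⟨e', -⟩
      exact hu _ _ _ e e'
    · intro z v
      constructor
      · rintro ⟨b, ⟨n, hn, rfl, rfl⟩, e2, e3⟩
        have a1 := hall _ _ (by omega) ((hch _ _ (n + 1) (by omega)).1 e3)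
        congr 1
        rcases lt_trichotomy n (ν (v 0)) with h | h | h
        · have := a1 (ν (v 0) - (n + 1))
          rw [show n + 1 + (ν (v 0) - (n + 1)) = ν (v 0) by omega] at this
          exact absurd (h2 (v 0)) (not_le.2 this)
        · exact h
        · have := h3 (v 0) (n - (ν (v 0) + 1))
          rw [show ν (v 0) + 1 + (n - (ν (v 0) + 1)) = n by omega] at this
          exact absurd e2 (not_le.2 this)
      · rintro rfl
        exact ⟨_, ⟨_, h1 _, rfl, rfl⟩, h2 _,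
          (hch _ _ _ (by have := h1 (v 0); omega)).2 fun i _ => h3 _ i⟩
  · have a1 := h3 k 0
    have a2 := (hb (ν k + 1) (by have := h1 k; omega)).2.1
    have a3 : k ≤ ν k := by
      simp only [φ, L, add_zero] at a1
      omega
    exact (Nat.pow_le_pow_right (by norm_num) a3).trans (hb _ (h1 k)).2.2.1
  · have a1 := h2 k
    have a2 := (hb (ν k) (h1 k)).1
    have a3 : ν k ≤ (2 + 2 * L + C₁) * (k + 1) := by
      simp only [φ] at a1
      nlinarith [Nat.zero_le (L * k), Nat.zero_le (C₁ * k)]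
    refine (hb _ (h1 k)).2.2.2.trans (Nat.pow_le_pow_right (by norm_num) ?_)
    rw [mul_assoc, ← mul_pow]
    exact Nat.mul_le_mul_left _ (Nat.pow_le_pow_left a3 2)

end Crest.Agent.R323
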