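import Crest.Agent.R323.Land

/-!
# Row 323: repunits, spreading digits, and the digitwise product are single-fold
-/

set_option autoImplicit false

namespace Crest.Agent.R323

theorem rep_eq (U x : ℕ) : rep U x =
    if U = 0 then 1 - (1 - x) else if U - 1 = 0 then x else (U ^ x - 1) / (U - 1) := by
  split_ifs with h1 h2
  · subst h1
    rcases x with _ | x
    · simp [rep]
    · rw [rep, ev_succ']
      simp
  · obtain rfl : U = 1 := by omega
    rw [rep, ev_one]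
    simp
  · rw [← rep_mul (U := U) (x := x) (by omega), Nat.add_sub_cancel,
      Nat.mul_div_cancel_left _ (Nat.pos_of_ne_zero h2)]

/-- `rep U x = if U = 0 then 1 - (1 - x) else if U - 1 = 0 then x else (U^x - 1)/(U - 1)` (`rep_mul`). -/
theorem SFn.rep {α : Type} {f g : (α → ℕ) → ℕ} (hf : SFn f) (hg : SFn g) :
    SFn fun v => rep (f v) (g v) := by
  refine SFn.congr ?_ fun v => (rep_eq (f v) (g v)).symm
  sf

macro_rules
  | `(tactic| sf_step) => `(tactic| with_reducible apply SFn.rep)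

/-- The first `x` base-`2^k` digits of `A`, rewritten in base `2^(k x + k + 1 + j)`. -/
def spr (k x j A : ℕ) : ℕ := ev (2 ^ (k * x + k + 1 + j)) x fun y => A / (2 ^ k) ^ y % 2 ^ k

theorem ev_mod_sub {k e x : ℕ} {d : ℕ → ℕ} (hd : ∀ y < x, d y < 2 ^ k) (he : k * x + k + 1 ≤ e) :
    ev (2 ^ e) x d % (2 ^ e - 2 ^ k) = ev (2 ^ k) x d := by
  have h1 : (2 ^ k) ^ x + 2 ^ k ≤ 2 ^ e := by
    have a1 : (2 ^ k) ^ x ≤ 2 ^ (k * x + k) := by
      rw [← pow_mul]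
      exact Nat.pow_le_pow_right two_pos (by omega)
    have a2 : 2 ^ k ≤ 2 ^ (k * x + k) := Nat.pow_le_pow_right two_pos (by omega)
    have a3 : 2 ^ (k * x + k + 1) ≤ 2 ^ e := Nat.pow_le_pow_right two_pos he
    rw [pow_succ] at a3
    omega
  have h2 : ev (2 ^ e) x d ≡ ev (2 ^ k) x d [MOD 2 ^ e - 2 ^ k] :=
    ev_modEq (le_trans (Nat.le_add_left _ _) h1)
  have h3 := ev_lt hd
  rw [h2, Nat.mod_eq_of_lt (by omega)]

theorem spr_iff (k x j A z : ℕ) :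
    (z &&& ((2 ^ k - 1) * rep (2 ^ (k * x + k + 1 + j)) x) = z ∧
      z % (2 ^ (k * x + k + 1 + j) - 2 ^ k) = A % (2 ^ k) ^ x) ↔ z = spr k x j A := by
  have hdig : ∀ y < x, A / (2 ^ k) ^ y % 2 ^ k < 2 ^ k := fun y _ =>
    Nat.mod_lt _ (Nat.two_pow_pos k)
  rw [mask_iff (by omega), ← ev_digits]
  constructor
  · rintro ⟨⟨d, hd, rfl⟩, h⟩
    rw [ev_mod_sub hd (by omega)] at h
    exact ev_congr (ev_inj hd hdig h)
  · rintro rfl
    exact ⟨⟨_, hdig, rfl⟩, ev_mod_sub hdig (by omega)⟩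

/-- With `Q = 2^k`, `U = 2^(k x + k + 1 + j) ≥ Q^x + Q`:
`z = spr k x j A ↔ z &&& ((Q - 1) * rep U x) = z ∧ z % (U - Q) = A % Q^x`
(`mask_iff`, `ev_modEq`, `ev_lt`, `ev_digits`, `ev_inj`). -/
theorem sfn_spr : SFn4 spr := by
  refine SFn4.mk ?_
  refine SFn.intro (fun z v =>
    z &&& ((2 ^ v 0 - 1) * rep (2 ^ (v 0 * v 1 + v 0 + 1 + v 2)) (v 1)) = z ∧
      z % (2 ^ (v 0 * v 1 + v 0 + 1 + v 2) - 2 ^ v 0) = v 3 % (2 ^ v 0) ^ v 1) ?_
    fun z v => spr_iff _ _ _ _ _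
  sf

theorem spr_ev {k x j : ℕ} {d : ℕ → ℕ} (hd : ∀ y < x, d y < 2 ^ k) :
    spr k x j (ev (2 ^ k) x d) = ev (2 ^ (k * x + k + 1 + j)) x d :=
  ev_congr fun _ hy => ev_dig hd hy

/-- With `k' = k x + k + 1 + k`, `U = 2^k'`:
`H k x A B = ((spr k x k A * spr k x (k' x - (k x + k + 1)) B) &&& ((U - 1) * rep (2^(k' (x+1))) x))
  % (2^(k' (x+1)) - 2^k)` (`ev_dig`, `land_diag`, `ev_modEq`, `ev_lt`; the case `x = 0` is trivial). -/
theorem exists_had : ∃ H : ℕ → ℕ → ℕ → ℕ → ℕ, SFn4 H ∧ ∀ (k x : ℕ) (d d' : ℕ → ℕ),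
    (∀ y < x, d y < 2 ^ k) → (∀ y < x, d' y < 2 ^ k) → (∀ y < x, d y * d' y < 2 ^ k) →
      H k x (ev (2 ^ k) x d) (ev (2 ^ k) x d') = ev (2 ^ k) x fun y => d y * d' y := by
  refine ⟨fun k x A B => ((spr k x k A * spr k x ((k * x + k + 1 + k) * x - (k * x + k + 1)) B) &&&
    ((2 ^ (k * x + k + 1 + k) - 1) * rep (2 ^ ((k * x + k + 1 + k) * (x + 1))) x)) %
      (2 ^ ((k * x + k + 1 + k) * (x + 1)) - 2 ^ k), ?_, ?_⟩
  · refine SFn4.mk ?_
    sf [sfn_spr]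
  · intro k x d d' hd hd' hdd
    beta_reduce
    rw [spr_ev hd, spr_ev hd']
    rcases Nat.eq_zero_or_pos x with rfl | hx
    · simp
    have e1 : k * x + k + 1 ≤ (k * x + k + 1 + k) * x :=
      le_trans (Nat.le_add_right _ k) (Nat.le_mul_of_pos_right _ hx)
    rw [Nat.add_sub_cancel' e1, land_diag, ev_mod_sub hdd]
    · exact le_trans (Nat.le_add_right _ k) (Nat.le_mul_of_pos_right _ (Nat.succ_pos x))
    · intro y hy z hz
      calc d y * d' z < 2 ^ k * 2 ^ k := Nat.mul_lt_mul'' (hd y hy) (hd' z hz)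
        _ = 2 ^ (k + k) := by rw [pow_add]
        _ ≤ _ := Nat.pow_le_pow_right two_pos (by omega)

end Crest.Agent.R323
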