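import Crest.Agent.R323.Pow
import Crest.Agent.R323.Dig

/-!
# Row 323: binomial coefficients and bitwise `and` are single-fold
-/

set_option autoImplicit false

namespace Crest.Agent.R323

/-- With `u = 2^(n+1)`: `(u+1)^n = ev u (n+1) (choose n ·)` (`add_pow`), digits `≤ 2^n < u`; `ev_dig` for
`k ≤ n`, `ev_lt` for `k > n`. -/
theorem choose_eq (n k : ℕ) :
    n.choose k = (2 ^ (n + 1) + 1) ^ n / (2 ^ (n + 1)) ^ k % 2 ^ (n + 1) := by
  have h1 : (2 ^ (n + 1) + 1) ^ n = ev (2 ^ (n + 1)) (n + 1) n.choose := by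
    rw [add_pow, ev]
    refine Finset.sum_congr rfl fun m _ => ?_
    simp [mul_comm]
  have h2 : ∀ y < n + 1, n.choose y < 2 ^ (n + 1) := fun y _ =>
    (Nat.choose_le_two_pow n y).trans_lt (Nat.pow_lt_pow_right one_lt_two (Nat.lt_succ_self n))
  rw [h1]
  rcases Nat.lt_or_ge k (n + 1) with hk | hk
  · exact (ev_dig h2 hk).symm
  · have h3 := (ev_lt h2).trans_le (Nat.pow_le_pow_right (Nat.two_pow_pos (n + 1)) hk)
    rw [Nat.div_eq_of_lt h3, Nat.choose_eq_zero_of_lt hk, Nat.zero_mod]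

theorem sfn_choose : SFn2 Nat.choose := by
  refine SFn2.mk ?_
  refine SFn.congr ?_ fun v => (choose_eq (v 0) (v 1)).symm
  sf

theorem land_rec (a b : ℕ) : a &&& b = 2 * (a / 2 &&& b / 2) + a % 2 * (b % 2) := by
  have h1 : (a &&& b) / 2 = a / 2 &&& b / 2 := Nat.and_div_two
  have h2 : (a &&& b) % 2 = 1 ↔ a % 2 = 1 ∧ b % 2 = 1 := Nat.and_mod_two_eq_one
  rw [← h1]
  generalize a &&& b = c at h2
  rcases Nat.mod_two_eq_zero_or_one a with ha | ha <;>
    rcases Nat.mod_two_eq_zero_or_one b with hb | hb <;>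
    rw [ha, hb] at h2 ⊢ <;> omega

theorem land_zero_iff (a b : ℕ) :
    a &&& b = 0 ↔ a / 2 &&& b / 2 = 0 ∧ (a % 2 = 0 ∨ b % 2 = 0) := by
  rw [land_rec a b]
  generalize a / 2 &&& b / 2 = c
  rcases Nat.mod_two_eq_zero_or_one a with ha | ha <;>
    rcases Nat.mod_two_eq_zero_or_one b with hb | hb <;>
    rw [ha, hb] <;> omega

/-- Lucas/Kummer, by strong induction with `Choose.choose_modEq_choose_mod_mul_choose_div_nat` (`p = 2`). -/
theorem choose_odd_iff (u v : ℕ) : (u + v).choose u % 2 = 1 ↔ u &&& v = 0 := by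
  induction u using Nat.strong_induction_on generalizing v with
  | _ u ih =>
    rcases Nat.eq_zero_or_pos u with rfl | hu
    · simp
    have h1 : (u + v).choose u ≡ _ [MOD 2] :=
      Choose.choose_modEq_choose_mod_mul_choose_div_nat (n := u + v) (k := u) (p := 2)
    rw [h1, land_zero_iff, ← ih (u / 2) (by omega)]
    rcases Nat.mod_two_eq_zero_or_one u with ha | ha <;>
      rcases Nat.mod_two_eq_zero_or_one v with hb | hb
    · rw [show (u + v) % 2 = 0 by omega, show (u + v) / 2 = u / 2 + v / 2 by omega, ha]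
      simp
    · rw [show (u + v) % 2 = 1 by omega, show (u + v) / 2 = u / 2 + v / 2 by omega, ha]
      simp
    · rw [show (u + v) % 2 = 1 by omega, show (u + v) / 2 = u / 2 + v / 2 by omega, ha, hb]
      simp
    · rw [show (u + v) % 2 = 0 by omega, ha, hb]
      simp

/-- Strong induction, halving all five numbers (`land_rec`, `omega`). -/
theorem land_char (a b c : ℕ) : c = a &&& b ↔
    c ≤ a ∧ c ≤ b ∧ c &&& (a - c) = 0 ∧ c &&& (b - c) = 0 ∧ (a - c) &&& (b - c) = 0 := by
  induction a using Nat.strong_induction_on generalizing b c with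
  | _ a ih =>
    rcases Nat.eq_zero_or_pos a with rfl | ha
    · constructor
      · intro h
        rw [Nat.zero_and] at h
        subst h
        simp
      · rintro ⟨h, -⟩
        rw [Nat.zero_and]
        omega
    have ih' := ih (a / 2) (by omega) (b / 2) (c / 2)
    rw [land_zero_iff c (a - c), land_zero_iff c (b - c), land_zero_iff (a - c) (b - c),
      land_rec a b]
    constructor
    · intro h
      have e1 : c / 2 = a / 2 &&& b / 2 := by
        rcases Nat.mod_two_eq_zero_or_one a with h1 | h1 <;>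
          rcases Nat.mod_two_eq_zero_or_one b with h2 | h2 <;> rw [h1, h2] at h <;> omega
      have e2 : c % 2 ≤ a % 2 ∧ c % 2 ≤ b % 2 ∧ a % 2 + b % 2 ≤ c % 2 + 1 := by
        rcases Nat.mod_two_eq_zero_or_one a with h1 | h1 <;>
          rcases Nat.mod_two_eq_zero_or_one b with h2 | h2 <;> rw [h1, h2] at h <;> omega
      obtain ⟨f1, f2, f3, f4, f5⟩ := ih'.1 e1
      rw [show (a - c) / 2 = a / 2 - c / 2 by omega, show (b - c) / 2 = b / 2 - c / 2 by omega]
      exact ⟨by omega, by omega, ⟨f3, by omega⟩, ⟨f4, by omega⟩, f5, by omega⟩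
    · rintro ⟨f1, f2, ⟨f3, g3⟩, ⟨f4, g4⟩, f5, g5⟩
      rw [show (a - c) / 2 = a / 2 - c / 2 by omega] at f3 f5
      rw [show (b - c) / 2 = b / 2 - c / 2 by omega] at f4 f5
      rw [← ih'.2 ⟨by omega, by omega, f3, f4, f5⟩]
      rcases Nat.mod_two_eq_zero_or_one a with h1 | h1 <;>
        rcases Nat.mod_two_eq_zero_or_one b with h2 | h2 <;> rw [h1, h2] <;> omega

theorem SFn.land {α : Type} {f g : (α → ℕ) → ℕ} (hf : SFn f) (hg : SFn g) :
    SFn fun v => f v &&& g v := by
  refine SFn2.mk (F := (· &&& ·)) ?_ hf hg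
  refine SFn.intro (fun z v => z ≤ v 0 ∧ z ≤ v 1 ∧ (z + (v 0 - z)).choose z % 2 = 1 ∧
    (z + (v 1 - z)).choose z % 2 = 1 ∧ ((v 0 - z) + (v 1 - z)).choose (v 0 - z) % 2 = 1) ?_ ?_
  · sf [sfn_choose]
  · intro z v
    rw [choose_odd_iff, choose_odd_iff, choose_odd_iff, ← land_char]

macro_rules
  | `(tactic| sf_step) => `(tactic| with_reducible apply SFn.land)

end Crest.Agent.R323
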