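import Crest.Agent.R323.Grow3

/-!
# Row 323: exponentiation is single-fold
-/

set_option autoImplicit false

namespace Crest.Agent.R323

open Pell

/-- The left side is at most `D (4D+5)² M⁶` for `M ≥ 1`; `tendsto_pow_const_div_const_pow_of_one_lt`. -/
theorem poly_le_two_pow (D : ℕ) :
    ∃ M₀, ∀ M, M₀ ≤ M → D * (M * (D * (M + 1) ^ 2 + 3) + 2) ^ 2 ≤ 2 ^ M := by
  set E : ℕ := D * (4 * D + 5) ^ 2 with hE
  have h := tendsto_pow_const_div_const_pow_of_one_lt 6 (r := 2) one_lt_two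
  have hpos : (0 : ℝ) < 1 / (E + 1) := by positivity
  obtain ⟨N, hN⟩ := Filter.eventually_atTop.1 (h.eventually (gt_mem_nhds hpos))
  refine ⟨N + 1, fun M hM => ?_⟩
  have h1 := hN M (by omega)
  rw [div_lt_div_iff₀ (by positivity) (by positivity), one_mul] at h1
  have h2 : M ^ 6 * (E + 1) < 2 ^ M := by exact_mod_cast h1
  have hM1 : 1 ≤ M := by omega
  have h3 : (M + 1) ^ 2 ≤ 4 * M ^ 2 := by nlinarith
  have h4 : 1 ≤ M ^ 2 := Nat.one_le_pow _ _ hM1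
  have h5 : D * (M + 1) ^ 2 + 3 ≤ (4 * D + 3) * M ^ 2 := by
    have := Nat.mul_le_mul_left D h3
    nlinarith
  have h6 : 1 ≤ M ^ 3 := Nat.one_le_pow _ _ hM1
  have h7 : M * (D * (M + 1) ^ 2 + 3) + 2 ≤ (4 * D + 5) * M ^ 3 := by
    have := Nat.mul_le_mul_left M h5
    have e : M * ((4 * D + 3) * M ^ 2) = (4 * D + 3) * M ^ 3 := by ring
    nlinarith
  calc D * (M * (D * (M + 1) ^ 2 + 3) + 2) ^ 2 ≤ D * ((4 * D + 5) * M ^ 3) ^ 2 :=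
        Nat.mul_le_mul_left D (Nat.pow_le_pow_left h7 2)
    _ = M ^ 6 * E := by rw [hE]; ring
    _ ≤ M ^ 6 * (E + 1) := Nat.mul_le_mul_left _ (Nat.le_succ _)
    _ ≤ 2 ^ M := h2.le

theorem pell_unique {a k Z : ℕ} (a1 : 1 < a) (hk : k < a - 1) (h1 : yn a1 k < Z)
    (h2 : Z ≤ yn a1 (a - 1)) (x y : ℕ) :
    (x ^ 2 + y ^ 2 = a ^ 2 * y ^ 2 + 1 ∧ y < Z ∧ y % (a - 1) = k) ↔ x = xn a1 k ∧ y = yn a1 k := by
  rw [pell_iff a1]
  constructor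
  · rintro ⟨⟨n, rfl, rfl⟩, e1, e2⟩
    have hn : n < a - 1 := (strictMono_y a1).lt_iff_lt.1 (e1.trans_le h2)
    have := yn_modEq_a_sub_one a1 n
    rw [Nat.ModEq, e2, Nat.mod_eq_of_lt hn] at this
    subst this
    exact ⟨rfl, rfl⟩
  · rintro ⟨rfl, rfl⟩
    refine ⟨⟨k, rfl, rfl⟩, h1, ?_⟩
    have := yn_modEq_a_sub_one a1 k
    rwa [Nat.ModEq, Nat.mod_eq_of_lt hk] at this

theorem pow_char {a B k t : ℕ} (a1 : 1 < a) (hB : B ≤ a) (ht : t + B * B + 1 = 2 * a * B)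
    (h : B ^ k < t) (z : ℕ) :
    (z < t ∧ (yn a1 k * (a - B) + z) % t = xn a1 k % t) ↔ z = B ^ k := by
  have key : yn a1 k * (a - B) + B ^ k ≡ xn a1 k [MOD t] := by
    have h1 := x_sub_y_dvd_pow a1 B k
    have h2 : (2 * a * B - B * B - 1 : ℤ) = t := by
      have := congrArg (Nat.cast : ℕ → ℤ) ht
      push_cast at this
      linarith
    rw [h2] at h1
    refine (Nat.modEq_iff_dvd.2 ?_).symm
    push_cast [Nat.cast_sub hB]
    simpa [xz, yz] using h1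
  constructor
  · rintro ⟨e1, e2⟩
    have : yn a1 k * (a - B) + z ≡ yn a1 k * (a - B) + B ^ k [MOD t] :=
      Nat.ModEq.trans e2 key.symm
    exact Nat.ModEq.eq_of_lt_of_lt (Nat.ModEq.add_left_cancel' _ this) e1 h
  · rintro rfl
    exact ⟨h, key⟩

/-- The numeric facts behind `sfn_succ_pow`. -/
theorem pow_facts {g : ℕ → ℕ} {D M₀ : ℕ} (hb : ∀ k, 2 ^ k ≤ g k ∧ g k ≤ 2 ^ (D * (k + 1) ^ 2))
    (hM₀ : ∀ M, M₀ ≤ M → D * (M * (D * (M + 1) ^ 2 + 3) + 2) ^ 2 ≤ 2 ^ M) (b k M a : ℕ)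
    (hM : M = (b + 2) * (k + 1) + M₀) (ha : a = g M + 2) (a1 : 1 < a) :
    k < a - 1 ∧ yn a1 k < g (k * (D * (M + 1) ^ 2 + 3) + 1) ∧
      g (k * (D * (M + 1) ^ 2 + 3) + 1) ≤ yn a1 (a - 1) ∧ b + 1 ≤ a ∧
      (2 * a * (b + 1) - (b + 1) * (b + 1) - 1) + (b + 1) * (b + 1) + 1 = 2 * a * (b + 1) ∧
      (b + 1) ^ k < 2 * a * (b + 1) - (b + 1) * (b + 1) - 1 := by
  have hkM : k < M := by rw [hM]; nlinarith
  have hbM : b + 1 < M := by rw [hM]; nlinarith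
  have hbkM : (b + 1) * k < M := by rw [hM]; nlinarith
  have h2M : M < 2 ^ M := Nat.lt_two_pow_self
  have hg1 := (hb M).1
  have hg2 := (hb M).2
  have hBk : (b + 1) ^ k < a := by
    calc (b + 1) ^ k ≤ (2 ^ (b + 1)) ^ k := Nat.pow_le_pow_left Nat.lt_two_pow_self.le k
      _ = 2 ^ ((b + 1) * k) := by rw [← pow_mul]
      _ ≤ 2 ^ M := Nat.pow_le_pow_right two_pos hbkM.le
      _ < a := by omega
  have hBa : b + 2 ≤ a := by omega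
  have ht : a + (b + 1) * (b + 1) + 1 ≤ 2 * a * (b + 1) := by nlinarith
  refine ⟨by omega, ?_, ?_, by omega, by omega, by omega⟩
  · have e1 : 2 * a ≤ 2 ^ (D * (M + 1) ^ 2 + 3) := by
      have : 1 ≤ 2 ^ (D * (M + 1) ^ 2) := Nat.one_le_two_pow
      rw [pow_add]
      omega
    calc yn a1 k < yn a1 (k + 1) := strictMono_y a1 (Nat.lt_succ_self k)
      _ ≤ (2 * a) ^ k := yn_upper a1 k
      _ ≤ (2 ^ (D * (M + 1) ^ 2 + 3)) ^ k := Nat.pow_le_pow_left e1 k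
      _ = 2 ^ (k * (D * (M + 1) ^ 2 + 3)) := by rw [← pow_mul, mul_comm]
      _ ≤ 2 ^ (k * (D * (M + 1) ^ 2 + 3) + 1) := Nat.pow_le_pow_right two_pos (Nat.le_succ _)
      _ ≤ _ := (hb _).1
  · have e1 : D * (k * (D * (M + 1) ^ 2 + 3) + 1 + 1) ^ 2 ≤ a - 2 := by
      have := hM₀ M (by omega)
      have e2 : k * (D * (M + 1) ^ 2 + 3) + 1 + 1 ≤ M * (D * (M + 1) ^ 2 + 3) + 2 := by
        have := Nat.mul_le_mul_right (D * (M + 1) ^ 2 + 3) hkM.le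
        omega
      have := Nat.mul_le_mul_left D (Nat.pow_le_pow_left e2 2)
      omega
    have e3 : a - 1 = (a - 2) + 1 := by omega
    calc g (k * (D * (M + 1) ^ 2 + 3) + 1) ≤ _ := (hb _).2
      _ ≤ 2 ^ (a - 2) := Nat.pow_le_pow_right two_pos e1
      _ ≤ a ^ (a - 2) := Nat.pow_le_pow_left a1 _
      _ ≤ yn a1 (a - 2 + 1) := yn_lower a1 _
      _ = yn a1 (a - 1) := by rw [e3]

/-- Take `g, D` from `exists_g`, `M₀` from `poly_le_two_pow`.  For `B = b + 1` put `M = (B+1)(k+1) + M₀`,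
`a = g M + 2`, `M' = k (D (M+1)² + 3) + 1`, `Z = g M'`, `t = 2 a B - B² - 1`.  Then `B^k < 2^M < a ≤ t`,
`k < a - 1`, `y_k ≤ (2a)^k < 2^M' ≤ Z` (`yn_upper`) and
`Z ≤ 2^(D (M'+1)²) ≤ 2^(2^M) ≤ 2^(a-2) ≤ y_(k+a-1)` (`yn_lower`).  So `(x_k, y_k)` is the only solution of
`x² + y² = a² y² + 1`, `y < Z`, `y % (a-1) = k` (`pell_iff`, `yn_modEq_a_sub_one`, `strictMono_y`), and
`z = B^k ↔ ∃ x y, (those) ∧ z < t ∧ (y (a - B) + z) % t = x % t` by `Pell.x_sub_y_dvd_pow`. -/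
theorem sfn_succ_pow : SFn2 fun b k => (b + 1) ^ k := by
  obtain ⟨g, D, hg, hb⟩ := exists_g
  obtain ⟨M₀, hM₀⟩ := poly_le_two_pow D
  obtain ⟨A, hA⟩ : ∃ A : ℕ → ℕ → ℕ, ∀ b k, A b k = g ((b + 2) * (k + 1) + M₀) + 2 := ⟨_, fun _ _ => rfl⟩
  obtain ⟨Z, hZ⟩ : ∃ Z : ℕ → ℕ → ℕ, ∀ b k,
      Z b k = g (k * (D * ((b + 2) * (k + 1) + M₀ + 1) ^ 2 + 3) + 1) := ⟨_, fun _ _ => rfl⟩
  obtain ⟨T, hT⟩ : ∃ T : ℕ → ℕ → ℕ, ∀ b k,
      T b k = 2 * A b k * (b + 1) - (b + 1) * (b + 1) - 1 := ⟨_, fun _ _ => rfl⟩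
  have sA : SFn2 A := by
    refine SFn2.mk ?_
    simp only [hA]
    sf [hg]
  have sZ : SFn2 Z := by
    refine SFn2.mk ?_
    simp only [hZ]
    sf [hg]
  have sT : SFn2 T := by
    refine SFn2.mk ?_
    simp only [hT]
    sf [sA]
  have a1 : ∀ b k, 1 < A b k := fun b k => by rw [hA]; omega
  have hu : ∀ b k x y, (x ^ 2 + y ^ 2 = A b k ^ 2 * y ^ 2 + 1 ∧ y < Z b k ∧ y % (A b k - 1) = k) ↔
      x = xn (a1 b k) k ∧ y = yn (a1 b k) k := by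
    intro b k x y
    obtain ⟨f1, f2, f3, -⟩ := pow_facts hb hM₀ b k _ _ rfl (hA b k) (a1 b k)
    exact pell_unique _ f1 (by rw [hZ]; exact f2) (by rw [hZ]; exact f3) x y
  have hp : ∀ b k z, (z < T b k ∧ (yn (a1 b k) k * (A b k - (b + 1)) + z) % T b k
      = xn (a1 b k) k % T b k) ↔ z = (b + 1) ^ k := by
    intro b k z
    obtain ⟨-, -, -, f1, f2, f3⟩ := pow_facts hb hM₀ b k _ _ rfl (hA b k) (a1 b k)
    exact pow_char _ f1 (by rw [hT]; exact f2) (by rw [hT]; exact f3) z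
  refine SFn2.mk ?_
  refine SFn.intro (fun z v => ∃ x y, (x ^ 2 + y ^ 2 = A (v 0) (v 1) ^ 2 * y ^ 2 + 1 ∧
    y < Z (v 0) (v 1) ∧ y % (A (v 0) (v 1) - 1) = v 1) ∧ z < T (v 0) (v 1) ∧
      (y * (A (v 0) (v 1) - (v 0 + 1)) + z) % T (v 0) (v 1) = x % T (v 0) (v 1))
    (SF.ex2 (q := fun x y v => (x ^ 2 + y ^ 2 = A (v (some 0)) (v (some 1)) ^ 2 * y ^ 2 + 1 ∧
      y < Z (v (some 0)) (v (some 1)) ∧ y % (A (v (some 0)) (v (some 1)) - 1) = v (some 1)) ∧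
      v none < T (v (some 0)) (v (some 1)) ∧
      (y * (A (v (some 0)) (v (some 1)) - (v (some 0) + 1)) + v none) % T (v (some 0)) (v (some 1))
        = x % T (v (some 0)) (v (some 1))) ?_ ?_) ?_
  · sf [sA, sZ, sT]
  · rintro v x y x' y' ⟨e1, -⟩ ⟨e2, -⟩
    obtain ⟨rfl, rfl⟩ := (hu _ _ _ _).1 e1
    obtain ⟨rfl, rfl⟩ := (hu _ _ _ _).1 e2
    exact ⟨rfl, rfl⟩
  · intro z v
    rw [← hp]
    constructor
    · rintro ⟨x, y, e1, e2⟩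
      obtain ⟨rfl, rfl⟩ := (hu _ _ _ _).1 e1
      exact e2
    · exact fun h => ⟨_, _, (hu _ _ _ _).2 ⟨rfl, rfl⟩, h⟩

/-- `b^k = if b = 0 then 1 - k else ((b - 1) + 1)^k`. -/
theorem SFn.pow {α : Type} {f g : (α → ℕ) → ℕ} (hf : SFn f) (hg : SFn g) :
    SFn fun v => f v ^ g v := by
  refine (SFn.ite_zero hf ((SFn.const 1).sub hg) (sfn_succ_pow (hf.sub (SFn.const 1)) hg)).congr
    fun v => ?_
  split_ifs with h
  · rw [h]
    rcases Nat.eq_zero_or_pos (g v) with h' | h'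
    · simp [h']
    · rw [zero_pow h'.ne']
      omega
  · show (f v - 1 + 1) ^ g v = _
    rw [Nat.sub_add_cancel (Nat.pos_of_ne_zero h)]

macro_rules
  | `(tactic| sf_step) => `(tactic| with_reducible_and_instances apply SFn.pow)

end Crest.Agent.R323
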