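import Crest.Agent.R323.BAll

/-!
# Row 323: primitive recursive functions and r.e. predicates are single-fold
-/

set_option autoImplicit false

namespace Crest.Agent.R323

theorem ofFn_cons {n : ℕ} (x : ℕ) (v : Fin n → ℕ) :
    List.Vector.ofFn (Fin.cons x v : Fin (n + 1) → ℕ) = x ::ᵥ List.Vector.ofFn v := by
  apply List.Vector.ext
  intro i
  refine Fin.cases ?_ (fun j => ?_) i <;> simp

/-- Induction on `Nat.Primrec'` (`zero`, `succ`, `get`, `comp` by `SFn.subst`, `prec` by `SFn.prec` with
`b v = v 0`; `List.Vector.head_ofFn`, `List.Vector.tail_ofFn`, `List.Vector.get_ofFn`, `ofFn_get`). -/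
theorem sfn_of_primrec' {n : ℕ} {f : List.Vector ℕ n → ℕ} (hf : Nat.Primrec' f) :
    SFn fun v : Fin n → ℕ => f (List.Vector.ofFn v) := by
  induction hf with
  | zero => exact SFn.const 0
  | succ =>
    exact ((SFn.proj (0 : Fin 1)).add (SFn.const 1)).congr fun v => by simp
  | get i => exact (SFn.proj i).congr fun v => by simp
  | comp g _ _ hf hg => exact hf.subst hg
  | @prec n f g _ _ hf hg =>
    have h1 : SFn fun v : Fin (n + 1) → ℕ => f (List.Vector.ofFn fun i => v i.succ) :=
      hf.reindex Fin.succ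
    have h2 := hg.reindex (α := Option (Option (Fin (n + 1))))
      (Fin.cons (some none) (Fin.cons none fun i => some (some i.succ)))
    have h3 : SFn fun v : Option (Option (Fin (n + 1))) → ℕ =>
        g (v (some none) ::ᵥ v none ::ᵥ List.Vector.ofFn fun i : Fin n => v (some (some i.succ))) := by
      refine h2.congr fun v => ?_
      rw [← ofFn_cons, ← ofFn_cons]
      refine congrArg g (congrArg List.Vector.ofFn ?_)
      funext i
      refine Fin.cases rfl (fun j => ?_) i
      refine Fin.cases rfl (fun k => ?_) j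
      rfl
    refine (SFn.prec (h := fun y ih v => g (y ::ᵥ ih ::ᵥ List.Vector.ofFn fun i : Fin n => v i.succ))
      h1 h3 (SFn.proj 0)).congr fun v => ?_
    simp only [List.Vector.head_ofFn, List.Vector.tail_ofFn]

/-- Primitive recursive functions of `Fin n → ℕ` are single-fold. -/
theorem sfn_of_primrec {n : ℕ} {f : (Fin n → ℕ) → ℕ} (hf : Primrec f) : SFn f := by
  have h1 : Primrec fun w : List.Vector ℕ n => f w.get := hf.comp Primrec.vector_get'
  refine (sfn_of_primrec' (Nat.Primrec'.of_prim h1)).congr fun v => ?_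
  congr 1
  funext i
  simp

/-- `Nat.Partrec.Code.exists_code` gives `c` with `p a ↔ (c.eval (encode a)).Dom`.  Let
`T s a = if (evaln s c (encode a)).isSome then 1 else 0`, primitive recursive on `List.Vector ℕ (n+1)`
(`Nat.Partrec.Code.primrec_evaln`, `Primrec.vector_get'`, `Nat.Primrec'.of_prim`).  Then
`p a ↔ ∃ s, T (s+1) a = 1 ∧ T s a = 0` with unique `s` (`evaln_complete`, `evaln_mono`, `evaln 0 = none`). -/
theorem sf_of_re {n : ℕ} {p : (Fin n → ℕ) → Prop} (hp : REPred p) : SF p := by
  obtain ⟨c, hc⟩ := Nat.Partrec.Code.exists_code.1 hp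
  let E : (Fin n → ℕ) → ℕ := @Encodable.encode _ Primcodable.toEncodable
  have hE : Primrec E := Primrec.encode
  have hdom : ∀ a, p a ↔ ∃ x, x ∈ c.eval (E a) := by
    intro a
    rw [hc]
    simp only [E, Encodable.encodek]
    simp [Part.mem_assert_iff]
  let T : ℕ → (Fin n → ℕ) → ℕ := fun s a =>
    Encodable.encode (Nat.Partrec.Code.evaln s c (E a))
  have hT0 : ∀ s a, T s a = 0 ↔ Nat.Partrec.Code.evaln s c (E a) = none := by
    intro s a
    simp only [T]
    cases Nat.Partrec.Code.evaln s c (E a) <;> simp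
  have hTp : Primrec fun v : Fin (n + 1) → ℕ => T (v 0) fun i => v i.succ := by
    have a1 : Primrec fun v : Fin (n + 1) → ℕ => v 0 :=
      Primrec.fin_app.comp Primrec.id (Primrec.const 0)
    have a2 : Primrec fun v : Fin (n + 1) → ℕ => fun i : Fin n => v i.succ := by
      refine Primrec.fin_curry.2 (Primrec₂.swap (Primrec.fin_curry₁.2 fun i => ?_))
      exact Primrec.fin_app.comp Primrec.id (Primrec.const i.succ)
    exact Primrec.encode.comp (Nat.Partrec.Code.primrec_evaln.comp
      ((a1.pair (Primrec.const c)).pair (hE.comp a2)))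
  have hT := sfn_of_primrec hTp
  have hmono : ∀ s t a, s ≤ t → T s a ≠ 0 → T t a ≠ 0 := by
    intro s t a hst h
    rw [Ne, hT0] at h ⊢
    obtain ⟨x, hx⟩ := Option.ne_none_iff_exists'.1 h
    have := Nat.Partrec.Code.evaln_mono hst hx
    rw [Option.mem_def] at this
    rw [this]
    simp
  have b1 : SFn fun v : Option (Fin n) → ℕ => T (v none) fun i => v (some i) :=
    hT.reindex (α := Option (Fin n)) (Fin.cons none some)
  have b2 : SFn fun v : Option (Fin n) → ℕ => T (v none + 1) fun i => v (some i) :=
    b1.subst (α := Option (Fin n)) (F := fun o v => o.elim (v none + 1) fun i => v (some i)) fun o => by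
      cases o with
      | none => exact (SFn.proj none).add (SFn.const 1)
      | some i => exact SFn.proj _
  refine (SF.ex (q := fun s a => T (s + 1) a ≠ 0 ∧ T s a = 0)
    ((SF.ne b2 (SFn.const 0)).and (SF.eq b1 (SFn.const 0))) ?_).congr fun a => ?_
  · rintro a s t ⟨e1, e2⟩ ⟨e3, e4⟩
    by_contra hne
    rcases Nat.lt_or_gt_of_ne hne with h | h
    · exact hmono _ _ a h e1 e4
    · exact hmono _ _ a h e3 e2
  · rw [hdom]
    constructor
    · rintro ⟨s, e1, -⟩
      rw [Ne, hT0] at e1
      obtain ⟨x, hx⟩ := Option.ne_none_iff_exists'.1 e1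
      exact ⟨x, Nat.Partrec.Code.evaln_sound hx⟩
    · rintro ⟨x, hx⟩
      obtain ⟨k, hk⟩ := Nat.Partrec.Code.evaln_complete.1 hx
      have hk' : T k a ≠ 0 := by
        rw [Ne, hT0, Option.mem_def.1 hk]
        simp
      have h0 : T 0 a = 0 := by
        rw [hT0]
        simp [Nat.Partrec.Code.evaln]
      clear hk
      induction k with
      | zero => exact absurd h0 hk'
      | succ k ih =>
        by_cases h : T k a = 0
        · exact ⟨k, hk', h⟩
        · exact ih h

end Crest.Agent.R323
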