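import Mathlib

/-!
# Row 323: the calculus of single-fold Diophantine predicates and functions

`SF p`: `p a ↔ ∃ w, f (a, w) = g (a, w)` with polynomials `f, g` over `ℕ` and a unique witness `w`.
`SFn f`: the graph of `f` is `SF`.  `SF1/SF2`, `SFn1/SFn2/SFn3/SFn4`: fixed-arity versions, closed under
substitution.  The tactic `sf` (or `sf [h₁, h₂]` with extra closure lemmas) applies the closure lemmas.
-/

set_option autoImplicit false

namespace Crest.Agent.R323

/-- Polynomial functions with natural coefficients. -/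
inductive NP {α : Type} : ((α → ℕ) → ℕ) → Prop
  | proj (i : α) : NP fun v => v i
  | const (c : ℕ) : NP fun _ => c
  | add {f g : (α → ℕ) → ℕ} : NP f → NP g → NP fun v => f v + g v
  | mul {f g : (α → ℕ) → ℕ} : NP f → NP g → NP fun v => f v * g v

/-- Single-fold Diophantine predicates. -/
def SF {α : Type} (p : (α → ℕ) → Prop) : Prop :=
  ∃ (β : Type) (_ : Finite β) (f g : (α ⊕ β → ℕ) → ℕ), NP f ∧ NP g ∧
    (∀ a, p a ↔ ∃ w, f (Sum.elim a w) = g (Sum.elim a w)) ∧
    ∀ a w w', f (Sum.elim a w) = g (Sum.elim a w) → f (Sum.elim a w') = g (Sum.elim a w') → w = w'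

/-- Single-fold Diophantine functions. -/
def SFn {α : Type} (f : (α → ℕ) → ℕ) : Prop :=
  SF fun v : Option α → ℕ => v none = f fun i => v (some i)

variable {α α' γ : Type}

theorem NP.comp {f : (γ → ℕ) → ℕ} (hf : NP f) {F : γ → (α → ℕ) → ℕ} (hF : ∀ i, NP (F i)) :
    NP fun v => f fun i => F i v := by
  induction hf with
  | proj i => exact hF i
  | const c => exact .const c
  | add _ _ ih₁ ih₂ => exact .add ih₁ ih₂
  | mul _ _ ih₁ ih₂ => exact .mul ih₁ ih₂

theorem NP.reindex {f : (γ → ℕ) → ℕ} (hf : NP f) (e : γ → α) :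
    NP fun v : α → ℕ => f fun i => v (e i) :=
  hf.comp fun i => .proj (e i)

theorem NP.toMv {f : (α → ℕ) → ℕ} (hf : NP f) :
    ∃ P : MvPolynomial α ℤ, ∀ v : α → ℕ, MvPolynomial.eval (fun i => (v i : ℤ)) P = f v := by
  induction hf with
  | proj i => exact ⟨MvPolynomial.X i, fun v => by simp⟩
  | const c => exact ⟨MvPolynomial.C c, fun v => by simp⟩
  | add _ _ ih₁ ih₂ =>
    obtain ⟨P, hP⟩ := ih₁; obtain ⟨Q, hQ⟩ := ih₂
    exact ⟨P + Q, fun v => by simp [hP, hQ]⟩
  | mul _ _ ih₁ ih₂ =>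
    obtain ⟨P, hP⟩ := ih₁; obtain ⟨Q, hQ⟩ := ih₂
    exact ⟨P * Q, fun v => by simp [hP, hQ]⟩

theorem sq_iff (a b c d : ℕ) :
    a * a + b * b + (c * c + d * d) = 2 * (a * b) + 2 * (c * d) ↔ a = b ∧ c = d := by
  constructor
  · intro h
    have h' : ((a : ℤ) - b) ^ 2 + ((c : ℤ) - d) ^ 2 = 0 := by
      have := congrArg (Nat.cast : ℕ → ℤ) h
      push_cast at this
      linear_combination this
    have h1 : (a : ℤ) - b = 0 := by nlinarith [sq_nonneg ((a : ℤ) - b), sq_nonneg ((c : ℤ) - d)]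
    have h2 : (c : ℤ) - d = 0 := by nlinarith [sq_nonneg ((a : ℤ) - b), sq_nonneg ((c : ℤ) - d)]
    omega
  · rintro ⟨rfl, rfl⟩; ring

theorem SF.congr {p q : (α → ℕ) → Prop} (h : SF p) (H : ∀ v, p v ↔ q v) : SF q := by
  have : p = q := funext fun v => propext (H v)
  exact this ▸ h

theorem SF.of_np {f g : (α → ℕ) → ℕ} (hf : NP f) (hg : NP g) : SF fun v => f v = g v :=
  ⟨Empty, inferInstance, _, _, hf.reindex Sum.inl, hg.reindex Sum.inl,
    fun _ => ⟨fun h => ⟨Empty.elim, h⟩, fun ⟨_, h⟩ => h⟩, fun _ _ _ _ _ => Subsingleton.elim _ _⟩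

theorem SF.reindex {p : (γ → ℕ) → Prop} (h : SF p) (e : γ → α) :
    SF fun v : α → ℕ => p fun i => v (e i) := by
  obtain ⟨β, _, f, g, hf, hg, h1, h2⟩ := h
  have key : ∀ (a : α → ℕ) (w : β → ℕ),
      (fun i => Sum.elim a w (Sum.map e id i)) = Sum.elim (fun i => a (e i)) w := by
    intro a w; funext i; cases i <;> rfl
  refine ⟨β, inferInstance, _, _, hf.reindex (Sum.map e id), hg.reindex (Sum.map e id), ?_, ?_⟩
  · intro a; simp only [key]; exact h1 _
  · intro a w w'; simp only [key]; exact h2 _ w w'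

theorem SF.and {p q : (α → ℕ) → Prop} (hp : SF p) (hq : SF q) : SF fun v => p v ∧ q v := by
  obtain ⟨β, _, f, g, hf, hg, h1, h2⟩ := hp
  obtain ⟨β', _, f', g', hf', hg', h1', h2'⟩ := hq
  have k1 : ∀ (a : α → ℕ) (w : β ⊕ β' → ℕ),
      (fun i => Sum.elim a w (Sum.map id Sum.inl i)) = Sum.elim a fun i => w (Sum.inl i) := by
    intro a w; funext i; cases i <;> rfl
  have k2 : ∀ (a : α → ℕ) (w : β ⊕ β' → ℕ),
      (fun i => Sum.elim a w (Sum.map id Sum.inr i)) = Sum.elim a fun i => w (Sum.inr i) := by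
    intro a w; funext i; cases i <;> rfl
  have a1 := hf.reindex (Sum.map id Sum.inl : α ⊕ β → α ⊕ (β ⊕ β'))
  have a2 := hg.reindex (Sum.map id Sum.inl : α ⊕ β → α ⊕ (β ⊕ β'))
  have a3 := hf'.reindex (Sum.map id Sum.inr : α ⊕ β' → α ⊕ (β ⊕ β'))
  have a4 := hg'.reindex (Sum.map id Sum.inr : α ⊕ β' → α ⊕ (β ⊕ β'))
  refine ⟨β ⊕ β', inferInstance, _, _, ((a1.mul a1).add (a2.mul a2)).add ((a3.mul a3).add (a4.mul a4)),
    ((NP.const 2).mul (a1.mul a2)).add ((NP.const 2).mul (a3.mul a4)), ?_, ?_⟩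
  · intro a
    simp only [k1, k2, sq_iff]
    rw [h1, h1']
    constructor
    · rintro ⟨⟨w, hw⟩, ⟨w', hw'⟩⟩
      exact ⟨Sum.elim w w', hw, hw'⟩
    · rintro ⟨w, hw, hw'⟩
      exact ⟨⟨_, hw⟩, ⟨_, hw'⟩⟩
  · intro a w w'
    simp only [k1, k2, sq_iff]
    rintro ⟨e1, e2⟩ ⟨e3, e4⟩
    have b1 := h2 a _ _ e1 e3
    have b2 := h2' a _ _ e2 e4
    funext i
    cases i with
    | inl i => exact congrFun b1 i
    | inr i => exact congrFun b2 i

/-- A finite block of existential quantifiers with a unique witness. -/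
theorem SF.exs {β : Type} [Finite β] {q : (β → ℕ) → (α → ℕ) → Prop}
    (h : SF fun v : α ⊕ β → ℕ => q (fun j => v (Sum.inr j)) (fun i => v (Sum.inl i)))
    (hu : ∀ v w w', q w v → q w' v → w = w') : SF fun v => ∃ w, q w v := by
  obtain ⟨β', _, f, g, hf, hg, h1, h2⟩ := h
  let e : (α ⊕ β) ⊕ β' → α ⊕ (β ⊕ β') := Equiv.sumAssoc α β β'
  have k : ∀ (a : α → ℕ) (w : β ⊕ β' → ℕ), (fun i => Sum.elim a w (e i))
      = Sum.elim (Sum.elim a fun j => w (Sum.inl j)) fun j => w (Sum.inr j) := by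
    intro a w; funext i; rcases i with (i | i) | i <;> rfl
  refine ⟨β ⊕ β', inferInstance, _, _, hf.reindex e, hg.reindex e, ?_, ?_⟩
  · intro a
    simp only [k]
    constructor
    · rintro ⟨w, hw⟩
      obtain ⟨w', hw'⟩ := (h1 (Sum.elim a w)).1 hw
      exact ⟨Sum.elim w w', hw'⟩
    · rintro ⟨w, hw⟩
      exact ⟨_, (h1 (Sum.elim a fun j => w (Sum.inl j))).2 ⟨_, hw⟩⟩
  · intro a w w'
    simp only [k]
    intro e1 e2
    have b1 : (fun j => w (Sum.inl j)) = fun j => w' (Sum.inl j) :=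
      hu a _ _ ((h1 (Sum.elim a fun j => w (Sum.inl j))).2 ⟨_, e1⟩)
        ((h1 (Sum.elim a fun j => w' (Sum.inl j))).2 ⟨_, e2⟩)
    rw [← b1] at e2
    have b2 := h2 _ _ _ e1 e2
    funext i
    cases i with
    | inl i => exact congrFun b1 i
    | inr i => exact congrFun b2 i

/-- One existential quantifier with a unique witness. -/
theorem SF.ex {q : ℕ → (α → ℕ) → Prop}
    (h : SF fun v : Option α → ℕ => q (v none) (fun i => v (some i)))
    (hu : ∀ v x x', q x v → q x' v → x = x') : SF fun v => ∃ x, q x v := by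
  have h' := h.reindex (fun o => o.elim (Sum.inr ()) Sum.inl : Option α → α ⊕ Unit)
  refine (SF.exs (β := Unit) (q := fun w v => q (w ()) v) h' ?_).congr fun v => ?_
  · intro v w w' e1 e2
    funext j
    exact hu v _ _ e1 e2
  · exact ⟨fun ⟨w, hw⟩ => ⟨_, hw⟩, fun ⟨x, hx⟩ => ⟨fun _ => x, hx⟩⟩

/-- Two existential quantifiers with a unique pair of witnesses. -/
theorem SF.ex2 {q : ℕ → ℕ → (α → ℕ) → Prop}
    (h : SF fun v : Option (Option α) → ℕ =>
      q (v (some none)) (v none) (fun i => v (some (some i))))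
    (hu : ∀ v x y x' y', q x y v → q x' y' v → x = x' ∧ y = y') : SF fun v => ∃ x y, q x y v := by
  refine SF.ex (q := fun x v => ∃ y, q x y v) (SF.ex (q := fun y v => q (v none) y fun i => v (some i))
    h fun v y y' e1 e2 => (hu _ _ _ _ _ e1 e2).2) ?_
  rintro v x x' ⟨y, e1⟩ ⟨y', e2⟩
  exact (hu _ _ _ _ _ e1 e2).1

/-- Three existential quantifiers with a unique triple of witnesses. -/
theorem SF.ex3 {q : ℕ → ℕ → ℕ → (α → ℕ) → Prop}
    (h : SF fun v : Option (Option (Option α)) → ℕ =>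
      q (v (some (some none))) (v (some none)) (v none) (fun i => v (some (some (some i)))))
    (hu : ∀ v x y z x' y' z', q x y z v → q x' y' z' v → x = x' ∧ y = y' ∧ z = z') :
    SF fun v => ∃ x y z, q x y z v := by
  refine SF.ex (q := fun x v => ∃ y z, q x y z v)
    (SF.ex2 (q := fun y z v => q (v none) y z fun i => v (some i))
      h fun v y z y' z' e1 e2 => (hu _ _ _ _ _ _ _ e1 e2).2) ?_
  rintro v x x' ⟨y, z, e1⟩ ⟨y', z', e2⟩
  exact (hu _ _ _ _ _ _ _ e1 e2).1

theorem SF.true : SF fun _ : α → ℕ => True :=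
  (SF.of_np (NP.const 0) (NP.const 0)).congr fun _ => by simp

theorem SF.all_finset {ι : Type} (s : Finset ι) {p : ι → (α → ℕ) → Prop} (h : ∀ i ∈ s, SF (p i)) :
    SF fun v => ∀ i ∈ s, p i v := by
  classical
  induction s using Finset.induction_on with
  | empty => exact SF.true.congr fun v => by simp
  | insert a s ha ih =>
    exact ((h a (by simp)).and (ih fun i hi => h i (by simp [hi]))).congr fun v => by simp

theorem SF.all_fin {ι : Type} [Finite ι] {p : ι → (α → ℕ) → Prop} (h : ∀ i, SF (p i)) :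
    SF fun v => ∀ i, p i v := by
  have := Fintype.ofFinite ι
  exact (SF.all_finset Finset.univ fun i _ => h i).congr fun v => by simp

theorem SFn.reindex {f : (γ → ℕ) → ℕ} (h : SFn f) (e : γ → α) :
    SFn fun v : α → ℕ => f fun i => v (e i) :=
  SF.reindex h (Option.map e)

/-- Substituting single-fold functions into a single-fold predicate. -/
theorem SF.subst [Finite γ] {p : (γ → ℕ) → Prop} (hp : SF p) {F : γ → (α → ℕ) → ℕ}
    (hF : ∀ i, SFn (F i)) : SF fun v => p fun i => F i v := by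
  refine (SF.exs (β := γ) (q := fun w v => (∀ i, w i = F i v) ∧ p w) ?_ ?_).congr fun v => ?_
  · refine SF.and (SF.all_fin fun i => ?_) (hp.reindex Sum.inr)
    exact SF.reindex (hF i) (fun o => o.elim (Sum.inr i) Sum.inl : Option α → α ⊕ γ)
  · rintro v w w' ⟨e1, -⟩ ⟨e2, -⟩
    funext i; rw [e1, e2]
  · constructor
    · rintro ⟨w, e1, e2⟩
      rwa [show w = fun i => F i v from funext e1] at e2
    · exact fun h => ⟨_, fun _ => rfl, h⟩

theorem SFn.of_np {f : (α → ℕ) → ℕ} (hf : NP f) : SFn f :=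
  SF.of_np (.proj none) (hf.reindex some)

theorem SFn.proj (i : α) : SFn fun v : α → ℕ => v i := .of_np (.proj i)

theorem SFn.const (c : ℕ) : SFn fun _ : α → ℕ => c := .of_np (.const c)

/-- Substituting single-fold functions into a single-fold function. -/
theorem SFn.subst [Finite γ] {f : (γ → ℕ) → ℕ} (hf : SFn f) {F : γ → (α → ℕ) → ℕ}
    (hF : ∀ i, SFn (F i)) : SFn fun v => f fun i => F i v :=
  SF.subst (γ := Option γ) hf
    (F := fun o v => o.elim (v none) fun i => F i fun j => v (some j)) fun o => by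
      cases o with
      | none => exact SFn.proj none
      | some i => exact (hF i).reindex some

theorem SFn.congr {f g : (α → ℕ) → ℕ} (h : SFn f) (H : ∀ v, f v = g v) : SFn g := by
  have : f = g := funext H
  exact this ▸ h

/-- A function is single-fold when some single-fold relation is its graph. -/
theorem SFn.intro {f : (α → ℕ) → ℕ} (r : ℕ → (α → ℕ) → Prop)
    (h : SF fun v : Option α → ℕ => r (v none) fun i => v (some i))
    (hr : ∀ z v, r z v ↔ z = f v) : SFn f :=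
  h.congr fun _ => hr _ _

/-! ### Fixed arities -/

def SF1 (R : ℕ → Prop) : Prop :=
  ∀ ⦃α : Type⦄ ⦃f : (α → ℕ) → ℕ⦄, SFn f → SF fun v => R (f v)

def SF2 (R : ℕ → ℕ → Prop) : Prop :=
  ∀ ⦃α : Type⦄ ⦃f g : (α → ℕ) → ℕ⦄, SFn f → SFn g → SF fun v => R (f v) (g v)

def SFn1 (F : ℕ → ℕ) : Prop :=
  ∀ ⦃α : Type⦄ ⦃f : (α → ℕ) → ℕ⦄, SFn f → SFn fun v => F (f v)

def SFn2 (F : ℕ → ℕ → ℕ) : Prop :=
  ∀ ⦃α : Type⦄ ⦃f g : (α → ℕ) → ℕ⦄, SFn f → SFn g → SFn fun v => F (f v) (g v)

def SFn3 (F : ℕ → ℕ → ℕ → ℕ) : Prop :=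
  ∀ ⦃α : Type⦄ ⦃f g h : (α → ℕ) → ℕ⦄, SFn f → SFn g → SFn h → SFn fun v => F (f v) (g v) (h v)

def SFn4 (F : ℕ → ℕ → ℕ → ℕ → ℕ) : Prop :=
  ∀ ⦃α : Type⦄ ⦃f g h k : (α → ℕ) → ℕ⦄, SFn f → SFn g → SFn h → SFn k →
    SFn fun v => F (f v) (g v) (h v) (k v)

theorem SF1.mk {R : ℕ → Prop} (h : SF fun v : Fin 1 → ℕ => R (v 0)) : SF1 R :=
  fun _ f hf => h.subst (F := ![f]) fun i => by fin_cases i; exact hf

theorem SF2.mk {R : ℕ → ℕ → Prop} (h : SF fun v : Fin 2 → ℕ => R (v 0) (v 1)) : SF2 R :=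
  fun _ f g hf hg => h.subst (F := ![f, g]) fun i => by fin_cases i <;> assumption

theorem SFn1.mk {F : ℕ → ℕ} (h : SFn fun v : Fin 1 → ℕ => F (v 0)) : SFn1 F :=
  fun _ f hf => h.subst (F := ![f]) fun i => by fin_cases i; exact hf

theorem SFn2.mk {F : ℕ → ℕ → ℕ} (h : SFn fun v : Fin 2 → ℕ => F (v 0) (v 1)) : SFn2 F :=
  fun _ f g hf hg => h.subst (F := ![f, g]) fun i => by fin_cases i <;> assumption

theorem SFn3.mk {F : ℕ → ℕ → ℕ → ℕ} (h : SFn fun v : Fin 3 → ℕ => F (v 0) (v 1) (v 2)) : SFn3 F :=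
  fun _ f g k hf hg hk => h.subst (F := ![f, g, k]) fun i => by fin_cases i <;> assumption

theorem SFn4.mk {F : ℕ → ℕ → ℕ → ℕ → ℕ}
    (h : SFn fun v : Fin 4 → ℕ => F (v 0) (v 1) (v 2) (v 3)) : SFn4 F :=
  fun _ f g k l hf hg hk hl => h.subst (F := ![f, g, k, l]) fun i => by fin_cases i <;> assumption

/-! ### Closure lemmas -/

variable {f g k : (α → ℕ) → ℕ}

theorem SFn.add (hf : SFn f) (hg : SFn g) : SFn fun v => f v + g v :=
  SFn2.mk (F := (· + ·)) (.of_np (.add (.proj 0) (.proj 1))) hf hg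

theorem SFn.mul (hf : SFn f) (hg : SFn g) : SFn fun v => f v * g v :=
  SFn2.mk (F := (· * ·)) (.of_np (.mul (.proj 0) (.proj 1))) hf hg

theorem SF.eq (hf : SFn f) (hg : SFn g) : SF fun v => f v = g v :=
  SF2.mk (R := (· = ·)) (.of_np (.proj 0) (.proj 1)) hf hg

theorem SF.le (hf : SFn f) (hg : SFn g) : SF fun v => f v ≤ g v := by
  refine SF2.mk (R := (· ≤ ·)) ?_ hf hg
  refine (SF.ex (q := fun x v => v 0 + x = v 1)
    (.of_np (.add (.proj _) (.proj _)) (.proj _)) fun v x x' e1 e2 => by omega).congr fun v => ?_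
  exact ⟨fun ⟨x, hx⟩ => by omega, fun h => ⟨v 1 - v 0, by omega⟩⟩

theorem SF.lt (hf : SFn f) (hg : SFn g) : SF fun v => f v < g v :=
  SF.le (hf.add (.const 1)) hg

/-- Power with a constant exponent. -/
theorem SFn.npow (hf : SFn f) (c : ℕ) : SFn fun v => f v ^ c := by
  induction c with
  | zero => exact (SFn.const 1).congr fun v => by simp
  | succ c ih => exact (ih.mul hf).congr fun v => by rw [pow_succ]

theorem SFn.sub (hf : SFn f) (hg : SFn g) : SFn fun v => f v - g v := by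
  refine SFn2.mk (F := (· - ·)) ?_ hf hg
  refine SFn.intro (fun z v => ∃ w, z + v 1 = v 0 + w ∧ z * w = 0) (SF.ex ?_ ?_) ?_
  · exact SF.and (.eq (.add (.proj _) (.proj _)) (.add (.proj _) (.proj _)))
      (.eq (.mul (.proj _) (.proj _)) (.const _))
  · rintro v x x' ⟨e1, -⟩ ⟨e2, -⟩; omega
  · intro z v
    constructor
    · rintro ⟨w, e1, e2⟩
      rcases Nat.mul_eq_zero.1 e2 with h | h <;> omega
    · rintro rfl
      refine ⟨v 1 - v 0, by omega, ?_⟩
      rcases le_total (v 0) (v 1) with h | h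
      · rw [Nat.sub_eq_zero_of_le h, zero_mul]
      · rw [Nat.sub_eq_zero_of_le h, mul_zero]

theorem SF.ne (hf : SFn f) (hg : SFn g) : SF fun v => f v ≠ g v :=
  (SF.lt (.const 0) ((hf.sub hg).add (hg.sub hf))).congr fun v => by omega

theorem SFn.div (hf : SFn f) (hg : SFn g) : SFn fun v => f v / g v := by
  refine SFn2.mk (F := (· / ·)) ?_ hf hg
  refine SFn.intro (fun z v => z * (1 - v 1) = 0 ∧ z * v 1 ≤ v 0 ∧
    v 0 * (1 - (1 - v 1)) < (z + 1) * v 1 + (1 - v 1)) ?_ ?_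
  · exact SF.and (.eq (.mul (.proj _) (.sub (.const _) (.proj _))) (.const _))
      (SF.and (.le (.mul (.proj _) (.proj _)) (.proj _))
        (.lt (.mul (.proj _) (.sub (.const _) (.sub (.const _) (.proj _))))
          (.add (.mul (.add (.proj _) (.const _)) (.proj _)) (.sub (.const _) (.proj _)))))
  · intro z v
    rcases Nat.eq_zero_or_pos (v 1) with h | h
    · simp [h]
    · have h1 : 1 - v 1 = 0 := by omega
      simp only [h1, mul_zero, Nat.sub_zero, mul_one, add_zero, true_and]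
      rw [eq_comm, Nat.div_eq_iff h]
      constructor <;> rintro ⟨e1, e2⟩ <;> refine ⟨e1, ?_⟩ <;> rw [add_mul, one_mul] at * <;> omega

theorem SFn.mod (hf : SFn f) (hg : SFn g) : SFn fun v => f v % g v :=
  (hf.sub (hg.mul (hf.div hg))).congr fun v => by rw [Nat.mod_def]

theorem SFn.ite_zero (hf : SFn f) (hg : SFn g) (hk : SFn k) :
    SFn fun v => if f v = 0 then g v else k v :=
  ((hg.mul ((SFn.const 1).sub hf)).add (hk.mul ((SFn.const 1).sub ((SFn.const 1).sub hf)))).congr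
    fun v => by
      split_ifs with h
      · simp [h]
      · have : 1 - f v = 0 := by omega
        simp [this]

theorem SFn.sum {ι : Type} (s : Finset ι) {F : ι → (α → ℕ) → ℕ} (h : ∀ i ∈ s, SFn (F i)) :
    SFn fun v => ∑ i ∈ s, F i v := by
  classical
  induction s using Finset.induction_on with
  | empty => exact (SFn.const 0).congr fun v => by simp
  | insert a s ha ih =>
    exact ((h a (by simp)).add (ih fun i hi => h i (by simp [hi]))).congr fun v => by
      rw [Finset.sum_insert ha]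

/-- One closure step; extend it with `macro_rules`. -/
syntax "sf_step" : tactic

macro_rules
  | `(tactic| sf_step) => `(tactic| first
    | with_reducible exact SFn.const _
    | with_reducible exact SFn.proj _
    | with_reducible assumption
    | with_reducible apply SF.and
    | with_reducible apply SF.eq
    | with_reducible apply SF.le
    | with_reducible apply SF.lt
    | with_reducible apply SF.ne
    | with_reducible exact SF.true
    | with_reducible apply SFn.add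
    | with_reducible apply SFn.mul
    | with_reducible apply SFn.sub
    | with_reducible apply SFn.div
    | with_reducible apply SFn.mod
    | with_reducible_and_instances refine SFn.npow ?_ _
    | with_reducible apply SFn.ite_zero)

/-- Apply the closure lemmas, and the given extra lemmas, as long as possible. -/
syntax "sf" (" [" term,* "]")? : tactic

macro_rules
  | `(tactic| sf) => `(tactic| (beta_reduce; repeat' sf_step))
  | `(tactic| sf [$ts,*]) =>
    `(tactic| (beta_reduce; repeat' (first | sf_step $[| apply $ts]*)))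

theorem SF.coprime (hf : SFn f) (hg : SFn g) : SF fun v => 0 < g v ∧ Nat.Coprime (f v) (g v) := by
  refine SF2.mk (R := fun s e => 0 < e ∧ Nat.Coprime s e) ?_ hf hg
  refine (SF.ex (q := fun u v => u < v 1 ∧ v 0 * u % v 1 = 1 % v 1) (by sf) ?_).congr fun v => ?_
  · rintro v u u' ⟨e1, e2⟩ ⟨e3, e4⟩
    have hc : Nat.Coprime (v 0) (v 1) := Nat.coprime_of_mul_modEq_one u e2
    have : u ≡ u' [MOD v 1] := Nat.ModEq.cancel_left_of_coprime hc.symm (e2.trans e4.symm)
    exact Nat.ModEq.eq_of_lt_of_lt this e1 e3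
  · constructor
    · rintro ⟨u, e1, e2⟩
      exact ⟨by omega, Nat.coprime_of_mul_modEq_one u e2⟩
    · rintro ⟨e1, e2⟩
      rcases Nat.lt_or_ge 1 (v 1) with h | h
      · obtain ⟨u, hu, hu'⟩ := Nat.exists_mul_mod_eq_one_of_coprime e2 h
        exact ⟨u, hu, by rw [hu', Nat.mod_eq_of_lt h]⟩
      · have : v 1 = 1 := by omega
        exact ⟨0, e1, by simp [this]⟩

/-- The final conversion to an integer polynomial. -/
theorem SF.final {n : ℕ} {p : (Fin n → ℕ) → Prop} (h : SF p) :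
    ∃ m : ℕ, 1 ≤ m ∧ ∃ P : MvPolynomial (Fin n ⊕ Fin m) ℤ, ∀ a : Fin n → ℕ,
      (p a → ∃! w : Fin m → ℕ,
        MvPolynomial.eval (Sum.elim (fun i => (a i : ℤ)) (fun j => (w j : ℤ))) P = 0) ∧
      (¬ p a → ∀ w : Fin m → ℕ,
        MvPolynomial.eval (Sum.elim (fun i => (a i : ℤ)) (fun j => (w j : ℤ))) P ≠ 0) := by
  obtain ⟨β, _, f, g, hf, hg, h1, h2⟩ := h
  obtain ⟨m, ⟨e⟩⟩ := Finite.exists_equiv_fin (Option β)
  have hm : 1 ≤ m := (e none).pos
  let r : Fin n ⊕ β → Fin n ⊕ Fin m := Sum.map id fun b => e (some b)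
  have a1 := hf.reindex r
  have a2 := hg.reindex r
  have a3 : NP fun v : Fin n ⊕ Fin m → ℕ => v (Sum.inr (e none)) := .proj _
  have a4 : NP fun _ : Fin n ⊕ Fin m → ℕ => 0 := .const _
  obtain ⟨P, hP⟩ := (((a1.mul a1).add (a2.mul a2)).add ((a3.mul a3).add (a4.mul a4))).toMv
  obtain ⟨Q, hQ⟩ := (((NP.const 2).mul (a1.mul a2)).add ((NP.const 2).mul (a3.mul a4))).toMv
  have key : ∀ (a : Fin n → ℕ) (w : Fin m → ℕ),
      MvPolynomial.eval (Sum.elim (fun i => (a i : ℤ)) (fun j => (w j : ℤ))) (P - Q) = 0 ↔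
        f (Sum.elim a fun b => w (e (some b))) = g (Sum.elim a fun b => w (e (some b))) ∧
          w (e none) = 0 := by
    intro a w
    have e1 : (Sum.elim (fun i => (a i : ℤ)) (fun j => (w j : ℤ)))
        = fun i => ((Sum.elim a w i : ℕ) : ℤ) := by
      funext i; cases i <;> rfl
    have e2 : (fun i => Sum.elim a w (r i)) = Sum.elim a fun b => w (e (some b)) := by
      funext i; cases i <;> rfl
    rw [e1, map_sub, hP, hQ, sub_eq_zero, Nat.cast_inj, sq_iff, e2]
    rfl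
  refine ⟨m, hm, P - Q, fun a => ⟨fun hp => ?_, fun hp w hw => hp ((h1 a).2 ⟨_, ((key a w).1 hw).1⟩)⟩⟩
  obtain ⟨w, hw⟩ := (h1 a).1 hp
  refine ⟨fun j => (e.symm j).elim 0 w, (key a _).2 ⟨by simpa using hw, by simp⟩, fun w' hw' => ?_⟩
  obtain ⟨e1, e2⟩ := (key a w').1 hw'
  have := h2 a _ _ e1 hw
  funext j
  obtain ⟨o, rfl⟩ := e.surjective j
  cases o with
  | none => simpa using e2
  | some b => simpa using congrFun this b

end Crest.Agent.R323
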